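import Mathlib

namespace Vale.Agent.P358A
open Real

noncomputable section

/-- The entropy of entanglement as a function of the concurrence (in nats). -/
def Eent (C : ℝ) : ℝ := Real.binEntropy ((1 + Real.sqrt (1 - C ^ 2)) / 2)

lemma u_facts {C : ℝ} (h0 : 0 < C) (h1 : C < 1) :
    0 < Real.sqrt (1 - C ^ 2) ∧ Real.sqrt (1 - C ^ 2) < 1 ∧
      Real.sqrt (1 - C ^ 2) ^ 2 = 1 - C ^ 2 := by
  have hp : 0 < 1 - C ^ 2 := by nlinarith
  refine ⟨Real.sqrt_pos.mpr hp, ?_, Real.sq_sqrt hp.le⟩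
  rw [Real.sqrt_lt' (by norm_num)]
  nlinarith

lemma hasDerivAt_u {C : ℝ} (h0 : 0 < C) (h1 : C < 1) :
    HasDerivAt (fun x : ℝ => Real.sqrt (1 - x ^ 2)) (-C / Real.sqrt (1 - C ^ 2)) C := by
  have hp : 0 < 1 - C ^ 2 := by nlinarith
  have h := ((hasDerivAt_id C).pow 2).const_sub 1
  have h2 := h.sqrt hp.ne'
  refine h2.congr_deriv ?_
  simp
  field_simp

/-- First derivative of `Eent`. -/
def d1 (C : ℝ) : ℝ :=
  C / Real.sqrt (1 - C ^ 2) *
    ((Real.log (1 + Real.sqrt (1 - C ^ 2)) - Real.log (1 - Real.sqrt (1 - C ^ 2))) / 2)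

lemma hasDerivAt_Eent {C : ℝ} (h0 : 0 < C) (h1 : C < 1) : HasDerivAt Eent (d1 C) C := by
  obtain ⟨hu0, hu1, hu2⟩ := u_facts h0 h1
  set u := Real.sqrt (1 - C ^ 2) with hu
  have hd := hasDerivAt_u h0 h1
  have hpd : HasDerivAt (fun x : ℝ => (1 + Real.sqrt (1 - x ^ 2)) / 2) (-C / u / 2) C :=
    (hd.const_add 1).div_const 2
  have hp0 : (1 + u) / 2 ≠ 0 := by positivity
  have hp1 : (1 + u) / 2 ≠ 1 := by intro h; nlinarith
  have hb := (Real.hasDerivAt_binEntropy hp0 hp1).comp C hpd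
  refine hb.congr_deriv ?_
  have e1 : 1 - (1 + u) / 2 = (1 - u) / 2 := by ring
  have hm : 0 < 1 - u := by linarith
  have hq : 0 < 1 + u := by linarith
  rw [e1, Real.log_div hm.ne' (by norm_num), Real.log_div hq.ne' (by norm_num)]
  simp only [d1, ← hu]
  field_simp
  ring

/-- Second derivative of `Eent`. -/
def d2 (C : ℝ) : ℝ :=
  ((Real.log (1 + Real.sqrt (1 - C ^ 2)) - Real.log (1 - Real.sqrt (1 - C ^ 2))) / 2 -
      Real.sqrt (1 - C ^ 2)) / Real.sqrt (1 - C ^ 2) ^ 3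

lemma hasDerivAt_d1 {C : ℝ} (h0 : 0 < C) (h1 : C < 1) : HasDerivAt d1 (d2 C) C := by
  obtain ⟨hu0, hu1, hu2⟩ := u_facts h0 h1
  have hd := hasDerivAt_u h0 h1
  set u := Real.sqrt (1 - C ^ 2) with hu
  have hm : 0 < 1 - u := by linarith
  have hq : 0 < 1 + u := by linarith
  have hquot : HasDerivAt (fun x : ℝ => x / Real.sqrt (1 - x ^ 2))
      ((1 * u - C * (-C / u)) / u ^ 2) C := (hasDerivAt_id C).div hd hu0.ne'
  have hl1 : HasDerivAt (fun x : ℝ => Real.log (1 + Real.sqrt (1 - x ^ 2))) ((-C / u) / (1 + u)) C :=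
    (hd.const_add 1).log hq.ne'
  have hl2 : HasDerivAt (fun x : ℝ => Real.log (1 - Real.sqrt (1 - x ^ 2)))
      ((-(-C / u)) / (1 - u)) C := (hd.const_sub 1).log hm.ne'
  have hall := hquot.mul ((hl1.sub hl2).div_const 2)
  refine hall.congr_deriv ?_
  simp only [d2, ← hu, Pi.sub_apply]
  have hC2 : u ^ 2 + C ^ 2 = 1 := by linarith
  have hprod : (1 + u) * (1 - u) = C ^ 2 := by nlinarith
  have hC : C ≠ 0 := h0.ne'
  have hune : u ≠ 0 := hu0.ne'
  have key1 : (1 * u - C * (-C / u)) / u ^ 2 = 1 / u ^ 3 := by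
    field_simp
    nlinarith
  have key2 : C / u * ((-C / u / (1 + u) - -(-C / u) / (1 - u)) / 2) = -1 / u ^ 2 := by
    have e : -C / u / (1 + u) - -(-C / u) / (1 - u) = -(C / u) * (2 / C ^ 2) := by
      rw [← hprod]
      field_simp
      ring
    rw [e]
    field_simp
  rw [key1, key2]
  field_simp
  ring

lemma artanh_ge {u : ℝ} (h0 : 0 ≤ u) (h1 : u < 1) : u ≤ (Real.log (1 + u) - Real.log (1 - u)) / 2 := by
  have h := Real.hasSum_log_sub_log_of_abs_lt_one (x := u) (by rw [abs_of_nonneg h0]; exact h1)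
  have hle := le_hasSum h 0 (fun k _ => by positivity)
  simp at hle
  linarith

lemma d2_nonneg {C : ℝ} (h0 : 0 < C) (h1 : C < 1) : 0 ≤ d2 C := by
  obtain ⟨hu0, hu1, hu2⟩ := u_facts h0 h1
  have := artanh_ge hu0.le hu1
  simp only [d2]
  apply div_nonneg
  · linarith
  · positivity

lemma continuous_Eent : Continuous Eent := by
  unfold Eent
  exact Real.binEntropy_continuous.comp (by fun_prop)

theorem convexOn_Eent : ConvexOn ℝ (Set.Icc (0 : ℝ) 1) Eent := by
  refine MonotoneOn.convexOn_of_deriv (convex_Icc 0 1) continuous_Eent.continuousOn ?_ ?_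
  · rw [interior_Icc]
    intro x hx
    exact (hasDerivAt_Eent hx.1 hx.2).differentiableAt.differentiableWithinAt
  · rw [interior_Icc]
    have hEq : Set.EqOn (deriv Eent) d1 (Set.Ioo 0 1) := fun x hx =>
      (hasDerivAt_Eent hx.1 hx.2).deriv
    refine MonotoneOn.congr ?_ hEq.symm
    refine monotoneOn_of_deriv_nonneg (convex_Ioo 0 1) ?_ ?_ ?_
    · intro x hx
      exact (hasDerivAt_d1 hx.1 hx.2).continuousAt.continuousWithinAt
    · rw [interior_Ioo]
      intro x hx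
      exact (hasDerivAt_d1 hx.1 hx.2).differentiableAt.differentiableWithinAt
    · rw [interior_Ioo]
      intro x hx
      rw [(hasDerivAt_d1 hx.1 hx.2).deriv]
      exact d2_nonneg hx.1 hx.2

end

end Vale.Agent.P358A
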