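import Mathlib

/-! Spectral glue for the entropy inequality: the unnormalised entropy `Su`, the homogeneous
entropy `Fe`, invariance under `X X^* ↔ X^* X`, reindexing and scaling, and log det. -/

namespace Vale.Agent.P358A
open Matrix Finset BigOperators
open scoped ComplexOrder

noncomputable section

variable {m n : Type*} [Fintype m] [DecidableEq m] [Fintype n] [DecidableEq n]

/-- Unnormalised entropy in nats: `∑ -λ log λ` over the eigenvalues (`0` if not Hermitian). -/
def Su (X : Matrix m m ℂ) : ℝ :=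
  if h : X.IsHermitian then ∑ i, Real.negMulLog (h.eigenvalues i) else 0

/-- Homogeneous entropy: `F(X) = Tr X · S(X / Tr X)`. -/
def Fe (X : Matrix m m ℂ) : ℝ := Su X + (X.trace).re * Real.log (X.trace).re

lemma Su_of_herm {X : Matrix m m ℂ} (h : X.IsHermitian) :
    Su X = ∑ i, Real.negMulLog (h.eigenvalues i) := by
  simp [Su, h]

/-- The roots of the characteristic polynomial are the eigenvalues. -/
lemma map_eig_eq_roots {X : Matrix m m ℂ} (h : X.IsHermitian) :
    (Finset.univ.val.map fun i => ((h.eigenvalues i : ℝ) : ℂ)) = X.charpoly.roots := by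
  rw [h.roots_charpoly_eq_eigenvalues]
  rfl

/-- Sums over eigenvalues of `f` with `f 0 = 0` only see the characteristic polynomial
up to powers of `X`. -/
lemma sum_eig_eq_of_charpoly {X : Matrix m m ℂ} {Y : Matrix n n ℂ} (hX : X.IsHermitian)
    (hY : Y.IsHermitian) (a b : ℕ)
    (h : (Polynomial.X : Polynomial ℂ) ^ a * X.charpoly = Polynomial.X ^ b * Y.charpoly)
    (f : ℝ → ℝ) (hf : f 0 = 0) :
    ∑ i, f (hX.eigenvalues i) = ∑ j, f (hY.eigenvalues j) := by
  have hXne : X.charpoly ≠ 0 := (Matrix.charpoly_monic X).ne_zero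
  have hYne : Y.charpoly ≠ 0 := (Matrix.charpoly_monic Y).ne_zero
  have hXa : (Polynomial.X : Polynomial ℂ) ^ a ≠ 0 := pow_ne_zero _ Polynomial.X_ne_zero
  have hYb : (Polynomial.X : Polynomial ℂ) ^ b ≠ 0 := pow_ne_zero _ Polynomial.X_ne_zero
  have hr := congrArg Polynomial.roots h
  rw [Polynomial.roots_mul (mul_ne_zero hXa hXne), Polynomial.roots_mul (mul_ne_zero hYb hYne),
    Polynomial.roots_X_pow, Polynomial.roots_X_pow, ← map_eig_eq_roots hX,
    ← map_eig_eq_roots hY] at hr
  have hs := congrArg (fun s : Multiset ℂ => (s.map (fun z => f z.re)).sum) hr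
  simp only [Multiset.map_add, Multiset.sum_add, Multiset.map_nsmul, Multiset.map_singleton,
    Multiset.sum_nsmul, Multiset.sum_singleton, Multiset.map_map, Function.comp,
    Complex.ofReal_re, Complex.zero_re, hf, smul_zero, zero_add] at hs
  exact hs

/-- If `X` is unitarily diagonal with real diagonal `d` then sums over eigenvalues are sums
over `d`. -/
lemma sum_eig_eq_of_charpoly_prod {X : Matrix m m ℂ} (hX : X.IsHermitian) (d : m → ℝ)
    (h : X.charpoly = ∏ i, (Polynomial.X - Polynomial.C ((d i : ℝ) : ℂ))) (f : ℝ → ℝ) :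
    ∑ i, f (hX.eigenvalues i) = ∑ i, f (d i) := by
  have h1 := map_eig_eq_roots hX
  rw [h, Polynomial.roots_prod _ _ (by
    exact Finset.prod_ne_zero_iff.mpr fun i _ => Polynomial.X_sub_C_ne_zero _)] at h1
  simp only [Polynomial.roots_X_sub_C, Multiset.bind_singleton] at h1
  have hs := congrArg (fun s : Multiset ℂ => (s.map (fun z => f z.re)).sum) h1
  simpa [Multiset.map_map, Function.comp] using hs

lemma charpoly_smul_herm {X : Matrix m m ℂ} (hX : X.IsHermitian) (c : ℝ) :
    (((c : ℝ) : ℂ) • X).charpoly =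
      ∏ i, (Polynomial.X - Polynomial.C (((c * hX.eigenvalues i : ℝ)) : ℂ)) := by
  have hspec := hX.spectral_theorem
  set U := hX.eigenvectorUnitary with hU
  have hUU : (U : Matrix m m ℂ) * star (U : Matrix m m ℂ) = 1 := by
    exact (Matrix.mem_unitaryGroup_iff).1 U.2
  have hUU' : star (U : Matrix m m ℂ) * (U : Matrix m m ℂ) = 1 := by
    exact (Matrix.mem_unitaryGroup_iff').1 U.2
  have hX' : X = (U : Matrix m m ℂ) * diagonal (RCLike.ofReal ∘ hX.eigenvalues) *
      star (U : Matrix m m ℂ) := by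
    conv_lhs => rw [hspec]
    rfl
  have h2 : ((c : ℝ) : ℂ) • X = (U : Matrix m m ℂ) *
      (diagonal fun i => (((c * hX.eigenvalues i : ℝ)) : ℂ)) * star (U : Matrix m m ℂ) := by
    have : (diagonal fun i => (((c * hX.eigenvalues i : ℝ)) : ℂ)) =
        ((c : ℝ) : ℂ) • diagonal (RCLike.ofReal ∘ hX.eigenvalues) := by
      ext i j
      by_cases hij : i = j
      · subst hij; simp
      · simp [diagonal_apply_ne _ hij]
    rw [this, Matrix.mul_smul, Matrix.smul_mul, ← hX']
  rw [h2, Matrix.charpoly_mul_comm, ← mul_assoc, hUU', one_mul, Matrix.charpoly_diagonal]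

/-- Eigenvalue sums for `c • X`. -/
lemma sum_eig_smul {X : Matrix m m ℂ} (hX : X.IsHermitian) (c : ℝ)
    (hc : (((c : ℝ) : ℂ) • X).IsHermitian) (f : ℝ → ℝ) :
    ∑ i, f (hc.eigenvalues i) = ∑ i, f (c * hX.eigenvalues i) :=
  sum_eig_eq_of_charpoly_prod hc _ (charpoly_smul_herm hX c) f

lemma isHermitian_smul_real {X : Matrix m m ℂ} (hX : X.IsHermitian) (c : ℝ) :
    (((c : ℝ) : ℂ) • X).IsHermitian := by
  ext i j
  have h := congrFun (congrFun hX i) j
  simp only [Matrix.conjTranspose_apply, Matrix.smul_apply, smul_eq_mul, star_mul'] at h ⊢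
  simp [h]

lemma trace_eq_sum_eig {X : Matrix m m ℂ} (hX : X.IsHermitian) :
    (X.trace).re = ∑ i, hX.eigenvalues i := by
  have h := hX.trace_eq_sum_eigenvalues
  rw [h]
  simp

/-- Scaling of the unnormalised entropy. -/
lemma Su_smul {X : Matrix m m ℂ} (hX : X.IsHermitian) {c : ℝ} (hc : 0 < c) :
    Su (((c : ℝ) : ℂ) • X) = c * Su X - c * Real.log c * (X.trace).re := by
  have hc' := isHermitian_smul_real hX c
  rw [Su_of_herm hc', Su_of_herm hX, sum_eig_smul hX c hc', trace_eq_sum_eig hX, Finset.mul_sum,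
    Finset.mul_sum, ← Finset.sum_sub_distrib]
  refine Finset.sum_congr rfl fun i _ => ?_
  by_cases h0 : hX.eigenvalues i = 0
  · simp [h0]
  · simp only [Real.negMulLog]
    rw [Real.log_mul hc.ne' h0]
    ring

/-- `F` is homogeneous of degree one. -/
lemma Fe_smul {X : Matrix m m ℂ} (hX : X.IsHermitian) {c : ℝ} (hc : 0 ≤ c) :
    Fe (((c : ℝ) : ℂ) • X) = c * Fe X := by
  rcases hc.eq_or_lt with rfl | hc
  · have hz : Su (0 : Matrix m m ℂ) = 0 := by
      have h0 : (0 : Matrix m m ℂ).IsHermitian := Matrix.isHermitian_zero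
      rw [Su_of_herm h0, (Matrix.IsHermitian.eigenvalues_eq_zero_iff h0).2 rfl]
      simp
    simp [Fe, hz]
  · have htr : ((((c : ℝ) : ℂ) • X).trace).re = c * (X.trace).re := by
      simp [Matrix.trace_smul]
    unfold Fe
    rw [Su_smul hX hc, htr]
    by_cases h0 : (X.trace).re = 0
    · simp [h0]
    · rw [Real.log_mul hc.ne' h0]
      ring

lemma isHermitian_mul_conjTranspose' (B : Matrix m n ℂ) : (B * Bᴴ).IsHermitian :=
  Matrix.isHermitian_mul_conjTranspose_self B

lemma isHermitian_conjTranspose_mul' (B : Matrix m n ℂ) : (Bᴴ * B).IsHermitian :=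
  Matrix.isHermitian_conjTranspose_mul_self B

/-- `X X^*` and `X^* X` have the same entropy (rectangular blocks allowed). -/
lemma Su_mul_comm (B : Matrix m n ℂ) : Su (B * Bᴴ) = Su (Bᴴ * B) := by
  rw [Su_of_herm (isHermitian_mul_conjTranspose' B), Su_of_herm (isHermitian_conjTranspose_mul' B)]
  exact sum_eig_eq_of_charpoly _ _ _ _ (Matrix.charpoly_mul_comm' B Bᴴ) _ Real.negMulLog_zero

lemma trace_mul_comm' (B : Matrix m n ℂ) : (B * Bᴴ).trace = (Bᴴ * B).trace :=
  Matrix.trace_mul_comm _ _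

lemma Fe_mul_comm (B : Matrix m n ℂ) : Fe (B * Bᴴ) = Fe (Bᴴ * B) := by
  unfold Fe
  rw [Su_mul_comm, trace_mul_comm']

/-- Reindexing does not change `Su`. -/
lemma Su_reindex (e : m ≃ n) (X : Matrix m m ℂ) (hX : X.IsHermitian) :
    Su (Matrix.reindex e e X) = Su X := by
  have h' : (Matrix.reindex e e X).IsHermitian := by
    ext i j
    have h := congrFun (congrFun hX (e.symm i)) (e.symm j)
    simpa [Matrix.reindex_apply, Matrix.submatrix_apply] using h
  rw [Su_of_herm h', Su_of_herm hX]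
  have hc : (Polynomial.X : Polynomial ℂ) ^ 0 * (Matrix.reindex e e X).charpoly =
      Polynomial.X ^ 0 * X.charpoly := by
    rw [Matrix.charpoly_reindex]
  exact sum_eig_eq_of_charpoly h' hX 0 0 hc _ Real.negMulLog_zero

/-- `log det (1 + X/t)` as a sum over eigenvalues (for any Hermitian `X`, `t ≠ 0`). -/
lemma det_one_add_smul {X : Matrix m m ℂ} (hX : X.IsHermitian) (t : ℝ) :
    (1 + ((t : ℝ) : ℂ) • X).det = ((∏ i, (1 + t * hX.eigenvalues i) : ℝ) : ℂ) := by
  have h := charpoly_smul_herm hX (-t)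
  have h2 := congrArg (Polynomial.eval (1 : ℂ)) h
  rw [Matrix.eval_charpoly] at h2
  have h3 : (Matrix.scalar m (1 : ℂ) - ((-t : ℝ) : ℂ) • X) = 1 + ((t : ℝ) : ℂ) • X := by
    ext i j
    by_cases hij : i = j
    · subst hij; simp
    · simp [hij, Matrix.one_apply_ne hij]
  rw [h3] at h2
  rw [h2, Polynomial.eval_prod]
  push_cast
  refine Finset.prod_congr rfl fun i _ => ?_
  simp

end

end Vale.Agent.P358A
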