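import Mathlib
import Vale.Agent.P358A.Spectra
import Vale.Agent.P358A.EConvex

/-! From the block inequality `E*` (rectangular blocks) to the channel form `E**`:
for a positive semidefinite `ρ` on `ℂ² ⊗ ℂ^R`, with `T` the amplitude damping channel applied on
the qubit, `Eent(2 √(γη) q) + Fe ρ₀₀ + Fe ρ₁₁ ≤ Su T`. -/

namespace Vale.Agent.P358A
open Matrix Finset BigOperators
open scoped ComplexOrder

noncomputable section

/-- The statement `E*` for given blocks. -/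
def EStarAt {m1 n1 m2 n2 : Type*} [Fintype m1] [DecidableEq m1] [Fintype n1] [DecidableEq n1]
    [Fintype m2] [DecidableEq m2] [Fintype n2] [DecidableEq n2]
    (C1 : Matrix m1 n1 ℂ) (A : Matrix m1 n2 ℂ) (C2 : Matrix m2 n2 ℂ) : Prop :=
  ((fromBlocks C1 A 0 C2) * (fromBlocks C1 A 0 C2)ᴴ).trace.re = 1 →
    Eent (2 * Real.sqrt ((C1 * C1ᴴ).trace.re * (C2ᴴ * C2).trace.re)) +
      Fe (C1 * C1ᴴ) + Fe (C2ᴴ * C2) + Fe (A * Aᴴ) ≤
    Su ((fromBlocks C1 A 0 C2) * (fromBlocks C1 A 0 C2)ᴴ)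

variable {R : Type*} [Fintype R] [DecidableEq R]

/-- The `(a,b)` block of a matrix on `ℂ² ⊗ ℂ^R`. -/
def blk (ρ : Matrix (Fin 2 × R) (Fin 2 × R) ℂ) (a b : Fin 2) : Matrix R R ℂ :=
  Matrix.of fun r r' => ρ (a, r) (b, r')

/-- Amplitude damping on the qubit, blockwise. -/
def chanT (γ η : ℝ) (ρ : Matrix (Fin 2 × R) (Fin 2 × R) ℂ) :
    Matrix (Fin 2 × R) (Fin 2 × R) ℂ :=
  Matrix.of fun x y =>
    if x.1 = 0 ∧ y.1 = 0 then ρ (0, x.2) (0, y.2) + (γ : ℂ) * ρ (1, x.2) (1, y.2)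
    else if x.1 = 1 ∧ y.1 = 1 then (η : ℂ) * ρ (1, x.2) (1, y.2)
    else ((Real.sqrt η : ℝ) : ℂ) * ρ x y

/-- `R ⊕ R ≃ Fin 2 × R`. -/
def sumE : R ⊕ R ≃ Fin 2 × R where
  toFun := Sum.elim (fun r => (0, r)) (fun r => (1, r))
  invFun := fun x => if x.1 = 0 then Sum.inl x.2 else Sum.inr x.2
  left_inv := by
    intro x
    cases x <;> simp
  right_inv := by
    rintro ⟨a, r⟩
    fin_cases a <;> simp

lemma csq {x : ℝ} (hx : 0 ≤ x) : ((Real.sqrt x : ℝ) : ℂ) * ((Real.sqrt x : ℝ) : ℂ) = (x : ℂ) := by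
  rw [← Complex.ofReal_mul, Real.mul_self_sqrt hx]

variable {J : Type*} [Fintype J] [DecidableEq J]

/-- The block matrix `M` of the channel. -/
def Mblk (γ η : ℝ) (A B : Matrix R J ℂ) : Matrix (R ⊕ R) (J ⊕ J) ℂ :=
  fromBlocks (((Real.sqrt γ : ℝ) : ℂ) • B) A 0 (((Real.sqrt η : ℝ) : ℂ) • B)

lemma star_sq (x : ℝ) : star ((x : ℝ) : ℂ) = (x : ℂ) := by simp

lemma Mblk_mul {γ η : ℝ} (hγ : 0 ≤ γ) (hη : 0 ≤ η) (A B : Matrix R J ℂ) :
    Mblk γ η A B * (Mblk γ η A B)ᴴ =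
      fromBlocks ((γ : ℂ) • (B * Bᴴ) + A * Aᴴ) (((Real.sqrt η : ℝ) : ℂ) • (A * Bᴴ))
        (((Real.sqrt η : ℝ) : ℂ) • (B * Aᴴ)) ((η : ℂ) • (B * Bᴴ)) := by
  unfold Mblk
  rw [fromBlocks_conjTranspose, fromBlocks_multiply]
  congr 1
  · simp only [conjTranspose_smul, star_sq, Matrix.smul_mul, Matrix.mul_smul, smul_smul, csq hγ]
  · simp only [conjTranspose_smul, star_sq, Matrix.smul_mul, Matrix.mul_smul, smul_smul,
      conjTranspose_zero, Matrix.mul_zero, zero_add]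
  · simp only [conjTranspose_smul, star_sq, Matrix.smul_mul, Matrix.mul_smul, smul_smul,
      conjTranspose_zero, Matrix.zero_mul, zero_add, Matrix.mul_zero, smul_zero]
  · simp only [conjTranspose_smul, star_sq, Matrix.smul_mul, Matrix.mul_smul, smul_smul,
      conjTranspose_zero, Matrix.zero_mul, zero_add, csq hη]

omit [DecidableEq R] in
lemma trace_fb (a b c d : Matrix R R ℂ) : (fromBlocks a b c d).trace = a.trace + d.trace := by
  simp [Matrix.trace, Fintype.sum_sum_type]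

omit [DecidableEq R] in
lemma tr_cast (c : ℝ) {X : Matrix R R ℂ} : ((((c : ℝ) : ℂ) • X).trace).re = c * (X.trace).re := by
  simp [Matrix.trace_smul]

/-- Core computation: `E*` for `M` gives the channel inequality in terms of `A`, `B`. -/
theorem tform_AB {γ η : ℝ} (hγ : 0 ≤ γ) (hη : 0 ≤ η) (hs : γ + η = 1) (A B : Matrix R J ℂ)
    (hE : EStarAt (((Real.sqrt γ : ℝ) : ℂ) • B) A (((Real.sqrt η : ℝ) : ℂ) • B))
    (htr : (A * Aᴴ).trace.re + (B * Bᴴ).trace.re = 1) :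
    Eent (2 * Real.sqrt (γ * η) * (B * Bᴴ).trace.re) + Fe (A * Aᴴ) + Fe (B * Bᴴ) ≤
      Su (Mblk γ η A B * (Mblk γ η A B)ᴴ) := by
  have hsc1 : ((((Real.sqrt γ : ℝ) : ℂ) • B) * (((Real.sqrt γ : ℝ) : ℂ) • B)ᴴ) =
      ((γ : ℝ) : ℂ) • (B * Bᴴ) := by
    simp only [conjTranspose_smul, star_sq, Matrix.smul_mul, Matrix.mul_smul, smul_smul, csq hγ]
  have hsc2 : ((((Real.sqrt η : ℝ) : ℂ) • B)ᴴ * (((Real.sqrt η : ℝ) : ℂ) • B)) =
      ((η : ℝ) : ℂ) • (Bᴴ * B) := by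
    simp only [conjTranspose_smul, star_sq, Matrix.smul_mul, Matrix.mul_smul, smul_smul, csq hη]
  have hq : (Bᴴ * B).trace = (B * Bᴴ).trace := Matrix.trace_mul_comm _ _
  set q := (B * Bᴴ).trace.re with hqdef
  have hq0 : 0 ≤ q := by
    have h : (B * Bᴴ).PosSemidef := Matrix.posSemidef_self_mul_conjTranspose B
    have := h.trace_nonneg
    exact (Complex.le_def.1 this).1
  have hMtr : ((fromBlocks (((Real.sqrt γ : ℝ) : ℂ) • B) A 0 (((Real.sqrt η : ℝ) : ℂ) • B)) *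
      (fromBlocks (((Real.sqrt γ : ℝ) : ℂ) • B) A 0 (((Real.sqrt η : ℝ) : ℂ) • B))ᴴ).trace.re = 1 := by
    have := Mblk_mul hγ hη A B
    unfold Mblk at this
    rw [this, trace_fb]
    simp only [Complex.add_re, Matrix.trace_add, tr_cast]
    rw [← hqdef]
    have : γ * q + (A * Aᴴ).trace.re + η * q = (A * Aᴴ).trace.re + (γ + η) * q := by ring
    rw [this, hs, one_mul]
    rw [hqdef]; exact htr
  have h := hE hMtr
  rw [hsc1, hsc2] at h
  have hp1 : (((γ : ℝ) : ℂ) • (B * Bᴴ)).trace.re = γ * q := tr_cast _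
  have hp2 : (((η : ℝ) : ℂ) • (Bᴴ * B)).trace.re = η * q := by
    rw [tr_cast, hq]
  rw [hp1, hp2, Fe_smul (Matrix.isHermitian_mul_conjTranspose_self B) hγ,
    Fe_smul (Matrix.isHermitian_conjTranspose_mul_self B) hη, ← Fe_mul_comm] at h
  have hroot : 2 * Real.sqrt (γ * q * (η * q)) = 2 * Real.sqrt (γ * η) * q := by
    have : γ * q * (η * q) = (γ * η) * q ^ 2 := by ring
    rw [this, Real.sqrt_mul (mul_nonneg hγ hη), Real.sqrt_sq hq0]
    ring
  rw [hroot] at h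
  unfold Mblk
  have hF : γ * Fe (B * Bᴴ) + η * Fe (B * Bᴴ) = Fe (B * Bᴴ) := by
    rw [← add_mul, hs, one_mul]
  linarith

lemma tr_cast' (c : ℝ) {X : Matrix (Fin 2 × R) (Fin 2 × R) ℂ} :
    ((((c : ℝ) : ℂ) • X).trace).re = c * (X.trace).re := by
  simp [Matrix.trace_smul]

lemma tr_cast'' (c : ℝ) {X : Matrix R R ℂ} : ((((c : ℝ) : ℂ) • X).trace).re = c * (X.trace).re := by
  simp [Matrix.trace_smul]

/-- The factor of a positive semidefinite `ρ` on `ℂ² ⊗ ℂ^R`: `ρ = S Sᴴ`, split in rows. -/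
lemma exists_rows {ρ : Matrix (Fin 2 × R) (Fin 2 × R) ℂ} (hρ : ρ.PosSemidef) :
    ∃ A B : Matrix R (Fin 2 × R) ℂ, blk ρ 0 0 = A * Aᴴ ∧ blk ρ 1 1 = B * Bᴴ ∧
      blk ρ 0 1 = A * Bᴴ ∧ blk ρ 1 0 = B * Aᴴ := by
  obtain ⟨S0, hS⟩ : ∃ B : Matrix (Fin 2 × R) (Fin 2 × R) ℂ, ρ = Bᴴ * B := by
    open scoped MatrixOrder Matrix.Norms.L2Operator in
    obtain ⟨B, hB⟩ := CStarAlgebra.nonneg_iff_eq_star_mul_self.mp hρ.nonneg
    exact ⟨B, by simpa [star_eq_conjTranspose] using hB⟩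
  refine ⟨Matrix.of fun r j => S0ᴴ (0, r) j, Matrix.of fun r j => S0ᴴ (1, r) j, ?_, ?_, ?_, ?_⟩
  all_goals
    ext r r'
    simp only [blk, Matrix.of_apply, hS, Matrix.mul_apply, Matrix.conjTranspose_apply, star_star]

/-- The channel output is `M Mᴴ` up to reindexing. -/
lemma chanT_eq {γ η : ℝ} (hγ : 0 ≤ γ) (hη : 0 ≤ η) {ρ : Matrix (Fin 2 × R) (Fin 2 × R) ℂ}
    {A B : Matrix R J ℂ} (h00 : blk ρ 0 0 = A * Aᴴ) (h11 : blk ρ 1 1 = B * Bᴴ)
    (h01 : blk ρ 0 1 = A * Bᴴ) (h10 : blk ρ 1 0 = B * Aᴴ) :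
    chanT γ η ρ = Matrix.reindex sumE sumE (Mblk γ η A B * (Mblk γ η A B)ᴴ) := by
  rw [Mblk_mul hγ hη, ← h00, ← h11, ← h01, ← h10]
  ext ⟨a, r⟩ ⟨b, r'⟩
  fin_cases a <;> fin_cases b <;>
    simp [chanT, blk, sumE, Matrix.reindex_apply, add_comm]

lemma isHerm_reindex {m n : Type*} (e : m ≃ n) {X : Matrix m m ℂ} (hX : X.IsHermitian) :
    (Matrix.reindex e e X).IsHermitian := by
  ext i j
  have h := congrFun (congrFun hX (e.symm i)) (e.symm j)
  simpa [Matrix.reindex_apply, Matrix.submatrix_apply] using h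

lemma trace_split (ρ : Matrix (Fin 2 × R) (Fin 2 × R) ℂ) :
    ρ.trace = (blk ρ 0 0).trace + (blk ρ 1 1).trace := by
  simp [Matrix.trace, Fintype.sum_prod_type, Fin.sum_univ_two, blk, Finset.sum_add_distrib]

lemma trace_chanT {γ η : ℝ} (hs : γ + η = 1) (ρ : Matrix (Fin 2 × R) (Fin 2 × R) ℂ) :
    (chanT γ η ρ).trace = ρ.trace := by
  have hs' : (γ : ℂ) + (η : ℂ) = 1 := by exact_mod_cast hs
  have h1 : ∀ r, ρ (1, r) (1, r) = (γ : ℂ) * ρ (1, r) (1, r) + (η : ℂ) * ρ (1, r) (1, r) := by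
    intro r
    rw [← add_mul, hs', one_mul]
  simp only [Matrix.trace, Fintype.sum_prod_type, Fin.sum_univ_two, Matrix.diag, chanT,
    Matrix.of_apply]
  simp only [true_and, and_self, if_true, Fin.isValue, one_ne_zero, and_false, if_false,
    false_and, zero_ne_one, and_true, ite_true, ite_false]
  rw [← Finset.sum_add_distrib, ← Finset.sum_add_distrib]
  refine Finset.sum_congr rfl fun r _ => ?_
  rw [add_assoc, ← h1]

lemma chanT_herm {γ η : ℝ} (hγ : 0 ≤ γ) (hη : 0 ≤ η) {ρ : Matrix (Fin 2 × R) (Fin 2 × R) ℂ}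
    (hρ : ρ.PosSemidef) : (chanT γ η ρ).IsHermitian := by
  obtain ⟨A, B, h00, h11, h01, h10⟩ := exists_rows hρ
  rw [chanT_eq hγ hη h00 h11 h01 h10]
  exact isHerm_reindex _ (Matrix.isHermitian_mul_conjTranspose_self _)

lemma blk_herm {ρ : Matrix (Fin 2 × R) (Fin 2 × R) ℂ} (hρ : ρ.PosSemidef) (a : Fin 2) :
    (blk ρ a a).IsHermitian := by
  ext r r'
  have h := congrFun (congrFun hρ.1 (a, r)) (a, r')
  simpa [blk] using h

/-- `E**` for normalised states, given `E*` for the blocks. -/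
theorem estarstar_unit {γ η : ℝ} (hγ : 0 ≤ γ) (hη : 0 ≤ η) (hs : γ + η = 1)
    {ρ : Matrix (Fin 2 × R) (Fin 2 × R) ℂ} (hρ : ρ.PosSemidef) (htr : ρ.trace.re = 1)
    (hE : ∀ A B : Matrix R (Fin 2 × R) ℂ,
      EStarAt (((Real.sqrt γ : ℝ) : ℂ) • B) A (((Real.sqrt η : ℝ) : ℂ) • B)) :
    Eent (2 * Real.sqrt (γ * η) * (blk ρ 1 1).trace.re) + Fe (blk ρ 0 0) + Fe (blk ρ 1 1) ≤
      Su (chanT γ η ρ) := by
  obtain ⟨A, B, h00, h11, h01, h10⟩ := exists_rows hρ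
  rw [chanT_eq hγ hη h00 h11 h01 h10, Su_reindex _ _ (Matrix.isHermitian_mul_conjTranspose_self _),
    h00, h11]
  refine tform_AB hγ hη hs A B (hE A B) ?_
  rw [trace_split, h00, h11, Complex.add_re] at htr
  exact htr

lemma blk_smul (c : ℂ) (ρ : Matrix (Fin 2 × R) (Fin 2 × R) ℂ) (a b : Fin 2) :
    blk (c • ρ) a b = c • blk ρ a b := by
  ext r r'
  simp [blk]

lemma chanT_smul (γ η : ℝ) (c : ℂ) (ρ : Matrix (Fin 2 × R) (Fin 2 × R) ℂ) :
    chanT γ η (c • ρ) = c • chanT γ η ρ := by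
  ext x y
  simp only [chanT, Matrix.of_apply, Matrix.smul_apply, smul_eq_mul]
  split_ifs <;> ring

/-- `E**` for all positive semidefinite `ρ` (any trace), given `E*` for the blocks. -/
theorem estarstar_homog {γ η : ℝ} (hγ : 0 ≤ γ) (hη : 0 ≤ η) (hs : γ + η = 1)
    {ρ : Matrix (Fin 2 × R) (Fin 2 × R) ℂ} (hρ : ρ.PosSemidef)
    (hE : ∀ A B : Matrix R (Fin 2 × R) ℂ,
      EStarAt (((Real.sqrt γ : ℝ) : ℂ) • B) A (((Real.sqrt η : ℝ) : ℂ) • B)) :
    ρ.trace.re * Eent (2 * Real.sqrt (γ * η) * ((blk ρ 1 1).trace.re / ρ.trace.re)) +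
      Fe (blk ρ 0 0) + Fe (blk ρ 1 1) ≤ Fe (chanT γ η ρ) := by
  set w := ρ.trace.re with hw
  have hw0 : 0 ≤ w := (Complex.le_def.1 hρ.trace_nonneg).1
  rcases hw0.eq_or_lt with hw1 | hw1
  · -- zero state
    have hz : ρ = 0 := by
      have htr0 : ρ.trace = 0 := by
        apply Complex.ext
        · simpa using hw1.symm
        · have := (Complex.le_def.1 hρ.trace_nonneg).2
          simpa using this.symm
      exact (hρ.trace_eq_zero_iff).1 htr0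
    subst hz
    have hb : ∀ a b : Fin 2, blk (0 : Matrix (Fin 2 × R) (Fin 2 × R) ℂ) a b = 0 := by
      intro a b
      ext r r'
      simp [blk]
    have hc : chanT γ η (0 : Matrix (Fin 2 × R) (Fin 2 × R) ℂ) = 0 := by
      ext x y
      simp [chanT]
    have hFz : Fe (0 : Matrix R R ℂ) = 0 := by
      have h0 : (0 : Matrix R R ℂ).IsHermitian := Matrix.isHermitian_zero
      have hz : Su (0 : Matrix R R ℂ) = 0 := by
        rw [Su_of_herm h0, (Matrix.IsHermitian.eigenvalues_eq_zero_iff h0).2 rfl]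
        simp
      simp [Fe, hz]
    have hFz2 : Fe (0 : Matrix (Fin 2 × R) (Fin 2 × R) ℂ) = 0 := by
      have h0 : (0 : Matrix (Fin 2 × R) (Fin 2 × R) ℂ).IsHermitian := Matrix.isHermitian_zero
      have hz : Su (0 : Matrix (Fin 2 × R) (Fin 2 × R) ℂ) = 0 := by
        rw [Su_of_herm h0, (Matrix.IsHermitian.eigenvalues_eq_zero_iff h0).2 rfl]
        simp
      simp [Fe, hz]
    rw [hc, hb, hb, hFz, hFz2]
    rw [← hw1]
    simp
  · set ρ' : Matrix (Fin 2 × R) (Fin 2 × R) ℂ := ((w⁻¹ : ℝ) : ℂ) • ρ with hρ'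
    have hback : ρ = ((w : ℝ) : ℂ) • ρ' := by
      rw [hρ', smul_smul, ← Complex.ofReal_mul, mul_inv_cancel₀ hw1.ne']
      simp
    have hPSD : ρ'.PosSemidef := by
      have h := hρ.smul (a := ((w⁻¹ : ℝ) : ℂ)) (by
        rw [Complex.le_def]
        simp only [Complex.zero_re, Complex.ofReal_re, Complex.zero_im, Complex.ofReal_im]
        exact ⟨(inv_pos.mpr hw1).le, trivial⟩)
      exact h
    have htr' : ρ'.trace.re = 1 := by
      rw [hρ', tr_cast', ← hw, inv_mul_cancel₀ hw1.ne']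
    have hmain := estarstar_unit hγ hη hs hPSD htr' hE
    have h1 : Fe (blk ρ 0 0) = w * Fe (blk ρ' 0 0) := by
      rw [hback, blk_smul, Fe_smul (blk_herm hPSD 0) hw1.le]
    have h2 : Fe (blk ρ 1 1) = w * Fe (blk ρ' 1 1) := by
      rw [hback, blk_smul, Fe_smul (blk_herm hPSD 1) hw1.le]
    have h3 : Fe (chanT γ η ρ) = w * Fe (chanT γ η ρ') := by
      rw [hback, chanT_smul, Fe_smul (chanT_herm hγ hη hPSD) hw1.le]
    have h4 : Fe (chanT γ η ρ') = Su (chanT γ η ρ') := by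
      unfold Fe
      rw [trace_chanT hs, htr']
      simp
    have hq : (blk ρ' 1 1).trace.re = (blk ρ 1 1).trace.re / w := by
      rw [hρ', blk_smul, tr_cast'']
      field_simp
    rw [h1, h2, h3, h4, ← hq]
    have := mul_le_mul_of_nonneg_left hmain hw1.le
    nlinarith [this]

end

end Vale.Agent.P358A
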