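import Mathlib
import Vale.Agent.P358h5.Bound
import Vale.Agent.P358A.TForm

namespace Vale.Agent.P358A

open Finset BigOperators Matrix Vale.Agent.P358h5
open scoped ComplexConjugate ComplexOrder

noncomputable section

/-- The perspective of `f`. -/
def persp (f : ℝ → ℝ) (w x : ℝ) : ℝ := w * f (x / w)

/-- Subadditivity of the perspective of a convex function on `[0,1]`. -/
theorem persp_add {f : ℝ → ℝ} (hf : ConvexOn ℝ (Set.Icc 0 1) f) {w₁ w₂ x₁ x₂ : ℝ}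
    (hw₁ : 0 ≤ w₁) (hw₂ : 0 ≤ w₂) (hx₁ : 0 ≤ x₁) (hx₂ : 0 ≤ x₂) (hxw₁ : x₁ ≤ w₁) (hxw₂ : x₂ ≤ w₂) :
    persp f (w₁ + w₂) (x₁ + x₂) ≤ persp f w₁ x₁ + persp f w₂ x₂ := by
  rcases hw₁.eq_or_lt with rfl | hp₁
  · have : x₁ = 0 := le_antisymm hxw₁ hx₁
    subst this
    simp [persp]
  rcases hw₂.eq_or_lt with rfl | hp₂
  · have : x₂ = 0 := le_antisymm hxw₂ hx₂
    subst this
    simp [persp]
  have hw : 0 < w₁ + w₂ := by linarith
  have ha : 0 ≤ w₁ / (w₁ + w₂) := by positivity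
  have hb : 0 ≤ w₂ / (w₁ + w₂) := by positivity
  have hab : w₁ / (w₁ + w₂) + w₂ / (w₁ + w₂) = 1 := by field_simp
  have hX₁ : x₁ / w₁ ∈ Set.Icc (0:ℝ) 1 := ⟨by positivity, (div_le_one hp₁).mpr hxw₁⟩
  have hX₂ : x₂ / w₂ ∈ Set.Icc (0:ℝ) 1 := ⟨by positivity, (div_le_one hp₂).mpr hxw₂⟩
  have h3 := hf.2 hX₁ hX₂ ha hb hab
  simp only [smul_eq_mul] at h3
  have e : w₁ / (w₁ + w₂) * (x₁ / w₁) + w₂ / (w₁ + w₂) * (x₂ / w₂) = (x₁ + x₂) / (w₁ + w₂) := by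
    field_simp
  rw [e] at h3
  unfold persp
  calc (w₁ + w₂) * f ((x₁ + x₂) / (w₁ + w₂))
      ≤ (w₁ + w₂) * (w₁ / (w₁ + w₂) * f (x₁ / w₁) + w₂ / (w₁ + w₂) * f (x₂ / w₂)) :=
        mul_le_mul_of_nonneg_left h3 hw.le
    _ = w₁ * f (x₁ / w₁) + w₂ * f (x₂ / w₂) := by field_simp

/-- `𝒜_{γ,ν} ⊗ id` on a state of `qubit ⊗ R`. -/
def adT {R : Type*} (γ ν : ℝ) (ρ : Matrix (Fin 2 × R) (Fin 2 × R) ℂ) :
    Matrix (Fin 2 × R) (Fin 2 × R) ℂ :=
  Matrix.of fun u v => ∑ a, ∑ b, coef γ ν u.1 v.1 a b * ρ (a, u.2) (b, v.2)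

/-- The one-step entropy inequality with lower bound function `f`, homogeneous form. -/
def EStarF (γ ν : ℝ) (f : ℝ → ℝ) : Prop :=
  ∀ (R : Type) [Fintype R] [DecidableEq R] (ρ : Matrix (Fin 2 × R) (Fin 2 × R) ℂ), ρ.PosSemidef →
    persp f ρ.trace.re (blk ρ 1 1).trace.re + Fe (blk ρ 0 0) + Fe (blk ρ 1 1) ≤ Fe (adT γ ν ρ)

variable {γ ν : ℝ}

/-- The `a`-th diagonal block for the first qubit of `n+1` qubits. -/
def subQ {n : ℕ} (a : Fin 2) (Y : Matrix (Qb (n + 1)) (Qb (n + 1)) ℂ) : Matrix (Qb n) (Qb n) ℂ :=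
  Matrix.of fun a' b' => Y (Fin.cons a a') (Fin.cons a b')

/-- `id ⊗ 𝒜^{⊗ n}` applied to a state on `n+1` qubits. -/
def liftId (γ ν : ℝ) (n : ℕ) (Y : Matrix (Qb (n + 1)) (Qb (n + 1)) ℂ) :
    Matrix (Fin 2 × Qb n) (Fin 2 × Qb n) ℂ :=
  Matrix.of fun u v => gadcN γ ν n (Matrix.of fun a b => Y (Fin.cons u.1 a) (Fin.cons v.1 b)) u.2 v.2

/-- The excited-state population of the `i`-th qubit. -/
def pop {n : ℕ} (Y : Matrix (Qb n) (Qb n) ℂ) (i : Fin n) : ℝ :=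
  ∑ a, if a i = 1 then (Y a a).re else 0

/-- The bijection `qubit × n qubits ≃ n+1 qubits`. -/
def consE (n : ℕ) : Fin 2 × Qb n ≃ Qb (n + 1) := Fin.consEquiv (fun _ : Fin (n + 1) => Fin 2)

@[simp] lemma consE_apply (n : ℕ) (u : Fin 2 × Qb n) : consE n u = Fin.cons u.1 u.2 := rfl

lemma psd_subQ {n : ℕ} {Y : Matrix (Qb (n + 1)) (Qb (n + 1)) ℂ} (hY : Y.PosSemidef) (a : Fin 2) :
    (subQ a Y).PosSemidef := by
  have := hY.submatrix (fun a' : Qb n => (Fin.cons a a' : Qb (n + 1)))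
  exact this

lemma diag_re_nonneg {κ : Type*} [Fintype κ] [DecidableEq κ] {Y : Matrix κ κ ℂ}
    (hY : Y.PosSemidef) (x : κ) : 0 ≤ (Y x x).re := by
  have := hY.diag_nonneg (i := x)
  exact (Complex.le_def.mp this).1

/-- The Kraus operators `1 ⊗ K_J`. -/
def liftK (γ ν : ℝ) (n : ℕ) (J : Fin n → Fin 4) : Matrix (Fin 2 × Qb n) (Fin 2 × Qb n) ℂ :=
  Matrix.of fun u v => if u.1 = v.1 then ((KK γ ν n J u.2 v.2 : ℝ) : ℂ) else 0

lemma sum_liftK (n : ℕ) (J : Fin n → Fin 4) (x₀ : Fin 2) (x : Qb n) (F : Fin 2 × Qb n → ℂ) :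
    ∑ w, liftK γ ν n J (x₀, x) w * F w = ∑ a, ((KK γ ν n J x a : ℝ) : ℂ) * F (x₀, a) := by
  rw [Fintype.sum_prod_type]
  simp only [liftK, Matrix.of_apply, ite_mul, zero_mul]
  rw [Finset.sum_eq_single x₀]
  · simp
  · intro b _ hb
    simp [Ne.symm hb]
  · simp

lemma sum_liftK' (n : ℕ) (J : Fin n → Fin 4) (y₀ : Fin 2) (y : Qb n) (F : Fin 2 × Qb n → ℂ) :
    ∑ w, F w * star (liftK γ ν n J (y₀, y) w) = ∑ b, F (y₀, b) * ((KK γ ν n J y b : ℝ) : ℂ) := by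
  have e : ∀ w : Fin 2 × Qb n, star (liftK γ ν n J (y₀, y) w) = liftK γ ν n J (y₀, y) w := by
    intro w
    simp only [liftK, Matrix.of_apply]
    split_ifs <;> simp
  calc ∑ w, F w * star (liftK γ ν n J (y₀, y) w) = ∑ w, liftK γ ν n J (y₀, y) w * F w := by
        refine Finset.sum_congr rfl fun w _ => ?_
        rw [e w, mul_comm]
    _ = ∑ b, ((KK γ ν n J y b : ℝ) : ℂ) * F (y₀, b) := sum_liftK n J y₀ y F
    _ = _ := Finset.sum_congr rfl fun b _ => mul_comm _ _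

lemma liftK_entry (n : ℕ) (J : Fin n → Fin 4) (Y2 : Matrix (Fin 2 × Qb n) (Fin 2 × Qb n) ℂ)
    (x₀ y₀ : Fin 2) (x y : Qb n) :
    (liftK γ ν n J * Y2 * (liftK γ ν n J)ᴴ) (x₀, x) (y₀, y) =
      ∑ a, ∑ b, ((KK γ ν n J x a * KK γ ν n J y b : ℝ) : ℂ) * Y2 (x₀, a) (y₀, b) := by
  rw [Matrix.mul_apply]
  simp only [Matrix.conjTranspose_apply, Matrix.mul_apply]
  rw [sum_liftK' n J y₀ y (fun w => ∑ v, liftK γ ν n J (x₀, x) v * Y2 v w)]
  simp only [sum_liftK, Finset.sum_mul]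
  rw [Finset.sum_comm]
  refine Finset.sum_congr rfl fun a _ => Finset.sum_congr rfl fun b _ => ?_
  push_cast
  ring

lemma liftId_psd (h0 : 0 ≤ γ) (h1 : γ ≤ 1) (hν0 : 0 ≤ ν) (hν1 : ν ≤ 1) (n : ℕ)
    {Y : Matrix (Qb (n + 1)) (Qb (n + 1)) ℂ} (hY : Y.PosSemidef) : (liftId γ ν n Y).PosSemidef := by
  classical
  set Y2 : Matrix (Fin 2 × Qb n) (Fin 2 × Qb n) ℂ := Y.submatrix (consE n) (consE n) with hY2
  have hY2p : Y2.PosSemidef := hY.submatrix _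
  have key : liftId γ ν n Y = ∑ J, liftK γ ν n J * Y2 * (liftK γ ν n J)ᴴ := by
    ext u v
    obtain ⟨x₀, x⟩ := u
    obtain ⟨y₀, y⟩ := v
    rw [Matrix.sum_apply]
    simp only [liftK_entry]
    simp only [liftId, gadcN, Matrix.of_apply, prod_coef h0 h1 hν0 hν1]
    rw [Finset.sum_comm (γ := Fin n → Fin 4)]
    refine Finset.sum_congr rfl fun a _ => ?_
    rw [Finset.sum_comm (γ := Fin n → Fin 4)]
    refine Finset.sum_congr rfl fun b _ => ?_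
    rw [Complex.ofReal_sum, Finset.sum_mul]
    rfl
  rw [key]
  exact Matrix.posSemidef_sum _ fun J _ => hY2p.mul_mul_conjTranspose_same _

/-- The channel on `n+1` qubits, in block form. -/
lemma gadcN_succ_eq (n : ℕ) (Y : Matrix (Qb (n + 1)) (Qb (n + 1)) ℂ) :
    (gadcN γ ν (n + 1) Y).submatrix (consE n) (consE n) = adT γ ν (liftId γ ν n Y) := by
  ext u v
  obtain ⟨x₀, x⟩ := u
  obtain ⟨y₀, y⟩ := v
  simp only [Matrix.submatrix_apply, consE_apply, adT, liftId, Matrix.of_apply]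
  rw [gadcN_succ]

lemma reindex_consE (n : ℕ) (M : Matrix (Qb (n + 1)) (Qb (n + 1)) ℂ) :
    reindex (consE n).symm (consE n).symm M = M.submatrix (consE n) (consE n) := by
  simp [Matrix.reindex_apply]

lemma trace_subE (n : ℕ) (M : Matrix (Qb (n + 1)) (Qb (n + 1)) ℂ) :
    (M.submatrix (consE n) (consE n)).trace = M.trace := by
  simp only [Matrix.trace, Matrix.diag_apply, Matrix.submatrix_apply]
  exact (consE n).sum_comp fun x => M x x

lemma Fe_adT_eq (h0 : 0 ≤ γ) (h1 : γ ≤ 1) (hν0 : 0 ≤ ν) (hν1 : ν ≤ 1) (n : ℕ)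
    {Y : Matrix (Qb (n + 1)) (Qb (n + 1)) ℂ}
    (hY : Y.PosSemidef) : Fe (gadcN γ ν (n + 1) Y) = Fe (adT γ ν (liftId γ ν n Y)) := by
  have hT := gadcN_psd h0 h1 hν0 hν1 (n + 1) Y hY
  have hs : Su (gadcN γ ν (n + 1) Y) = Su (adT γ ν (liftId γ ν n Y)) := by
    rw [← gadcN_succ_eq, ← reindex_consE, Su_reindex _ _ hT.isHermitian]
  have ht : (gadcN γ ν (n + 1) Y).trace = (adT γ ν (liftId γ ν n Y)).trace := by
    rw [← gadcN_succ_eq, trace_subE]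
  unfold Fe
  rw [hs, ht]

lemma blk_liftId (n : ℕ) (a : Fin 2) (Y : Matrix (Qb (n + 1)) (Qb (n + 1)) ℂ) :
    blk (liftId γ ν n Y) a a = gadcN γ ν n (subQ a Y) := rfl

lemma trace_cons (n : ℕ) (Y : Matrix (Qb (n + 1)) (Qb (n + 1)) ℂ) :
    Y.trace = (subQ 0 Y).trace + (subQ 1 Y).trace := by
  simp only [Matrix.trace, Matrix.diag_apply, subQ, Matrix.of_apply]
  rw [P358h5.sum_cons, Fin.sum_univ_two]

lemma trace_liftId (n : ℕ) (Y : Matrix (Qb (n + 1)) (Qb (n + 1)) ℂ) :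
    (liftId γ ν n Y).trace = Y.trace := by
  rw [trace_cons]
  simp only [Matrix.trace, Matrix.diag_apply]
  rw [Fintype.sum_prod_type, Fin.sum_univ_two]
  have := fun a => gadcN_trace (γ := γ) (ν := ν) n (subQ a Y)
  simp only [Matrix.trace, Matrix.diag_apply] at this
  rw [← this 0, ← this 1]
  rfl

lemma pop_zero (n : ℕ) (Y : Matrix (Qb (n + 1)) (Qb (n + 1)) ℂ) :
    pop Y 0 = (subQ 1 Y).trace.re := by
  simp only [pop, Matrix.trace, Matrix.diag_apply, subQ, Matrix.of_apply, Complex.re_sum]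
  rw [P358h5.sum_cons, Fin.sum_univ_two]
  simp

lemma pop_succ (n : ℕ) (Y : Matrix (Qb (n + 1)) (Qb (n + 1)) ℂ) (i : Fin n) :
    pop Y i.succ = pop (subQ 0 Y) i + pop (subQ 1 Y) i := by
  simp only [pop, subQ, Matrix.of_apply]
  rw [P358h5.sum_cons, Fin.sum_univ_two]
  simp

lemma pop_nonneg {n : ℕ} {Y : Matrix (Qb n) (Qb n) ℂ} (hY : Y.PosSemidef) (i : Fin n) :
    0 ≤ pop Y i :=
  Finset.sum_nonneg fun a _ => by
    split_ifs
    · exact diag_re_nonneg hY a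
    · exact le_rfl

lemma pop_le_trace {n : ℕ} {Y : Matrix (Qb n) (Qb n) ℂ} (hY : Y.PosSemidef) (i : Fin n) :
    pop Y i ≤ Y.trace.re := by
  simp only [pop, Matrix.trace, Matrix.diag_apply, Complex.re_sum]
  refine Finset.sum_le_sum fun a _ => ?_
  split_ifs
  · exact le_rfl
  · exact diag_re_nonneg hY a

lemma qb_trace_re_nonneg {n : ℕ} {Y : Matrix (Qb n) (Qb n) ℂ} (hY : Y.PosSemidef) :
    0 ≤ Y.trace.re := by
  simp only [Matrix.trace, Matrix.diag_apply, Complex.re_sum]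
  exact Finset.sum_nonneg fun a _ => diag_re_nonneg hY a

lemma Fe_zero_qubits {Y : Matrix (Qb 0) (Qb 0) ℂ} (hY : Y.IsHermitian) : Fe Y = 0 := by
  have h := hY.trace_eq_sum_eigenvalues
  have huniq : ∑ i, hY.eigenvalues i = hY.eigenvalues default := Fintype.sum_subsingleton _ _
  have h2 : Y.trace.re = hY.eigenvalues default := by
    rw [h, ← huniq]
    simp
  unfold Fe
  rw [Su_of_herm hY, h2, Fintype.sum_subsingleton _ default, Real.negMulLog]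
  ring

/-- The induction: a lower bound for the output entropy on `n` qubits. -/
theorem Fe_gadcN_ge {f : ℝ → ℝ} (hE : EStarF γ ν f) (hf : ConvexOn ℝ (Set.Icc 0 1) f)
    (h0 : 0 ≤ γ) (h1 : γ ≤ 1) (hν0 : 0 ≤ ν) (hν1 : ν ≤ 1) (n : ℕ)
    (Y : Matrix (Qb n) (Qb n) ℂ) (hY : Y.PosSemidef) :
    ∑ i, persp f Y.trace.re (pop Y i) ≤ Fe (gadcN γ ν n Y) := by
  induction n with
  | zero =>
    have hT := gadcN_psd h0 h1 hν0 hν1 0 Y hY
    rw [Fe_zero_qubits hT.isHermitian]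
    simp
  | succ n ih =>
    have hL := liftId_psd h0 h1 hν0 hν1 n hY
    have hS0 := psd_subQ hY 0
    have hS1 := psd_subQ hY 1
    have hstep := hE (Qb n) (liftId γ ν n Y) hL
    rw [← Fe_adT_eq h0 h1 hν0 hν1 n hY, blk_liftId, blk_liftId, trace_liftId, gadcN_trace] at hstep
    have ih0 := ih (subQ 0 Y) hS0
    have ih1 := ih (subQ 1 Y) hS1
    rw [Fin.sum_univ_succ, pop_zero]
    have hadd : ∑ i : Fin n, persp f Y.trace.re (pop Y i.succ) ≤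
        ∑ i, persp f (subQ 0 Y).trace.re (pop (subQ 0 Y) i) +
          ∑ i, persp f (subQ 1 Y).trace.re (pop (subQ 1 Y) i) := by
      rw [← Finset.sum_add_distrib]
      refine Finset.sum_le_sum fun i _ => ?_
      rw [pop_succ, trace_cons, Complex.add_re]
      exact persp_add hf (qb_trace_re_nonneg hS0) (qb_trace_re_nonneg hS1) (pop_nonneg hS0 i)
        (pop_nonneg hS1 i) (pop_le_trace hS0 i) (pop_le_trace hS1 i)
    linarith

end

end Vale.Agent.P358A
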