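import Mathlib

/-!
Real analysis layer for P358A.  From an inequality between sums of `log (1 + l / t)` valid at
every `t > 0` to the entropy inequality; everything is explicit, no integrals are used.
-/

namespace Vale.Agent.P358A
open Filter Topology Finset BigOperators

noncomputable section

/-- Antiderivative in `t` of `log (1 + l / t)`. -/
def anti (l t : ℝ) : ℝ := (t + l) * Real.log (t + l) - t * Real.log t

lemma hasDerivAt_mul_log_add (l : ℝ) {t : ℝ} (h : t + l ≠ 0) :
    HasDerivAt (fun x => (x + l) * Real.log (x + l)) (Real.log (t + l) + 1) t := by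
  have h1 : HasDerivAt (fun x : ℝ => x + l) 1 t := (hasDerivAt_id t).add_const l
  have h2 := h1.mul (h1.log h)
  refine HasDerivAt.congr_deriv h2 ?_
  field_simp

lemma hasDerivAt_anti {l t : ℝ} (hl : 0 ≤ l) (ht : 0 < t) :
    HasDerivAt (anti l) (Real.log (1 + l / t)) t := by
  have h1 : t + l ≠ 0 := by positivity
  have h2 := hasDerivAt_mul_log_add l h1
  have h3 := hasDerivAt_mul_log_add 0 (t := t) (by simpa using ht.ne')
  have h4 := h2.sub h3
  have : anti l = (fun x => (x + l) * Real.log (x + l)) - (fun x => (x + 0) * Real.log (x + 0)) := by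
    funext x; simp [anti]
  rw [this]
  refine h4.congr_deriv ?_
  have : 1 + l / t = (t + l) / t := by field_simp
  rw [this, Real.log_div h1 ht.ne']
  simp

lemma tendsto_anti_zero (l : ℝ) : Tendsto (anti l) (𝓝[>] 0) (𝓝 (l * Real.log l)) := by
  have hc : Continuous (fun t : ℝ => (t + l) * Real.log (t + l) - t * Real.log t) :=
    (Real.continuous_mul_log.comp (continuous_id.add continuous_const)).sub Real.continuous_mul_log
  have := hc.tendsto 0
  have h2 : Tendsto (anti l) (𝓝 0) (𝓝 (l * Real.log l)) := by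
    have e : anti l = fun t : ℝ => (t + l) * Real.log (t + l) - t * Real.log t := rfl
    rw [e]
    simpa using this
  exact h2.mono_left nhdsWithin_le_nhds

lemma tendsto_log_add_sub (c : ℝ) :
    Tendsto (fun t : ℝ => Real.log (t + c) - Real.log (1 + t)) atTop (𝓝 0) := by
  have h1 : Tendsto (fun t : ℝ => (t + c) / (1 + t)) atTop (𝓝 1) := by
    have h : Tendsto (fun t : ℝ => 1 + (c - 1) / (1 + t)) atTop (𝓝 (1 + 0)) := by
      refine tendsto_const_nhds.add (Tendsto.const_div_atTop ?_ _)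
      exact tendsto_atTop_add_const_left _ _ tendsto_id
    rw [add_zero] at h
    refine h.congr' ?_
    filter_upwards [eventually_gt_atTop 0] with t ht
    have : (1 + t) ≠ 0 := by positivity
    field_simp
    ring
  have h2 : Tendsto (fun t : ℝ => Real.log ((t + c) / (1 + t))) atTop (𝓝 (Real.log 1)) :=
    (Real.continuousAt_log one_ne_zero).tendsto.comp h1
  rw [Real.log_one] at h2
  refine h2.congr' ?_
  filter_upwards [eventually_gt_atTop (max 0 (-c))] with t ht
  have ht0 : 0 < t := lt_of_le_of_lt (le_max_left _ _) ht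
  have ht1 : 0 < t + c := by
    have := lt_of_le_of_lt (le_max_right _ _) ht
    linarith
  rw [Real.log_div ht1.ne' (by positivity)]

lemma tendsto_anti_top {l : ℝ} (hl : 0 ≤ l) :
    Tendsto (fun t => anti l t - l * Real.log (1 + t)) atTop (𝓝 l) := by
  have h1 := Real.tendsto_mul_log_one_add_div_atTop l
  have h2 := (tendsto_log_add_sub l).const_mul l
  have h3 := h1.add h2
  simp only [mul_zero, add_zero] at h3
  refine h3.congr' ?_
  filter_upwards [eventually_gt_atTop 0] with t ht
  have h4 : 1 + l / t = (t + l) / t := by field_simp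
  have h5 : t + l ≠ 0 := by positivity
  rw [h4, Real.log_div h5 ht.ne']
  simp only [anti]
  ring

/-- The slope function of the tangent term. -/
def gam (p q xp xm k t : ℝ) : ℝ := (t + k * q) / ((t + k * xp) * (t + k * xm)) - 1 / (t + k * p)

/-- Antiderivative in `t` of `gam`. -/
def Gam (p q xp xm k t : ℝ) : ℝ :=
  (xp - q) / (xp - xm) * Real.log (t + k * xp) + (q - xm) / (xp - xm) * Real.log (t + k * xm)
    - Real.log (t + k * p)

/-- The limit of `Gam` at `0+`. -/
def Lam (p q xp xm : ℝ) : ℝ :=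
  (xp - q) / (xp - xm) * Real.log xp + (q - xm) / (xp - xm) * Real.log xm - Real.log p

lemma hasDerivAt_Gam {p q xp xm k t : ℝ} (hx : xm < xp) (hp : 0 ≤ p) (hxm : 0 ≤ xm)
    (hk : 0 ≤ k) (ht : 0 < t) :
    HasDerivAt (Gam p q xp xm k) (gam p q xp xm k t) t := by
  have hxp : 0 ≤ xp := by linarith
  have h1 : 0 < t + k * xp := by positivity
  have h2 : 0 < t + k * xm := by positivity
  have h3 : 0 < t + k * p := by positivity
  have hd : xp - xm ≠ 0 := by linarith [sub_pos.mpr hx]
  have e1 : HasDerivAt (fun x : ℝ => x + k * xp) 1 t := (hasDerivAt_id t).add_const _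
  have e2 : HasDerivAt (fun x : ℝ => x + k * xm) 1 t := (hasDerivAt_id t).add_const _
  have e3 : HasDerivAt (fun x : ℝ => x + k * p) 1 t := (hasDerivAt_id t).add_const _
  have := (((e1.log h1.ne').const_mul ((xp - q) / (xp - xm))).add
    ((e2.log h2.ne').const_mul ((q - xm) / (xp - xm)))).sub (e3.log h3.ne')
  have e : Gam p q xp xm k = ((fun y => (xp - q) / (xp - xm) * Real.log (y + k * xp)) +
      (fun y => (q - xm) / (xp - xm) * Real.log (y + k * xm))) -
      (fun y => Real.log (y + k * p)) := rfl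
  rw [e]
  refine this.congr_deriv ?_
  simp only [gam]
  field_simp
  ring

lemma Gam_zero {p q xp xm t : ℝ} (hx : xm < xp) : Gam p q xp xm 0 t = 0 := by
  have hd : xp - xm ≠ 0 := by linarith [sub_pos.mpr hx]
  simp only [Gam, zero_mul, add_zero]
  field_simp
  ring

lemma gam_nonpos {p q xp xm k t : ℝ} (hz : 0 ≤ xp + xm - p - q) (hprod : xp * xm = p * q)
    (hp : 0 ≤ p) (hxm : 0 ≤ xm) (hx : xm < xp) (hk : 0 ≤ k) (ht : 0 < t) :
    gam p q xp xm k t ≤ 0 := by
  have hxp : 0 ≤ xp := by linarith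
  have h1 : 0 < t + k * xp := by positivity
  have h2 : 0 < t + k * xm := by positivity
  have h3 : 0 < t + k * p := by positivity
  simp only [gam]
  rw [sub_nonpos, div_le_div_iff₀ (by positivity) h3]
  have : (t + k * xp) * (t + k * xm) - (t + k * q) * (t + k * p)
      = t * k * (xp + xm - p - q) + k ^ 2 * (xp * xm - p * q) := by ring
  have h5 : 0 ≤ t * k * (xp + xm - p - q) := by positivity
  rw [hprod] at this
  nlinarith

lemma tendsto_Gam_top {p q xp xm k : ℝ} (hx : xm < xp) :
    Tendsto (Gam p q xp xm k) atTop (𝓝 0) := by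
  have hd : xp - xm ≠ 0 := by linarith [sub_pos.mpr hx]
  have h1 := (tendsto_log_add_sub (k * xp)).const_mul ((xp - q) / (xp - xm))
  have h2 := (tendsto_log_add_sub (k * xm)).const_mul ((q - xm) / (xp - xm))
  have h3 := tendsto_log_add_sub (k * p)
  have h4 := (h1.add h2).sub h3
  simp only [mul_zero, add_zero, sub_zero] at h4
  refine h4.congr' ?_
  filter_upwards with t
  simp only [Gam]
  have : (xp - q) / (xp - xm) + (q - xm) / (xp - xm) = 1 := by
    field_simp
    ring
  have h6 : (xp - q) / (xp - xm) * Real.log (1 + t) + (q - xm) / (xp - xm) * Real.log (1 + t)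
      = Real.log (1 + t) := by
    rw [← add_mul, this, one_mul]
  linear_combination (-1 : ℝ) * h6

/-- The limit of `Gam` at `0+`, for `k > 0`, `p > 0`. -/
lemma tendsto_Gam_zero {p q xp xm k : ℝ} (hx : xm < xp) (hp : 0 < p) (hxm : 0 ≤ xm) (hk : 0 < k)
    (hprod : xp * xm = p * q) (hq : 0 ≤ q) (hqx : xm = 0 → q = 0) :
    Tendsto (Gam p q xp xm k) (𝓝[>] 0) (𝓝 (Lam p q xp xm)) := by
  have hxp : 0 < xp := by linarith
  have hd : xp - xm ≠ 0 := by linarith [sub_pos.mpr hx]
  have h1 : Tendsto (fun t : ℝ => Real.log (t + k * xp)) (𝓝 0) (𝓝 (Real.log (0 + k * xp))) :=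
    (Real.continuousAt_log (by positivity)).tendsto.comp
      ((continuous_id.add continuous_const).tendsto 0)
  have h3 : Tendsto (fun t : ℝ => Real.log (t + k * p)) (𝓝 0) (𝓝 (Real.log (0 + k * p))) :=
    (Real.continuousAt_log (by positivity)).tendsto.comp
      ((continuous_id.add continuous_const).tendsto 0)
  have h2 : Tendsto (fun t : ℝ => (q - xm) / (xp - xm) * Real.log (t + k * xm)) (𝓝[>] 0)
      (𝓝 ((q - xm) / (xp - xm) * Real.log (k * xm))) := by
    rcases hxm.eq_or_lt with h0 | h0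
    · have : q = 0 := hqx h0.symm
      subst this
      rw [← h0]
      simp
    · have h2' : Tendsto (fun t : ℝ => Real.log (t + k * xm)) (𝓝 0) (𝓝 (Real.log (0 + k * xm))) :=
        (Real.continuousAt_log (by positivity)).tendsto.comp
          ((continuous_id.add continuous_const).tendsto 0)
      simpa using (h2'.mono_left nhdsWithin_le_nhds).const_mul ((q - xm) / (xp - xm))
  have h4 := (((h1.mono_left nhdsWithin_le_nhds).const_mul ((xp - q) / (xp - xm))).add h2).sub
    (h3.mono_left nhdsWithin_le_nhds)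
  have hval : (xp - q) / (xp - xm) * Real.log (0 + k * xp)
      + (q - xm) / (xp - xm) * Real.log (k * xm) - Real.log (0 + k * p) = Lam p q xp xm := by
    simp only [zero_add, Lam]
    have hk' := hk.ne'
    rw [Real.log_mul hk' hxp.ne', Real.log_mul hk' hp.ne']
    rcases hxm.eq_or_lt with h0 | h0
    · have hq0 : q = 0 := hqx h0.symm
      subst hq0
      rw [← h0]
      simp only [mul_zero, Real.log_zero, zero_div, add_zero, sub_zero]
      have hxp' : xp ≠ 0 := hxp.ne'
      field_simp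
      ring
    · rw [Real.log_mul hk' h0.ne']
      field_simp
      ring
  rw [hval] at h4
  exact h4

/-- `Lam` is nonnegative. -/
lemma Lam_nonneg {p q xp xm : ℝ} (hx : xm < xp) (hp : 0 < p) (hxm : 0 ≤ xm)
    (hprod : xp * xm = p * q) (hq : 0 ≤ q) (hqx : xm = 0 → q = 0)
    (hz : 0 ≤ xp + xm - p - q) : 0 ≤ Lam p q xp xm := by
  have hmono : AntitoneOn (Gam p q xp xm 1) (Set.Ioi 0) := by
    refine antitoneOn_of_deriv_nonpos (convex_Ioi 0) ?_ ?_ ?_
    · intro t ht
      exact (hasDerivAt_Gam hx hp.le hxm zero_le_one ht).continuousAt.continuousWithinAt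
    · intro t ht
      rw [interior_Ioi] at ht
      exact (hasDerivAt_Gam hx hp.le hxm zero_le_one ht).differentiableAt.differentiableWithinAt
    · intro t ht
      rw [interior_Ioi] at ht
      rw [(hasDerivAt_Gam hx hp.le hxm zero_le_one ht).deriv]
      exact gam_nonpos hz hprod hp.le hxm hx zero_le_one ht
  have h0 := tendsto_Gam_zero hx hp hxm one_pos hprod hq hqx
  have h1 := tendsto_Gam_top (p := p) (q := q) (k := 1) hx
  -- value at `t` is below the limit at `0+` and above the limit at infinity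
  have key : ∀ t : ℝ, 0 < t → Gam p q xp xm 1 t ≤ Lam p q xp xm := by
    intro t ht
    refine ge_of_tendsto h0 ?_
    filter_upwards [Ioo_mem_nhdsGT ht] with s hs
    exact hmono (Set.mem_Ioi.mpr hs.1) (Set.mem_Ioi.mpr ht) hs.2.le
  refine le_of_tendsto h1 ?_
  filter_upwards [eventually_gt_atTop 0] with t ht
  exact key t ht

/-- Monotone function with limits at `0+` and at infinity. -/
lemma le_of_limits {B B' : ℝ → ℝ} (hB : ∀ t, 0 < t → HasDerivAt B (B' t) t)
    (hB' : ∀ t, 0 < t → 0 ≤ B' t) {L0 L1 : ℝ} (h0 : Tendsto B (𝓝[>] 0) (𝓝 L0))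
    (h1 : Tendsto B atTop (𝓝 L1)) : L0 ≤ L1 := by
  have hmono : MonotoneOn B (Set.Ioi 0) := by
    refine monotoneOn_of_deriv_nonneg (convex_Ioi 0) ?_ ?_ ?_
    · intro t ht
      exact (hB t ht).continuousAt.continuousWithinAt
    · intro t ht
      rw [interior_Ioi] at ht
      exact (hB t ht).differentiableAt.differentiableWithinAt
    · intro t ht
      rw [interior_Ioi] at ht
      rw [(hB t ht).deriv]
      exact hB' t ht
  have key : ∀ t : ℝ, 0 < t → L0 ≤ B t := by
    intro t ht
    refine le_of_tendsto h0 ?_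
    filter_upwards [Ioo_mem_nhdsGT ht] with s hs
    exact hmono (Set.mem_Ioi.mpr hs.1) (Set.mem_Ioi.mpr ht) hs.2.le
  refine ge_of_tendsto h1 ?_
  filter_upwards [eventually_gt_atTop 0] with t ht
  exact key t ht

/-- The main transfer statement.  The inequality between sums of logarithms at every `t > 0`
gives the entropy inequality. -/
theorem entropy_of_pointwise
    {I0 I1 I2 J J' : Type*} [Fintype I0] [Fintype I1] [Fintype I2] [Fintype J] [Fintype J']
    (μ : I0 → ℝ) (h : I1 → ℝ) (g : I2 → ℝ) (κ : J → ℝ) (κ' : J' → ℝ) (d : J → ℝ) (e : J' → ℝ)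
    (p1 p2 z xp xm : ℝ)
    (hμ : ∀ i, 0 ≤ μ i) (hh : ∀ i, 0 ≤ h i) (hg : ∀ i, 0 ≤ g i) (hκ : ∀ i, 0 ≤ κ i)
    (hκ' : ∀ i, 0 ≤ κ' i)
    (hp1 : 0 ≤ p1) (hp2 : 0 ≤ p2) (hz : 0 < z) (hxm : 0 ≤ xm) (hxx : xm < xp)
    (hsum : xp + xm = p1 + p2 + z) (hprod : xp * xm = p1 * p2)
    (sμ : ∑ i, μ i = p1 + p2 + z) (sh : ∑ i, h i = p1) (sg : ∑ i, g i = p2)
    (sκ : ∑ i, κ i = 1) (sκ' : ∑ i, κ' i = 1)
    (hd0 : p1 = 0 → ∀ i, d i = 0) (he0 : p2 = 0 → ∀ i, e i = 0)
    (hd : ∑ i, (if 0 < κ i then d i else 0) ≤ 0) (he : ∑ i, (if 0 < κ' i then e i else 0) ≤ 0)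
    (hpt : ∀ t, 0 < t →
      ∑ i, (Real.log (1 + κ i * xp / t) + Real.log (1 + κ i * xm / t)
          - Real.log (1 + κ i * p1 / t) - Real.log (1 + κ i * p2 / t))
        + ∑ i, d i * gam p1 p2 xp xm (κ i) t + ∑ i, e i * gam p2 p1 xp xm (κ' i) t
      ≤ ∑ i, Real.log (1 + μ i / t) - ∑ i, Real.log (1 + h i / t) - ∑ i, Real.log (1 + g i / t)) :
    ∑ i, Real.negMulLog (h i) + ∑ i, Real.negMulLog (g i)
        + (Real.negMulLog xp + Real.negMulLog xm - Real.negMulLog p1 - Real.negMulLog p2)
        + z * ∑ i, Real.negMulLog (κ i)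
      ≤ ∑ i, Real.negMulLog (μ i) := by
  classical
  have hxp : 0 ≤ xp := by linarith
  -- the function
  set C : ℝ → ℝ := fun t => ∑ i, anti (μ i) t - ∑ i, anti (h i) t - ∑ i, anti (g i) t
    - ∑ i, (anti (κ i * xp) t + anti (κ i * xm) t - anti (κ i * p1) t - anti (κ i * p2) t)
    with hC
  set B : ℝ → ℝ := fun t => C t - ∑ i, d i * Gam p1 p2 xp xm (κ i) t
    - ∑ i, e i * Gam p2 p1 xp xm (κ' i) t with hB
  set B' : ℝ → ℝ := fun t => (∑ i, Real.log (1 + μ i / t) - ∑ i, Real.log (1 + h i / t)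
      - ∑ i, Real.log (1 + g i / t)
      - ∑ i, (Real.log (1 + κ i * xp / t) + Real.log (1 + κ i * xm / t)
          - Real.log (1 + κ i * p1 / t) - Real.log (1 + κ i * p2 / t)))
      - ∑ i, d i * gam p1 p2 xp xm (κ i) t - ∑ i, e i * gam p2 p1 xp xm (κ' i) t with hB'
  have hder : ∀ t, 0 < t → HasDerivAt B (B' t) t := by
    intro t ht
    have h1 : HasDerivAt (fun t => ∑ i, anti (μ i) t) (∑ i, Real.log (1 + μ i / t)) t :=
      HasDerivAt.fun_sum (fun i _ => hasDerivAt_anti (hμ i) ht)
    have h2 : HasDerivAt (fun t => ∑ i, anti (h i) t) (∑ i, Real.log (1 + h i / t)) t :=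
      HasDerivAt.fun_sum (fun i _ => hasDerivAt_anti (hh i) ht)
    have h3 : HasDerivAt (fun t => ∑ i, anti (g i) t) (∑ i, Real.log (1 + g i / t)) t :=
      HasDerivAt.fun_sum (fun i _ => hasDerivAt_anti (hg i) ht)
    have h4 : HasDerivAt
        (fun t => ∑ i, (anti (κ i * xp) t + anti (κ i * xm) t - anti (κ i * p1) t
          - anti (κ i * p2) t))
        (∑ i, (Real.log (1 + κ i * xp / t) + Real.log (1 + κ i * xm / t)
          - Real.log (1 + κ i * p1 / t) - Real.log (1 + κ i * p2 / t))) t :=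
      HasDerivAt.fun_sum (fun i _ =>
        (((hasDerivAt_anti (mul_nonneg (hκ i) hxp) ht).add
          (hasDerivAt_anti (mul_nonneg (hκ i) hxm) ht)).sub
          (hasDerivAt_anti (mul_nonneg (hκ i) hp1) ht)).sub
          (hasDerivAt_anti (mul_nonneg (hκ i) hp2) ht))
    have h5 : HasDerivAt (fun t => ∑ i, d i * Gam p1 p2 xp xm (κ i) t)
        (∑ i, d i * gam p1 p2 xp xm (κ i) t) t :=
      HasDerivAt.fun_sum (fun i _ =>
        (hasDerivAt_Gam hxx hp1 hxm (hκ i) ht).const_mul (d i))
    have h6 : HasDerivAt (fun t => ∑ i, e i * Gam p2 p1 xp xm (κ' i) t)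
        (∑ i, e i * gam p2 p1 xp xm (κ' i) t) t :=
      HasDerivAt.fun_sum (fun i _ =>
        (hasDerivAt_Gam hxx hp2 hxm (hκ' i) ht).const_mul (e i))
    exact ((((h1.sub h2).sub h3).sub h4).sub h5).sub h6
  have hnn : ∀ t, 0 < t → 0 ≤ B' t := by
    intro t ht
    have := hpt t ht
    simp only [hB']
    linarith
  -- the limit at `0+`
  have t1 : Tendsto (fun t => ∑ i, anti (μ i) t) (𝓝[>] 0) (𝓝 (∑ i, μ i * Real.log (μ i))) :=
    tendsto_finsetSum _ (fun i _ => tendsto_anti_zero (μ i))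
  have t2 : Tendsto (fun t => ∑ i, anti (h i) t) (𝓝[>] 0) (𝓝 (∑ i, h i * Real.log (h i))) :=
    tendsto_finsetSum _ (fun i _ => tendsto_anti_zero (h i))
  have t3 : Tendsto (fun t => ∑ i, anti (g i) t) (𝓝[>] 0) (𝓝 (∑ i, g i * Real.log (g i))) :=
    tendsto_finsetSum _ (fun i _ => tendsto_anti_zero (g i))
  have t4 : Tendsto
      (fun t => ∑ i, (anti (κ i * xp) t + anti (κ i * xm) t - anti (κ i * p1) t
          - anti (κ i * p2) t)) (𝓝[>] 0)
      (𝓝 (∑ i, ((κ i * xp) * Real.log (κ i * xp) + (κ i * xm) * Real.log (κ i * xm)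
          - (κ i * p1) * Real.log (κ i * p1) - (κ i * p2) * Real.log (κ i * p2)))) :=
    tendsto_finsetSum _ (fun i _ =>
      (((tendsto_anti_zero _).add (tendsto_anti_zero _)).sub (tendsto_anti_zero _)).sub
        (tendsto_anti_zero _))
  have hqx1 : xm = 0 → p1 ≠ 0 → p2 = 0 := by
    intro h0 h1
    rw [h0, mul_zero] at hprod
    rcases mul_eq_zero.mp hprod.symm with h2 | h2
    · exact absurd h2 h1
    · exact h2
  have hqx2 : xm = 0 → p2 ≠ 0 → p1 = 0 := by
    intro h0 h1
    rw [h0, mul_zero] at hprod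
    rcases mul_eq_zero.mp hprod.symm with h2 | h2
    · exact h2
    · exact absurd h2 h1
  have t5 : Tendsto (fun t => ∑ i, d i * Gam p1 p2 xp xm (κ i) t) (𝓝[>] 0)
      (𝓝 (∑ i, d i * (if 0 < κ i then Lam p1 p2 xp xm else 0))) := by
    refine tendsto_finsetSum _ (fun i _ => ?_)
    rcases hp1.eq_or_lt with h0 | h0
    · have : d i = 0 := hd0 h0.symm i
      simp [this]
    · rcases (hκ i).eq_or_lt with h1 | h1
      · simp only [← h1, lt_irrefl, if_false, mul_zero]
        have : (fun t => d i * Gam p1 p2 xp xm 0 t) = fun _ => 0 := by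
          funext t; rw [Gam_zero hxx, mul_zero]
        rw [this]
        exact tendsto_const_nhds
      · rw [if_pos h1]
        exact (tendsto_Gam_zero hxx h0 hxm h1 hprod hp2 (fun hx => hqx1 hx h0.ne')).const_mul _
  have t6 : Tendsto (fun t => ∑ i, e i * Gam p2 p1 xp xm (κ' i) t) (𝓝[>] 0)
      (𝓝 (∑ i, e i * (if 0 < κ' i then Lam p2 p1 xp xm else 0))) := by
    refine tendsto_finsetSum _ (fun i _ => ?_)
    rcases hp2.eq_or_lt with h0 | h0
    · have : e i = 0 := he0 h0.symm i
      simp [this]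
    · rcases (hκ' i).eq_or_lt with h1 | h1
      · simp only [← h1, lt_irrefl, if_false, mul_zero]
        have : (fun t => e i * Gam p2 p1 xp xm 0 t) = fun _ => 0 := by
          funext t; rw [Gam_zero hxx, mul_zero]
        rw [this]
        exact tendsto_const_nhds
      · rw [if_pos h1]
        exact (tendsto_Gam_zero hxx h0 hxm h1 (by rw [hprod, mul_comm]) hp1
          (fun hx => hqx2 hx h0.ne')).const_mul _
  have t0 := (((((t1.sub t2).sub t3).sub t4).sub t5).sub t6)
  -- the limit at infinity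
  have s1 : Tendsto (fun t => ∑ i, (anti (μ i) t - μ i * Real.log (1 + t))) atTop
      (𝓝 (∑ i, μ i)) := tendsto_finsetSum _ (fun i _ => tendsto_anti_top (hμ i))
  have s2 : Tendsto (fun t => ∑ i, (anti (h i) t - h i * Real.log (1 + t))) atTop
      (𝓝 (∑ i, h i)) := tendsto_finsetSum _ (fun i _ => tendsto_anti_top (hh i))
  have s3 : Tendsto (fun t => ∑ i, (anti (g i) t - g i * Real.log (1 + t))) atTop
      (𝓝 (∑ i, g i)) := tendsto_finsetSum _ (fun i _ => tendsto_anti_top (hg i))
  have s4 : Tendsto (fun t => ∑ i,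
      ((anti (κ i * xp) t - (κ i * xp) * Real.log (1 + t))
        + (anti (κ i * xm) t - (κ i * xm) * Real.log (1 + t))
        - (anti (κ i * p1) t - (κ i * p1) * Real.log (1 + t))
        - (anti (κ i * p2) t - (κ i * p2) * Real.log (1 + t)))) atTop
      (𝓝 (∑ i, (κ i * xp + κ i * xm - κ i * p1 - κ i * p2))) :=
    tendsto_finsetSum _ (fun i _ =>
      (((tendsto_anti_top (mul_nonneg (hκ i) hxp)).add
        (tendsto_anti_top (mul_nonneg (hκ i) hxm))).sub
        (tendsto_anti_top (mul_nonneg (hκ i) hp1))).sub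
        (tendsto_anti_top (mul_nonneg (hκ i) hp2)))
  have s5 : Tendsto (fun t => ∑ i, d i * Gam p1 p2 xp xm (κ i) t) atTop (𝓝 (∑ i : J, d i * 0)) :=
    tendsto_finsetSum _ (fun i _ => (tendsto_Gam_top hxx).const_mul _)
  have s6 : Tendsto (fun t => ∑ i, e i * Gam p2 p1 xp xm (κ' i) t) atTop
      (𝓝 (∑ i : J', e i * 0)) :=
    tendsto_finsetSum _ (fun i _ => (tendsto_Gam_top hxx).const_mul _)
  have s0 := (((((s1.sub s2).sub s3).sub s4).sub s5).sub s6)
  have hcoef : ∑ i, (κ i * xp + κ i * xm - κ i * p1 - κ i * p2) = z := by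
    have : ∀ i, κ i * xp + κ i * xm - κ i * p1 - κ i * p2 = κ i * z := by
      intro i
      have : z = xp + xm - p1 - p2 := by linarith
      rw [this]; ring
    simp_rw [this]
    rw [← Finset.sum_mul, sκ, one_mul]
  have hinf : Tendsto B atTop (𝓝 0) := by
    have hval : ∑ i, μ i - ∑ i, h i - ∑ i, g i - ∑ i, (κ i * xp + κ i * xm - κ i * p1 - κ i * p2)
        - ∑ i : J, d i * 0 - ∑ i : J', e i * 0 = 0 := by
      rw [hcoef, sμ, sh, sg]
      simp only [mul_zero, Finset.sum_const_zero]
      ring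
    rw [hval] at s0
    refine s0.congr ?_
    intro t
    set L := Real.log (1 + t) with hL
    have e1 : ∑ i, (anti (μ i) t - μ i * L) = ∑ i, anti (μ i) t - (∑ i, μ i) * L := by
      rw [Finset.sum_mul, ← Finset.sum_sub_distrib]
    have e2 : ∑ i, (anti (h i) t - h i * L) = ∑ i, anti (h i) t - (∑ i, h i) * L := by
      rw [Finset.sum_mul, ← Finset.sum_sub_distrib]
    have e3 : ∑ i, (anti (g i) t - g i * L) = ∑ i, anti (g i) t - (∑ i, g i) * L := by
      rw [Finset.sum_mul, ← Finset.sum_sub_distrib]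
    have e4 : ∑ i, ((anti (κ i * xp) t - (κ i * xp) * L)
        + (anti (κ i * xm) t - (κ i * xm) * L)
        - (anti (κ i * p1) t - (κ i * p1) * L)
        - (anti (κ i * p2) t - (κ i * p2) * L))
        = ∑ i, (anti (κ i * xp) t + anti (κ i * xm) t - anti (κ i * p1) t - anti (κ i * p2) t)
          - (∑ i, (κ i * xp + κ i * xm - κ i * p1 - κ i * p2)) * L := by
      rw [Finset.sum_mul, ← Finset.sum_sub_distrib]
      exact Finset.sum_congr rfl (fun i _ => by ring)
    rw [e1, e2, e3, e4, hcoef, sμ, sh, sg]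
    simp only [hB, hC]
    ring
  have hmain := le_of_limits hder hnn t0 hinf
  -- algebra
  have hLd : ∑ i, d i * (if 0 < κ i then Lam p1 p2 xp xm else 0) ≤ 0 := by
    rcases hp1.eq_or_lt with h0 | h0
    · have : ∀ i, d i = 0 := hd0 h0.symm
      simp [this]
    · have hL : 0 ≤ Lam p1 p2 xp xm := Lam_nonneg hxx h0 hxm hprod hp2
        (fun hx => hqx1 hx h0.ne') (by linarith)
      have : ∑ i, d i * (if 0 < κ i then Lam p1 p2 xp xm else 0)
          = Lam p1 p2 xp xm * ∑ i, (if 0 < κ i then d i else 0) := by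
        rw [Finset.mul_sum]
        refine Finset.sum_congr rfl (fun i _ => ?_)
        split_ifs <;> ring
      rw [this]
      exact mul_nonpos_of_nonneg_of_nonpos hL hd
  have hLe : ∑ i, e i * (if 0 < κ' i then Lam p2 p1 xp xm else 0) ≤ 0 := by
    rcases hp2.eq_or_lt with h0 | h0
    · have : ∀ i, e i = 0 := he0 h0.symm
      simp [this]
    · have hL : 0 ≤ Lam p2 p1 xp xm := Lam_nonneg hxx h0 hxm (by rw [hprod, mul_comm]) hp1
        (fun hx => hqx2 hx h0.ne') (by linarith)
      have : ∑ i, e i * (if 0 < κ' i then Lam p2 p1 xp xm else 0)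
          = Lam p2 p1 xp xm * ∑ i, (if 0 < κ' i then e i else 0) := by
        rw [Finset.mul_sum]
        refine Finset.sum_congr rfl (fun i _ => ?_)
        split_ifs <;> ring
      rw [this]
      exact mul_nonpos_of_nonneg_of_nonpos hL he
  have nm : ∀ x : ℝ, x * Real.log x = - Real.negMulLog x := by
    intro x; simp [Real.negMulLog]
  have hmul : ∀ a b : ℝ, (a * b) * Real.log (a * b)
      = a * (b * Real.log b) + b * (a * Real.log a) := by
    intro a b
    rw [nm, nm, nm, Real.negMulLog_mul]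
    ring
  have hS : ∑ i, ((κ i * xp) * Real.log (κ i * xp) + (κ i * xm) * Real.log (κ i * xm)
          - (κ i * p1) * Real.log (κ i * p1) - (κ i * p2) * Real.log (κ i * p2))
      = (xp * Real.log xp + xm * Real.log xm - p1 * Real.log p1 - p2 * Real.log p2)
        - z * ∑ i, Real.negMulLog (κ i) := by
    have : ∀ i, ((κ i * xp) * Real.log (κ i * xp) + (κ i * xm) * Real.log (κ i * xm)
          - (κ i * p1) * Real.log (κ i * p1) - (κ i * p2) * Real.log (κ i * p2))
        = κ i * (xp * Real.log xp + xm * Real.log xm - p1 * Real.log p1 - p2 * Real.log p2)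
          - z * Real.negMulLog (κ i) := by
      intro i
      rw [hmul, hmul, hmul, hmul, nm (κ i)]
      have : z = xp + xm - p1 - p2 := by linarith
      rw [this]; ring
    simp_rw [this]
    rw [Finset.sum_sub_distrib, ← Finset.sum_mul, sκ, one_mul, ← Finset.mul_sum]
  simp only [nm] at hmain hS
  rw [hS] at hmain
  simp only [Finset.sum_neg_distrib] at hmain
  linarith

end

end Vale.Agent.P358A
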