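import Mathlib

/-!
The convexity core for the matrix entropy inequality: along a line `D s = D₀ + s E` of positive
definite matrices and for a skew-Hermitian `K`, the function `log det (D s + K) - log det (D s)` is
convex (stated as a tangent inequality).
-/

namespace Vale.Agent.P358A
open Matrix
open scoped ComplexOrder

variable {ι : Type*} [Fintype ι] [DecidableEq ι]

/-- A positive semidefinite matrix has a factorization. -/
lemma exists_factor {A : Matrix ι ι ℂ} (hA : A.PosSemidef) : ∃ B : Matrix ι ι ℂ, A = Bᴴ * B := by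
  open scoped MatrixOrder Matrix.Norms.L2Operator in
  obtain ⟨B, hB⟩ := CStarAlgebra.nonneg_iff_eq_star_mul_self.mp hA.nonneg
  exact ⟨B, by simpa [star_eq_conjTranspose] using hB⟩

/-- The real part of the trace of a product of positive semidefinite matrices is nonnegative. -/
lemma trace_mul_nonneg {P Q : Matrix ι ι ℂ} (hP : P.PosSemidef) (hQ : Q.PosSemidef) :
    0 ≤ (trace (P * Q)).re := by
  obtain ⟨R, rfl⟩ := exists_factor hQ
  have h : trace (P * (Rᴴ * R)) = trace (R * P * Rᴴ) := by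
    rw [← Matrix.mul_assoc, Matrix.trace_mul_comm, ← Matrix.mul_assoc]
  rw [h]
  have h2 := (hP.mul_mul_conjTranspose_same R).trace_nonneg
  exact (Complex.le_def.1 h2).1

/-- `D + K` is invertible when `D` is positive definite and `K` is skew-Hermitian. -/
lemma isUnit_add_skew {D K : Matrix ι ι ℂ} (hD : D.PosDef) (hK : Kᴴ = -K) : IsUnit (D + K) := by
  rw [Matrix.isUnit_iff_isUnit_det, isUnit_iff_ne_zero]
  intro h0
  obtain ⟨v, hv, hv0⟩ := Matrix.exists_mulVec_eq_zero_iff.2 h0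
  have h1 : star v ⬝ᵥ ((D + K) *ᵥ v) = 0 := by rw [hv0, dotProduct_zero]
  rw [Matrix.add_mulVec, dotProduct_add] at h1
  have h2 : star (star v ⬝ᵥ (K *ᵥ v)) = star v ⬝ᵥ (Kᴴ *ᵥ v) := by
    rw [dotProduct_mulVec (star v) Kᴴ v, ← star_mulVec, star_dotProduct, star_star]
  rw [hK, Matrix.neg_mulVec, dotProduct_neg] at h2
  have h3 : (star v ⬝ᵥ (K *ᵥ v)).re = 0 := by
    have h4 := congrArg Complex.re h2
    simp only [Complex.star_def, Complex.conj_re, Complex.neg_re] at h4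
    linarith
  have h5 := hD.re_dotProduct_pos hv
  have h6 := congrArg Complex.re h1
  simp only [Complex.add_re, Complex.zero_re, h3, add_zero] at h6
  have h7 : RCLike.re (star v ⬝ᵥ (D *ᵥ v)) = (star v ⬝ᵥ (D *ᵥ v)).re := rfl
  rw [h7, h6] at h5
  exact lt_irrefl _ h5

/-- the algebra of the resolvent identity in a ring -/
lemma ring_identity {R : Type*} [Ring R] (D Di K Y Ys : R) (h1 : D * Di = 1) (h2 : Di * D = 1)
    (h3 : (D + K) * Y = 1) (h4 : Ys * (D - K) = 1) :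
    Di = Ys * D * Y + (Ys * (-K)) * Di * (K * Y) := by
  have e2 : (D - K) * Di * (D + K) = D - K * Di * K := by
    have e3 : D * Di * D = D := by rw [h1, one_mul]
    have e4 : K * Di * D = K := by rw [mul_assoc, h2, mul_one]
    have e5 : D * Di * K = K := by rw [h1, one_mul]
    simp only [sub_mul, mul_add, e3, e4, e5]
    abel
  calc Di = (Ys * (D - K)) * Di * ((D + K) * Y) := by rw [h3, h4, one_mul, mul_one]
    _ = Ys * ((D - K) * Di * (D + K)) * Y := by simp only [mul_assoc]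
    _ = Ys * (D - K * Di * K) * Y := by rw [e2]
    _ = _ := by
      simp only [mul_sub, sub_mul, mul_neg, neg_mul, mul_assoc]
      abel

/-- The resolvent identity: `D⁻¹ = Yᴴ D Y + (K Y)ᴴ D⁻¹ (K Y)`, `Y = (D + K)⁻¹`. -/
lemma resolvent_identity {D K : Matrix ι ι ℂ} (hD : D.PosDef) (hK : Kᴴ = -K) :
    D⁻¹ = ((D + K)⁻¹)ᴴ * D * (D + K)⁻¹ + (K * (D + K)⁻¹)ᴴ * D⁻¹ * (K * (D + K)⁻¹) := by
  have hU := isUnit_add_skew hD hK
  have hdetU : IsUnit (D + K).det := (Matrix.isUnit_iff_isUnit_det _).1 hU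
  have hY1 : (D + K) * (D + K)⁻¹ = 1 := Matrix.mul_nonsing_inv _ hdetU
  have hDU : IsUnit D.det := (Matrix.isUnit_iff_isUnit_det _).1 hD.isUnit
  have hD1 : D * D⁻¹ = 1 := Matrix.mul_nonsing_inv _ hDU
  have hD2 : D⁻¹ * D = 1 := Matrix.nonsing_inv_mul _ hDU
  have hDH : Dᴴ = D := hD.isHermitian.eq
  have hYH : ((D + K)⁻¹)ᴴ * (D - K) = 1 := by
    have : (D + K)ᴴ = D - K := by rw [conjTranspose_add, hDH, hK, sub_eq_add_neg]
    rw [← this, ← conjTranspose_mul, hY1, conjTranspose_one]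
  have h := ring_identity D D⁻¹ K (D + K)⁻¹ ((D + K)⁻¹)ᴴ hD1 hD2 hY1 hYH
  rw [conjTranspose_mul, hK]
  exact h

/-- the trace is invariant under a similarity -/
lemma trace_conj_inv {B : Matrix ι ι ℂ} (hB : B⁻¹ * B = 1) (X : Matrix ι ι ℂ) :
    trace (B * X * B⁻¹) = trace X := by
  rw [Matrix.trace_mul_comm, ← Matrix.mul_assoc, hB, Matrix.one_mul]

/-- the real part of a product of two matrices is controlled by two norms -/
lemma re_trace_mul_le (A₁ A₂ : Matrix ι ι ℂ) :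
    2 * (trace (A₁ * A₂)).re ≤ (trace (A₁ᴴ * A₁)).re + (trace (A₂ * A₂ᴴ)).re := by
  have h := (posSemidef_conjTranspose_mul_self (A₁ - A₂ᴴ)).trace_nonneg
  have h1 := (Complex.le_def.1 h).1
  have e : (A₁ - A₂ᴴ)ᴴ * (A₁ - A₂ᴴ) = A₁ᴴ * A₁ - (A₂ * A₁)ᴴ - A₂ * A₁ + A₂ * A₂ᴴ := by
    rw [conjTranspose_sub, conjTranspose_conjTranspose, conjTranspose_mul, Matrix.sub_mul,
      Matrix.mul_sub, Matrix.mul_sub]
    abel
  rw [e, trace_add, trace_sub, trace_sub, trace_conjTranspose, Matrix.trace_mul_comm A₂ A₁] at h1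
  simp only [Complex.add_re, Complex.sub_re, Complex.star_def, Complex.conj_re, Complex.zero_re] at h1
  linarith

/-- The key inequality for two points of the path. -/
theorem key_trace_ineq {D₁ D₂ K E : Matrix ι ι ℂ} (hD₁ : D₁.PosDef) (hD₂ : D₂.PosDef)
    (hK : Kᴴ = -K) (hE : Eᴴ = E) :
    (trace ((D₂ + K)⁻¹ * E * (D₁ + K)⁻¹ * E)).re ≤ (trace (D₂⁻¹ * E * D₁⁻¹ * E)).re := by
  have hres1 := resolvent_identity hD₁ hK
  have hres2 := resolvent_identity hD₂ hK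
  set Y₁ := (D₁ + K)⁻¹ with hY₁
  set Y₂ := (D₂ + K)⁻¹ with hY₂
  obtain ⟨B₁, hB₁⟩ := exists_factor hD₁.posSemidef
  obtain ⟨B₂, hB₂⟩ := exists_factor hD₂.posSemidef
  have hu1 : IsUnit D₁.det := (Matrix.isUnit_iff_isUnit_det _).1 hD₁.isUnit
  have hu2 : IsUnit D₂.det := (Matrix.isUnit_iff_isUnit_det _).1 hD₂.isUnit
  have hB₁u : IsUnit B₁.det := by
    rw [hB₁, det_mul] at hu1
    exact isUnit_of_mul_isUnit_right hu1
  have hB₂u : IsUnit B₂.det := by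
    rw [hB₂, det_mul] at hu2
    exact isUnit_of_mul_isUnit_right hu2
  have hc1 : B₁⁻¹ * B₁ = 1 := Matrix.nonsing_inv_mul _ hB₁u
  have hc2 : B₂⁻¹ * B₂ = 1 := Matrix.nonsing_inv_mul _ hB₂u
  have hi1 : D₁⁻¹ = B₁⁻¹ * (B₁⁻¹)ᴴ := by
    rw [hB₁, Matrix.mul_inv_rev, conjTranspose_nonsing_inv]
  have hi2 : D₂⁻¹ = B₂⁻¹ * (B₂⁻¹)ᴴ := by
    rw [hB₂, Matrix.mul_inv_rev, conjTranspose_nonsing_inv]
  -- positive parts
  set P₁ := (K * Y₁)ᴴ * D₁⁻¹ * (K * Y₁) with hP₁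
  set P₂ := (K * Y₂)ᴴ * D₂⁻¹ * (K * Y₂) with hP₂
  have hP₁p : P₁.PosSemidef := hD₁.inv.posSemidef.conjTranspose_mul_mul_same _
  have hP₂p : P₂.PosSemidef := hD₂.inv.posSemidef.conjTranspose_mul_mul_same _
  set Q₁ := E * D₁⁻¹ * E with hQ₁
  set Q₂ := E * D₂⁻¹ * E with hQ₂
  have hQ₁p : Q₁.PosSemidef := by
    have := hD₁.inv.posSemidef.mul_mul_conjTranspose_same E
    rwa [hE] at this
  have hQ₂p : Q₂.PosSemidef := by
    have := hD₂.inv.posSemidef.mul_mul_conjTranspose_same E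
    rwa [hE] at this
  -- the two matrices of the Cauchy-Schwarz step
  set A₁ := B₂ * Y₂ * E * B₁⁻¹ with hA₁
  set A₂ := B₁ * Y₁ * E * B₂⁻¹ with hA₂
  have hT : trace (Y₂ * E * Y₁ * E) = trace (A₁ * A₂) := by
    have : A₁ * A₂ = B₂ * (Y₂ * E * Y₁ * E) * B₂⁻¹ := by
      rw [hA₁, hA₂]
      calc B₂ * Y₂ * E * B₁⁻¹ * (B₁ * Y₁ * E * B₂⁻¹)
          = B₂ * Y₂ * E * (B₁⁻¹ * B₁) * Y₁ * E * B₂⁻¹ := by simp only [Matrix.mul_assoc]
        _ = _ := by rw [hc1]; simp only [Matrix.mul_one, Matrix.mul_assoc]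
    rw [this, trace_conj_inv hc2]
  have h1 : trace (A₁ᴴ * A₁) = trace ((D₂⁻¹ - P₂) * Q₁) := by
    have e : D₂⁻¹ - P₂ = Y₂ᴴ * D₂ * Y₂ := sub_eq_of_eq_add hres2
    have e₁ : A₁ᴴ * A₁ = ((B₁⁻¹)ᴴ * E) * (Y₂ᴴ * B₂ᴴ * B₂ * Y₂ * E * B₁⁻¹) := by
      rw [hA₁, conjTranspose_mul, conjTranspose_mul, conjTranspose_mul, hE]
      simp only [Matrix.mul_assoc]
    have e₂ : (Y₂ᴴ * D₂ * Y₂) * Q₁ = (Y₂ᴴ * B₂ᴴ * B₂ * Y₂ * E * B₁⁻¹) * ((B₁⁻¹)ᴴ * E) := by
      rw [hQ₁, hi1, hB₂]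
      simp only [Matrix.mul_assoc]
    rw [e, e₁, e₂, Matrix.trace_mul_comm]
  have h2 : trace (A₂ * A₂ᴴ) = trace ((D₁⁻¹ - P₁) * Q₂) := by
    have e : D₁⁻¹ - P₁ = Y₁ᴴ * D₁ * Y₁ := sub_eq_of_eq_add hres1
    have e₁ : A₂ * A₂ᴴ = (B₁ * Y₁ * E * B₂⁻¹ * (B₂⁻¹)ᴴ * E) * (Y₁ᴴ * B₁ᴴ) := by
      rw [hA₂, conjTranspose_mul, conjTranspose_mul, conjTranspose_mul, hE]
      simp only [Matrix.mul_assoc]
    have e₂ : (Y₁ᴴ * D₁ * Y₁) * Q₂ = (Y₁ᴴ * B₁ᴴ) * (B₁ * Y₁ * E * B₂⁻¹ * (B₂⁻¹)ᴴ * E) := by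
      rw [hQ₂, hi2, hB₁]
      simp only [Matrix.mul_assoc]
    rw [e, e₁, e₂, Matrix.trace_mul_comm]
  have h3 : (trace (D₁⁻¹ * Q₂)) = trace (D₂⁻¹ * E * D₁⁻¹ * E) := by
    have e₁ : D₁⁻¹ * Q₂ = (D₁⁻¹ * E) * (D₂⁻¹ * E) := by
      rw [hQ₂]
      simp only [Matrix.mul_assoc]
    have e₂ : D₂⁻¹ * E * D₁⁻¹ * E = (D₂⁻¹ * E) * (D₁⁻¹ * E) := by
      simp only [Matrix.mul_assoc]
    rw [e₁, e₂, Matrix.trace_mul_comm]
  have h4 : (trace (D₂⁻¹ * Q₁)) = trace (D₂⁻¹ * E * D₁⁻¹ * E) := by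
    rw [hQ₁]
    simp only [Matrix.mul_assoc]
  have h5 := trace_mul_nonneg hP₂p hQ₁p
  have h6 := trace_mul_nonneg hP₁p hQ₂p
  have h7 := re_trace_mul_le A₁ A₂
  rw [hT]
  rw [h1, Matrix.sub_mul, trace_sub, h4] at h7
  rw [h2, Matrix.sub_mul, trace_sub, h3] at h7
  simp only [Complex.sub_re] at h7
  linarith

/-- Jacobi's formula along a line. -/
theorem hasDerivAt_det_line (W E : Matrix ι ι ℂ) (s : ℝ) (hW : IsUnit (W + (s : ℂ) • E).det) :
    HasDerivAt (fun r : ℝ => (W + (r : ℂ) • E).det)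
      ((W + (s : ℂ) • E).det * trace ((W + (s : ℂ) • E)⁻¹ * E)) s := by
  set W₀ := W + (s : ℂ) • E with hW₀
  set M := W₀⁻¹ * E with hM
  set P : Polynomial ℂ := (1 + (Polynomial.X : Polynomial ℂ) • M.map Polynomial.C).det with hP
  have hev : ∀ z : ℂ, P.eval z = (1 + z • M).det := by
    intro z
    have h := RingHom.map_det (Polynomial.evalRingHom z) (1 + (Polynomial.X : Polynomial ℂ) • M.map Polynomial.C)
    simp only [Polynomial.coe_evalRingHom] at h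
    rw [hP, h]
    congr 1
    ext i j
    simp [Matrix.one_apply, apply_ite]
    ring
  have hline : ∀ r : ℝ, (W + (r : ℂ) • E).det = W₀.det * P.eval (((r : ℂ)) - (s : ℂ)) := by
    intro r
    rw [hev, ← det_mul]
    congr 1
    rw [Matrix.mul_add, Matrix.mul_one, Matrix.mul_smul, hM, ← Matrix.mul_assoc,
      Matrix.mul_nonsing_inv _ hW, Matrix.one_mul, hW₀, sub_smul]
    abel
  have hder : (Polynomial.derivative P).eval 0 = trace M := derivative_det_one_add_X_smul M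
  have hP0 : HasDerivAt (fun z : ℂ => P.eval (z - (s : ℂ))) (trace M) (s : ℂ) := by
    have h1 := (P.hasDerivAt (0 : ℂ))
    rw [hder] at h1
    exact HasDerivAt.comp_sub_const (s : ℂ) (s : ℂ) (by rw [sub_self]; exact h1)
  have h5 : HasDerivAt (fun r : ℝ => P.eval ((r : ℂ) - (s : ℂ))) (trace M) s := hP0.comp_ofReal
  have h6 := h5.const_mul W₀.det
  have hfun : (fun r : ℝ => (W + (r : ℂ) • E).det) = fun r : ℝ => W₀.det * P.eval ((r : ℂ) - (s : ℂ)) :=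
    funext hline
  rw [hfun]
  exact h6

/-- the logarithm of a real positive determinant along a line -/
theorem hasDerivAt_logdet_line (W E : Matrix ι ι ℂ) (s : ℝ) (him : (W + (s : ℂ) • E).det.im = 0)
    (hpos : 0 < (W + (s : ℂ) • E).det.re) :
    HasDerivAt (fun r : ℝ => Real.log (W + (r : ℂ) • E).det.re)
      (trace ((W + (s : ℂ) • E)⁻¹ * E)).re s := by
  have hne : (W + (s : ℂ) • E).det ≠ 0 := by
    intro h
    rw [h] at hpos
    simp at hpos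
  have h1 := hasDerivAt_det_line W E s (isUnit_iff_ne_zero.2 hne)
  have h2 := Complex.reCLM.hasFDerivAt.comp_hasDerivAt s h1
  have h3 := h2.log (by simpa using hpos.ne')
  have e : Complex.reCLM ((W + (s : ℂ) • E).det * trace ((W + (s : ℂ) • E)⁻¹ * E)) /
      (Complex.reCLM ∘ fun r : ℝ => (W + (r : ℂ) • E).det) s = (trace ((W + (s : ℂ) • E)⁻¹ * E)).re := by
    simp only [Function.comp, Complex.reCLM_apply, Complex.mul_re, him, zero_mul, sub_zero]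
    field_simp
  rw [e] at h3
  exact h3

/-- difference of two inverses along the path -/
lemma inv_diff_trace {X Y E : Matrix ι ι ℂ} {c : ℂ} (hX : IsUnit X.det) (hY : IsUnit Y.det)
    (h : Y = X + c • E) :
    trace (Y⁻¹ * E) - trace (X⁻¹ * E) = - c * trace (Y⁻¹ * E * X⁻¹ * E) := by
  have h1 : Y⁻¹ - X⁻¹ = - c • (Y⁻¹ * E * X⁻¹) := by
    have e1 : Y⁻¹ * Y = 1 := Matrix.nonsing_inv_mul _ hY
    have e2 : X * X⁻¹ = 1 := Matrix.mul_nonsing_inv _ hX
    calc Y⁻¹ - X⁻¹ = Y⁻¹ * (X * X⁻¹) - (Y⁻¹ * Y) * X⁻¹ := by rw [e1, e2]; simp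
      _ = Y⁻¹ * (X - Y) * X⁻¹ := by simp only [Matrix.mul_sub, Matrix.sub_mul, Matrix.mul_assoc]
      _ = _ := by
        rw [h, sub_add_cancel_left, Matrix.mul_neg, Matrix.neg_mul, Matrix.mul_smul,
          Matrix.smul_mul, neg_smul]
  rw [← trace_sub, ← Matrix.sub_mul, h1, Matrix.smul_mul, trace_smul, smul_eq_mul]

/-- The tangent inequality: `log det (D + K) - log det D` is convex along a line of positive
definite matrices, for a skew-Hermitian `K` (when the determinants of `D + K` are real positive). -/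
theorem tangent_logdet (D₀ E K : Matrix ι ι ℂ) (hE : Eᴴ = E) (hK : Kᴴ = -K)
    (hD : ∀ s ∈ Set.Icc (0 : ℝ) 1, (D₀ + (s : ℂ) • E).PosDef)
    (hdet : ∀ s ∈ Set.Icc (0 : ℝ) 1,
      ((D₀ + K) + (s : ℂ) • E).det.im = 0 ∧ 0 < ((D₀ + K) + (s : ℂ) • E).det.re) :
    Real.log (D₀ + K).det.re - Real.log D₀.det.re + (trace ((D₀ + K)⁻¹ * E)).re -
        (trace (D₀⁻¹ * E)).re ≤
      Real.log ((D₀ + K) + E).det.re - Real.log (D₀ + E).det.re := by
  -- the function on the line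
  set Φ : ℝ → ℝ := fun s => Real.log ((D₀ + K) + (s : ℂ) • E).det.re -
    Real.log (D₀ + (s : ℂ) • E).det.re with hΦ
  set Φ' : ℝ → ℝ := fun s => (trace (((D₀ + K) + (s : ℂ) • E)⁻¹ * E)).re -
    (trace ((D₀ + (s : ℂ) • E)⁻¹ * E)).re with hΦ'
  have hDpos : ∀ s ∈ Set.Icc (0 : ℝ) 1, (D₀ + (s : ℂ) • E).det.im = 0 ∧
      0 < (D₀ + (s : ℂ) • E).det.re := by
    intro s hs
    have h := (hD s hs).det_pos
    have h2 := Complex.lt_def.1 h
    exact ⟨by simpa using h2.2.symm, by simpa using h2.1⟩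
  have hderiv : ∀ s ∈ Set.Icc (0 : ℝ) 1, HasDerivAt Φ (Φ' s) s := by
    intro s hs
    exact (hasDerivAt_logdet_line (D₀ + K) E s (hdet s hs).1 (hdet s hs).2).sub
      (hasDerivAt_logdet_line D₀ E s (hDpos s hs).1 (hDpos s hs).2)
  have hcont : ContinuousOn Φ (Set.Icc 0 1) := fun s hs => (hderiv s hs).continuousAt.continuousWithinAt
  obtain ⟨c, hc, hslope⟩ := exists_hasDerivAt_eq_slope Φ Φ' (zero_lt_one) hcont
    (fun s hs => hderiv s (Set.Ioo_subset_Icc_self hs))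
  have hc' : c ∈ Set.Icc (0 : ℝ) 1 := Set.Ioo_subset_Icc_self hc
  have h0' : (0 : ℝ) ∈ Set.Icc (0 : ℝ) 1 := by simp
  -- monotonicity of the derivative
  have hmono : Φ' 0 ≤ Φ' c := by
    have hDc := hD c hc'
    have hD0 : D₀.PosDef := by simpa using hD 0 h0'
    have hk := key_trace_ineq hD0 hDc hK hE
    have hu1 : IsUnit (D₀ + K).det := (Matrix.isUnit_iff_isUnit_det _).1 (isUnit_add_skew hD0 hK)
    have hu2 : IsUnit (D₀ + (c : ℂ) • E + K).det :=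
      (Matrix.isUnit_iff_isUnit_det _).1 (isUnit_add_skew hDc hK)
    have hu3 : IsUnit D₀.det := (Matrix.isUnit_iff_isUnit_det _).1 hD0.isUnit
    have hu4 : IsUnit (D₀ + (c : ℂ) • E).det := (Matrix.isUnit_iff_isUnit_det _).1 hDc.isUnit
    have e1 : (D₀ + K) + (c : ℂ) • E = D₀ + (c : ℂ) • E + K := by abel
    have d1 := inv_diff_trace (c := (c : ℂ)) (E := E) hu1 hu2 (by rw [← e1])
    have d2 := inv_diff_trace (c := (c : ℂ)) (E := E) hu3 hu4 rfl
    simp only [hΦ', Complex.ofReal_zero, zero_smul, add_zero]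
    rw [e1]
    have r1 := congrArg Complex.re d1
    have r2 := congrArg Complex.re d2
    simp only [Complex.sub_re, neg_mul, Complex.neg_re, Complex.mul_re, Complex.ofReal_re,
      Complex.ofReal_im, zero_mul, sub_zero] at r1 r2
    have hc0 : 0 ≤ c := hc'.1
    nlinarith [mul_le_mul_of_nonneg_left hk hc0]
  have h1 : Φ 1 - Φ 0 = Φ' c := by
    rw [hslope]
    simp
  have e0 : Φ 0 = Real.log (D₀ + K).det.re - Real.log D₀.det.re := by simp [hΦ]
  have e1 : Φ 1 = Real.log ((D₀ + K) + E).det.re - Real.log (D₀ + E).det.re := by simp [hΦ]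
  have e2 : Φ' 0 = (trace ((D₀ + K)⁻¹ * E)).re - (trace (D₀⁻¹ * E)).re := by simp [hΦ']
  rw [← e0, ← e1]
  linarith

end Vale.Agent.P358A
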