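import Mathlib
import Vale.Agent.P358A.Tangent
import Vale.Agent.P358A.Anti
namespace Vale.Agent.P358A
open Matrix
open scoped ComplexOrder

noncomputable section
variable {n m : Type*} [Fintype n] [Fintype m] [DecidableEq n] [DecidableEq m]

/-- Determinant of a block matrix, Schur complement at the lower right block. -/
lemma det_blocks22' (P : Matrix n n ℂ) (B : Matrix n m ℂ) (C : Matrix m n ℂ) (Q : Matrix m m ℂ)
    (hQ : IsUnit Q.det) :
    (fromBlocks P B C Q).det = Q.det * (P - B * Q⁻¹ * C).det := by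
  let _ := invertibleOfIsUnitDet Q hQ
  rw [det_fromBlocks₂₂, invOf_eq_nonsing_inv]

/-- Inverse of a block matrix with invertible blocks and Schur complements. -/
lemma inv_blocks (P : Matrix n n ℂ) (B : Matrix n m ℂ) (C : Matrix m n ℂ) (Q : Matrix m m ℂ)
    (hP : IsUnit P.det) (hQ : IsUnit Q.det)
    (hS : IsUnit (P - B * Q⁻¹ * C).det) (hS' : IsUnit (Q - C * P⁻¹ * B).det) :
    (fromBlocks P B C Q)⁻¹ =
      fromBlocks (P - B * Q⁻¹ * C)⁻¹ (-(P⁻¹ * B * (Q - C * P⁻¹ * B)⁻¹))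
        (-(Q⁻¹ * C * (P - B * Q⁻¹ * C)⁻¹)) (Q - C * P⁻¹ * B)⁻¹ := by
  apply Matrix.inv_eq_right_inv
  rw [fromBlocks_multiply]
  have h11 : P * (P - B * Q⁻¹ * C)⁻¹ + B * -(Q⁻¹ * C * (P - B * Q⁻¹ * C)⁻¹) = 1 := by
    have : P * (P - B * Q⁻¹ * C)⁻¹ + B * -(Q⁻¹ * C * (P - B * Q⁻¹ * C)⁻¹)
        = (P - B * Q⁻¹ * C) * (P - B * Q⁻¹ * C)⁻¹ := by
      rw [Matrix.sub_mul, Matrix.mul_neg]
      simp only [Matrix.mul_assoc, sub_eq_add_neg]
    rw [this, Matrix.mul_nonsing_inv _ hS]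
  have h12 : P * -(P⁻¹ * B * (Q - C * P⁻¹ * B)⁻¹) + B * (Q - C * P⁻¹ * B)⁻¹ = 0 := by
    have : P * -(P⁻¹ * B * (Q - C * P⁻¹ * B)⁻¹) = -((P * P⁻¹) * B * (Q - C * P⁻¹ * B)⁻¹) := by
      simp only [Matrix.mul_assoc, Matrix.mul_neg]
    rw [this, Matrix.mul_nonsing_inv _ hP, Matrix.one_mul, neg_add_cancel]
  have h21 : C * (P - B * Q⁻¹ * C)⁻¹ + Q * -(Q⁻¹ * C * (P - B * Q⁻¹ * C)⁻¹) = 0 := by
    have : Q * -(Q⁻¹ * C * (P - B * Q⁻¹ * C)⁻¹) = -((Q * Q⁻¹) * C * (P - B * Q⁻¹ * C)⁻¹) := by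
      simp only [Matrix.mul_assoc, Matrix.mul_neg]
    rw [this, Matrix.mul_nonsing_inv _ hQ, Matrix.one_mul, add_neg_cancel]
  have h22 : C * -(P⁻¹ * B * (Q - C * P⁻¹ * B)⁻¹) + Q * (Q - C * P⁻¹ * B)⁻¹ = 1 := by
    have : C * -(P⁻¹ * B * (Q - C * P⁻¹ * B)⁻¹) + Q * (Q - C * P⁻¹ * B)⁻¹
        = (Q - C * P⁻¹ * B) * (Q - C * P⁻¹ * B)⁻¹ := by
      rw [Matrix.sub_mul, Matrix.mul_neg]
      simp only [Matrix.mul_assoc, sub_eq_add_neg]
      rw [add_comm]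
    rw [this, Matrix.mul_nonsing_inv _ hS']
  rw [h11, h12, h21, h22, fromBlocks_one]

lemma trace_blocks (a : Matrix n n ℂ) (b : Matrix n m ℂ) (c : Matrix m n ℂ) (d : Matrix m m ℂ) :
    (fromBlocks a b c d).trace = a.trace + d.trace := by
  simp [Matrix.trace, Fintype.sum_sum_type]

/-- Trace of the inverse of a block matrix against a block diagonal matrix. -/
lemma trace_inv_blocks (P : Matrix n n ℂ) (B : Matrix n m ℂ) (C : Matrix m n ℂ) (Q : Matrix m m ℂ)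
    (hP : IsUnit P.det) (hQ : IsUnit Q.det)
    (hS : IsUnit (P - B * Q⁻¹ * C).det) (hS' : IsUnit (Q - C * P⁻¹ * B).det)
    (E1 : Matrix n n ℂ) (E2 : Matrix m m ℂ) :
    ((fromBlocks P B C Q)⁻¹ * fromBlocks E1 0 0 E2).trace =
      ((P - B * Q⁻¹ * C)⁻¹ * E1).trace + ((Q - C * P⁻¹ * B)⁻¹ * E2).trace := by
  rw [inv_blocks P B C Q hP hQ hS hS', fromBlocks_multiply, trace_blocks]
  simp


/-- `t • 1` plus a positive semidefinite matrix is positive definite. -/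
lemma posDef_add_smul {X : Matrix n n ℂ} (hX : X.PosSemidef) {t : ℝ} (ht : 0 < t) :
    (X + (t : ℂ) • (1 : Matrix n n ℂ)).PosDef := by
  have h1 : ((t : ℂ) • (1 : Matrix n n ℂ)).PosDef :=
    Matrix.PosDef.one.smul (by exact_mod_cast ht)
  rw [add_comm X]
  exact h1.add_posSemidef hX

lemma isUnit_det_add_smul {X : Matrix n n ℂ} (hX : X.PosSemidef) {t : ℝ} (ht : 0 < t) :
    IsUnit (X + (t : ℂ) • (1 : Matrix n n ℂ)).det :=
  (Matrix.isUnit_iff_isUnit_det _).mp (posDef_add_smul hX ht).isUnit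

/-- Sylvester's identity with a shift. -/
lemma sylvester_shift (C : Matrix n m ℂ) {t : ℝ} (ht : 0 < t) :
    (C * Cᴴ + (t : ℂ) • (1 : Matrix n n ℂ)).det * (t : ℂ) ^ Fintype.card m =
      (Cᴴ * C + (t : ℂ) • (1 : Matrix m m ℂ)).det * (t : ℂ) ^ Fintype.card n := by
  have ht' : (t : ℂ) ≠ 0 := by exact_mod_cast ht.ne'
  have e1 : C * Cᴴ + (t : ℂ) • (1 : Matrix n n ℂ) =
      (t : ℂ) • (1 + ((t : ℂ)⁻¹ • C) * Cᴴ) := by
    rw [Matrix.smul_mul, smul_add, smul_smul, mul_inv_cancel₀ ht', one_smul, add_comm]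
  have e2 : Cᴴ * C + (t : ℂ) • (1 : Matrix m m ℂ) =
      (t : ℂ) • (1 + Cᴴ * ((t : ℂ)⁻¹ • C)) := by
    rw [Matrix.mul_smul, smul_add, smul_smul, mul_inv_cancel₀ ht', one_smul, add_comm]
  rw [e1, e2, det_smul, det_smul, Matrix.det_one_add_mul_comm]
  ring

/-- The push-through identity behind the Schur complement. -/
lemma push_through (C : Matrix n m ℂ) {t : ℝ} (ht : 0 < t) :
    Cᴴ * (C * Cᴴ + (t : ℂ) • (1 : Matrix n n ℂ))⁻¹ * C =
      1 - (t : ℂ) • (Cᴴ * C + (t : ℂ) • (1 : Matrix m m ℂ))⁻¹ := by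
  set Y1 := C * Cᴴ + (t : ℂ) • (1 : Matrix n n ℂ) with hY1
  set Y2 := Cᴴ * C + (t : ℂ) • (1 : Matrix m m ℂ) with hY2
  have h1 : IsUnit Y1.det := isUnit_det_add_smul (Matrix.posSemidef_self_mul_conjTranspose C) ht
  have h2 : IsUnit Y2.det := isUnit_det_add_smul (Matrix.posSemidef_conjTranspose_mul_self C) ht
  have hc : Y2 * Cᴴ = Cᴴ * Y1 := by
    rw [hY1, hY2, Matrix.add_mul, Matrix.mul_add, Matrix.mul_assoc]
    simp
  have h3 : Cᴴ * Y1⁻¹ = Y2⁻¹ * Cᴴ := by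
    calc Cᴴ * Y1⁻¹ = Y2⁻¹ * (Y2 * Cᴴ) * Y1⁻¹ := by
          rw [← Matrix.mul_assoc, Matrix.nonsing_inv_mul _ h2, Matrix.one_mul]
      _ = Y2⁻¹ * Cᴴ * (Y1 * Y1⁻¹) := by
          rw [hc]; simp only [Matrix.mul_assoc]
      _ = Y2⁻¹ * Cᴴ := by rw [Matrix.mul_nonsing_inv _ h1, Matrix.mul_one]
  rw [h3, Matrix.mul_assoc]
  have h4 : Cᴴ * C = Y2 - (t : ℂ) • (1 : Matrix m m ℂ) := by rw [hY2]; abel
  rw [h4, Matrix.mul_sub, Matrix.nonsing_inv_mul _ h2, Matrix.mul_smul, Matrix.mul_one]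

/-- The basic identity for the determinant of `T + t`. -/
lemma det_T_shift (C1 C2 A : Matrix n m ℂ) {t : ℝ} (ht : 0 < t) :
    (((fromBlocks C1 A 0 C2) * (fromBlocks C1 A 0 C2)ᴴ) + (t : ℂ) • (1 : Matrix (n ⊕ n) (n ⊕ n) ℂ)).det *
        (t : ℂ) ^ Fintype.card m =
      (fromBlocks (C1 * C1ᴴ + (t : ℂ) • (1 : Matrix n n ℂ)) (((Real.sqrt t : ℝ) : ℂ) • A)
          (-(((Real.sqrt t : ℝ) : ℂ) • Aᴴ)) (C2ᴴ * C2 + (t : ℂ) • (1 : Matrix m m ℂ))).det *
        (t : ℂ) ^ Fintype.card n := by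
  set Y1 := C2 * C2ᴴ + (t : ℂ) • (1 : Matrix n n ℂ) with hY1
  set Y2 := C2ᴴ * C2 + (t : ℂ) • (1 : Matrix m m ℂ) with hY2
  have h1 : IsUnit Y1.det := isUnit_det_add_smul (Matrix.posSemidef_self_mul_conjTranspose C2) ht
  have h2 : IsUnit Y2.det := isUnit_det_add_smul (Matrix.posSemidef_conjTranspose_mul_self C2) ht
  have hs : ((Real.sqrt t : ℝ) : ℂ) * ((Real.sqrt t : ℝ) : ℂ) = (t : ℂ) := by
    rw [← Complex.ofReal_mul, Real.mul_self_sqrt ht.le]
  set S1 := C1 * C1ᴴ + (t : ℂ) • (1 : Matrix n n ℂ) + (t : ℂ) • (A * Y2⁻¹ * Aᴴ) with hS1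
  have eT : ((fromBlocks C1 A 0 C2) * (fromBlocks C1 A 0 C2)ᴴ) + (t : ℂ) • (1 : Matrix (n ⊕ n) (n ⊕ n) ℂ) =
      fromBlocks (C1 * C1ᴴ + A * Aᴴ + (t : ℂ) • 1) (A * C2ᴴ) (C2 * Aᴴ) Y1 := by
    rw [fromBlocks_conjTranspose, fromBlocks_multiply, ← fromBlocks_one, fromBlocks_smul,
      fromBlocks_add]
    simp [hY1]
  have dT : (((fromBlocks C1 A 0 C2) * (fromBlocks C1 A 0 C2)ᴴ) + (t : ℂ) • (1 : Matrix (n ⊕ n) (n ⊕ n) ℂ)).det =
      Y1.det * S1.det := by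
    rw [eT, det_blocks22' _ _ _ _ h1]
    congr 2
    have hp := push_through C2 ht
    rw [← hY1, ← hY2] at hp
    have : A * C2ᴴ * Y1⁻¹ * (C2 * Aᴴ) = A * (C2ᴴ * Y1⁻¹ * C2) * Aᴴ := by
      simp only [Matrix.mul_assoc]
    rw [this, hp, hS1]
    rw [Matrix.mul_sub, Matrix.sub_mul, Matrix.mul_one, Matrix.mul_smul, Matrix.smul_mul]
    abel
  have dW : (fromBlocks (C1 * C1ᴴ + (t : ℂ) • (1 : Matrix n n ℂ)) (((Real.sqrt t : ℝ) : ℂ) • A)
          (-(((Real.sqrt t : ℝ) : ℂ) • Aᴴ)) Y2).det = Y2.det * S1.det := by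
    rw [det_blocks22' _ _ _ _ h2]
    congr 2
    rw [hS1]
    have : ((Real.sqrt t : ℝ) : ℂ) • A * Y2⁻¹ * -(((Real.sqrt t : ℝ) : ℂ) • Aᴴ) =
        -((t : ℂ) • (A * Y2⁻¹ * Aᴴ)) := by
      rw [Matrix.mul_neg, Matrix.smul_mul, Matrix.smul_mul, Matrix.mul_smul, smul_smul, hs]
    rw [this, sub_neg_eq_add]
  rw [dT, dW]
  have hs := sylvester_shift C2 ht
  rw [← hY1, ← hY2] at hs
  linear_combination S1.det * hs


/-! ### Unitary conjugates of diagonal matrices -/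

/-- `U diag(d) Uᴴ`. -/
def cj (U : Matrix n n ℂ) (d : n → ℂ) : Matrix n n ℂ := U * diagonal d * Uᴴ

lemma cj_add (U : Matrix n n ℂ) (d e : n → ℂ) : cj U d + cj U e = cj U (fun i => d i + e i) := by
  simp only [cj]
  rw [← Matrix.add_mul, ← Matrix.mul_add, diagonal_add]

lemma cj_smul (U : Matrix n n ℂ) (c : ℂ) (d : n → ℂ) : c • cj U d = cj U (fun i => c * d i) := by
  simp only [cj]
  rw [← Matrix.smul_mul, ← Matrix.mul_smul]
  congr 2
  ext i j
  simp only [Matrix.smul_apply, diagonal_apply, smul_eq_mul]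
  split_ifs <;> simp_all

lemma cj_mul {U : Matrix n n ℂ} (hU : Uᴴ * U = 1) (d e : n → ℂ) :
    cj U d * cj U e = cj U (fun i => d i * e i) := by
  simp only [cj]
  calc U * diagonal d * Uᴴ * (U * diagonal e * Uᴴ)
      = U * diagonal d * (Uᴴ * U) * diagonal e * Uᴴ := by simp only [Matrix.mul_assoc]
    _ = U * (diagonal d * diagonal e) * Uᴴ := by
        rw [hU, Matrix.mul_one]; simp only [Matrix.mul_assoc]
    _ = _ := by rw [diagonal_mul_diagonal]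

lemma cj_one {U : Matrix n n ℂ} (hU : U * Uᴴ = 1) : cj U (fun _ => 1) = 1 := by
  simp only [cj]
  have : diagonal (fun _ : n => (1 : ℂ)) = 1 := by simp
  rw [this, Matrix.mul_one, hU]

lemma cj_inv {U : Matrix n n ℂ} (hU : Uᴴ * U = 1) (hU' : U * Uᴴ = 1) (d : n → ℂ)
    (hd : ∀ i, d i ≠ 0) : (cj U d)⁻¹ = cj U (fun i => (d i)⁻¹) := by
  apply Matrix.inv_eq_right_inv
  rw [cj_mul hU]
  have : (fun i => d i * (d i)⁻¹) = fun _ => (1 : ℂ) := by
    funext i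
    exact mul_inv_cancel₀ (hd i)
  rw [this, cj_one hU']

lemma cj_det {U : Matrix n n ℂ} (hU' : U * Uᴴ = 1) (d : n → ℂ) : (cj U d).det = ∏ i, d i := by
  simp only [cj]
  rw [det_mul_right_comm, hU', Matrix.one_mul, det_diagonal]

lemma cj_trace (U : Matrix n n ℂ) (d : n → ℂ) (E : Matrix n n ℂ) :
    (cj U d * E).trace = ∑ i, d i * (Uᴴ * E * U) i i := by
  simp only [cj]
  have : U * diagonal d * Uᴴ * E = U * (diagonal d * (Uᴴ * E)) := by simp only [Matrix.mul_assoc]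
  rw [this, Matrix.trace_mul_comm, Matrix.mul_assoc]
  simp [Matrix.trace, Matrix.diagonal_mul]

lemma cj_conj_diag {U : Matrix n n ℂ} (hU : Uᴴ * U = 1) (d : n → ℂ) (i : n) :
    (Uᴴ * cj U d * U) i i = d i := by
  simp only [cj]
  have : Uᴴ * (U * diagonal d * Uᴴ) * U = (Uᴴ * U) * diagonal d * (Uᴴ * U) := by
    simp only [Matrix.mul_assoc]
  rw [this, hU, Matrix.one_mul, Matrix.mul_one, diagonal_apply_eq]

/-- Hermitian matrices are unitary conjugates of their eigenvalues. -/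
lemma spec_cj {X : Matrix n n ℂ} (hX : X.IsHermitian) :
    X = cj (hX.eigenvectorUnitary : Matrix n n ℂ) (fun i => ((hX.eigenvalues i : ℝ) : ℂ)) := by
  conv_lhs => rw [hX.spectral_theorem]
  simp only [cj, Unitary.conjStarAlgAut_apply, star_eq_conjTranspose]
  rfl

lemma ev_mul {X : Matrix n n ℂ} (hX : X.IsHermitian) :
    (hX.eigenvectorUnitary : Matrix n n ℂ)ᴴ * (hX.eigenvectorUnitary : Matrix n n ℂ) = 1 := by
  have := Matrix.mem_unitaryGroup_iff'.mp hX.eigenvectorUnitary.2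
  simpa [star_eq_conjTranspose] using this

lemma mul_ev {X : Matrix n n ℂ} (hX : X.IsHermitian) :
    (hX.eigenvectorUnitary : Matrix n n ℂ) * (hX.eigenvectorUnitary : Matrix n n ℂ)ᴴ = 1 := by
  have := Matrix.mem_unitaryGroup_iff.mp hX.eigenvectorUnitary.2
  simpa [star_eq_conjTranspose] using this

/-- `X + t` in spectral form. -/
lemma cj_shift {X : Matrix n n ℂ} (hX : X.IsHermitian) (c t : ℝ) :
    ((c : ℂ)) • X + (t : ℂ) • (1 : Matrix n n ℂ) =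
      cj (hX.eigenvectorUnitary : Matrix n n ℂ) (fun i => ((t + hX.eigenvalues i * c : ℝ) : ℂ)) := by
  set U := (hX.eigenvectorUnitary : Matrix n n ℂ) with hU
  have h1 : (t : ℂ) • (1 : Matrix n n ℂ) = cj U (fun _ => (t : ℂ)) := by
    rw [← cj_one (U := U) (mul_ev hX), cj_smul]
    simp
  conv_lhs => rw [spec_cj hX, h1, ← hU, cj_smul, cj_add]
  congr 1
  funext i
  push_cast
  ring

/-- Logs of shifted eigenvalues and the determinant. -/
lemma sum_log_one_add {X : Matrix n n ℂ} (hX : X.IsHermitian) (hp : X.PosSemidef) {t : ℝ} (ht : 0 < t) :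
    ∑ i, Real.log (1 + hX.eigenvalues i / t) =
      Real.log (X + (t : ℂ) • (1 : Matrix n n ℂ)).det.re - Fintype.card n * Real.log t := by
  have h0 : ∀ i, 0 ≤ hX.eigenvalues i := hp.eigenvalues_nonneg
  have e := cj_shift hX 1 t
  simp only [Complex.ofReal_one, one_smul, mul_one] at e
  rw [e, cj_det (mul_ev hX)]
  rw [← Complex.ofReal_prod, Complex.ofReal_re,
    Real.log_prod (fun i _ => by linarith [h0 i])]
  have : (Fintype.card n : ℝ) * Real.log t = ∑ _i : n, Real.log t := by simp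
  rw [this, ← Finset.sum_sub_distrib]
  refine Finset.sum_congr rfl fun i _ => ?_
  have : 1 + hX.eigenvalues i / t = (t + hX.eigenvalues i) / t := by field_simp
  rw [this, Real.log_div (by linarith [h0 i]) ht.ne']

/-! ### Block determinants are real and positive -/

lemma posDef_schur {P : Matrix n n ℂ} {Q : Matrix m m ℂ} (hP : P.PosDef) (hQ : Q.PosDef)
    (A : Matrix n m ℂ) (c : ℝ) (hc : 0 ≤ c) :
    (P + (c : ℂ) • (A * Q⁻¹ * Aᴴ)).PosDef := by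
  refine hP.add_posSemidef (Matrix.PosSemidef.smul ?_ (by exact_mod_cast hc))
  exact (hQ.inv.posSemidef).mul_mul_conjTranspose_same A

lemma schur_neg (P : Matrix n n ℂ) (Q : Matrix m m ℂ) (A : Matrix n m ℂ) (s : ℂ) :
    P - (s • A) * Q⁻¹ * (-(s • Aᴴ)) = P + (s * s) • (A * Q⁻¹ * Aᴴ) := by
  rw [Matrix.mul_neg, sub_neg_eq_add, Matrix.smul_mul, Matrix.smul_mul, Matrix.mul_smul, smul_smul]

lemma schur_neg' (P : Matrix n n ℂ) (Q : Matrix m m ℂ) (A : Matrix n m ℂ) (s : ℂ) :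
    Q - (-(s • Aᴴ)) * P⁻¹ * (s • A) = Q + (s * s) • (Aᴴ * P⁻¹ * A) := by
  rw [Matrix.neg_mul, Matrix.neg_mul, sub_neg_eq_add, Matrix.smul_mul, Matrix.smul_mul, Matrix.mul_smul,
    smul_smul]

lemma sqrt_mul_sqrt_complex {t : ℝ} (ht : 0 < t) :
    ((Real.sqrt t : ℝ) : ℂ) * ((Real.sqrt t : ℝ) : ℂ) = (t : ℂ) := by
  rw [← Complex.ofReal_mul, Real.mul_self_sqrt ht.le]

lemma blocks_det_pos {P : Matrix n n ℂ} {Q : Matrix m m ℂ} (hP : P.PosDef) (hQ : Q.PosDef)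
    (A : Matrix n m ℂ) {t : ℝ} (ht : 0 < t) :
    (fromBlocks P (((Real.sqrt t : ℝ) : ℂ) • A) (-(((Real.sqrt t : ℝ) : ℂ) • Aᴴ)) Q).det.im = 0 ∧
    0 < (fromBlocks P (((Real.sqrt t : ℝ) : ℂ) • A) (-(((Real.sqrt t : ℝ) : ℂ) • Aᴴ)) Q).det.re := by
  have hQu : IsUnit Q.det := (Matrix.isUnit_iff_isUnit_det _).mp hQ.isUnit
  rw [det_blocks22' _ _ _ _ hQu, schur_neg, sqrt_mul_sqrt_complex ht]
  have h1 := hQ.det_pos
  have h2 := (posDef_schur hP hQ A t ht.le).det_pos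
  have h3 := mul_pos h1 h2
  have h4 := Complex.pos_iff.mp h3
  exact ⟨h4.2.symm, h4.1⟩

/-! ### The base point -/

lemma intertwine (A : Matrix n m ℂ) {c t : ℝ} (hc : 0 ≤ c) (ht : 0 < t) :
    ((c : ℂ) • (Aᴴ * A) + (t : ℂ) • (1 : Matrix m m ℂ))⁻¹ * Aᴴ =
      Aᴴ * ((c : ℂ) • (A * Aᴴ) + (t : ℂ) • (1 : Matrix n n ℂ))⁻¹ := by
  set Y1 := (c : ℂ) • (A * Aᴴ) + (t : ℂ) • (1 : Matrix n n ℂ) with hY1
  set Y2 := (c : ℂ) • (Aᴴ * A) + (t : ℂ) • (1 : Matrix m m ℂ) with hY2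
  have hc' : (0 : ℂ) ≤ (c : ℂ) := by exact_mod_cast hc
  have h1 : IsUnit Y1.det :=
    isUnit_det_add_smul ((Matrix.posSemidef_self_mul_conjTranspose A).smul hc') ht
  have h2 : IsUnit Y2.det :=
    isUnit_det_add_smul ((Matrix.posSemidef_conjTranspose_mul_self A).smul hc') ht
  have hcomm : Y2 * Aᴴ = Aᴴ * Y1 := by
    rw [hY1, hY2, Matrix.add_mul, Matrix.mul_add, Matrix.smul_mul, Matrix.mul_smul, Matrix.smul_mul,
      Matrix.mul_smul, Matrix.mul_assoc, Matrix.one_mul, Matrix.mul_one]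
  calc Y2⁻¹ * Aᴴ = Y2⁻¹ * Aᴴ * (Y1 * Y1⁻¹) := by rw [Matrix.mul_nonsing_inv _ h1, Matrix.mul_one]
    _ = Y2⁻¹ * (Aᴴ * Y1) * Y1⁻¹ := by simp only [Matrix.mul_assoc]
    _ = Y2⁻¹ * (Y2 * Aᴴ) * Y1⁻¹ := by rw [hcomm]
    _ = (Y2⁻¹ * Y2) * Aᴴ * Y1⁻¹ := by simp only [Matrix.mul_assoc]
    _ = Aᴴ * Y1⁻¹ := by rw [Matrix.nonsing_inv_mul _ h2, Matrix.one_mul]

lemma key_real {w z t p1 p2 xp xm : ℝ} (hz : z ≠ 0) (hD : t + w / z * p2 ≠ 0)
    (hsum : xp + xm = p1 + p2 + z) (hprod : xp * xm = p1 * p2) :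
    t + w * (p1 / z) + t * (w * (t + w * (p2 / z))⁻¹) =
      (t + w / z * xp) * (t + w / z * xm) / (t + w / z * p2) := by
  obtain ⟨k, hk⟩ : ∃ k, k = w / z := ⟨_, rfl⟩
  have hwk : w = k * z := by rw [hk]; field_simp
  have e1 : w * (p1 / z) = k * p1 := by rw [hwk]; field_simp
  have e2 : w * (p2 / z) = k * p2 := by rw [hwk]; field_simp
  rw [← hk] at hD ⊢
  rw [e1, e2, hwk]
  rw [eq_div_iff hD]
  have h3 : t * (k * z * (t + k * p2)⁻¹) * (t + k * p2) = t * k * z := by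
    field_simp
  calc (t + k * p1 + t * (k * z * (t + k * p2)⁻¹)) * (t + k * p2)
      = (t + k * p1) * (t + k * p2) + t * (k * z * (t + k * p2)⁻¹) * (t + k * p2) := by ring
    _ = (t + k * p1) * (t + k * p2) + t * k * z := by rw [h3]
    _ = _ := by linear_combination (-(t * k)) * hsum - k ^ 2 * hprod

/-- The Schur complement at the base point, in spectral form. -/
lemma schur_base (A : Matrix n m ℂ) {X : Matrix n n ℂ} (hX : X.IsHermitian) (hXA : X = A * Aᴴ)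
    {t p1 p2 z xp xm : ℝ} (ht : 0 < t) (hz : 0 < z) (hp2 : 0 ≤ p2)
    (hsum : xp + xm = p1 + p2 + z) (hprod : xp * xm = p1 * p2) :
    (((p1 / z : ℝ) : ℂ) • X + (t : ℂ) • (1 : Matrix n n ℂ)) +
        (t : ℂ) • (A * (((p2 / z : ℝ) : ℂ) • (Aᴴ * A) + (t : ℂ) • (1 : Matrix m m ℂ))⁻¹ * Aᴴ) =
      cj (hX.eigenvectorUnitary : Matrix n n ℂ)
        (fun i => (((t + hX.eigenvalues i / z * xp) * (t + hX.eigenvalues i / z * xm) /
          (t + hX.eigenvalues i / z * p2) : ℝ) : ℂ)) := by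
  have hw : ∀ i, 0 ≤ hX.eigenvalues i := by
    have hp : X.PosSemidef := by rw [hXA]; exact Matrix.posSemidef_self_mul_conjTranspose A
    exact hp.eigenvalues_nonneg
  have hk : ∀ i, 0 ≤ hX.eigenvalues i / z := fun i => div_nonneg (hw i) hz.le
  set U := (hX.eigenvectorUnitary : Matrix n n ℂ) with hU
  have hUU := ev_mul hX
  have hUU' := mul_ev hX
  rw [← hU] at hUU hUU'
  have hc : 0 ≤ p2 / z := div_nonneg hp2 hz.le
  have h1 : A * (((p2 / z : ℝ) : ℂ) • (Aᴴ * A) + (t : ℂ) • (1 : Matrix m m ℂ))⁻¹ * Aᴴ =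
      X * (((p2 / z : ℝ) : ℂ) • X + (t : ℂ) • (1 : Matrix n n ℂ))⁻¹ := by
    rw [Matrix.mul_assoc, intertwine A hc ht, ← Matrix.mul_assoc, ← hXA]
  rw [h1]
  have h2 := cj_shift hX (p2 / z) t
  have h3 := cj_shift hX (p1 / z) t
  rw [← hU] at h2 h3
  have hpos : ∀ i, 0 < t + hX.eigenvalues i * (p2 / z) := fun i => by
    have := mul_nonneg (hw i) hc
    linarith
  have hX' := spec_cj hX
  rw [← hU] at hX'
  rw [h2, h3, cj_inv hUU hUU' _ (fun i => by exact_mod_cast (hpos i).ne')]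
  have h5 : ∀ d : n → ℂ, X * cj U d = cj U (fun i => ((hX.eigenvalues i : ℝ) : ℂ) * d i) := fun d =>
    (congrArg (· * cj U d) hX').trans (cj_mul hUU _ _)
  rw [h5, cj_smul, cj_add]
  congr 1
  funext i
  have hw2 : t + hX.eigenvalues i / z * p2 ≠ 0 := by
    have := hpos i
    have e : hX.eigenvalues i / z * p2 = hX.eigenvalues i * (p2 / z) := by ring
    rw [e]
    exact this.ne'
  have hpos2 : t + hX.eigenvalues i * (p2 / z) ≠ 0 := (hpos i).ne'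
  have key : t + hX.eigenvalues i * (p1 / z) +
      t * (hX.eigenvalues i * (t + hX.eigenvalues i * (p2 / z))⁻¹) =
      (t + hX.eigenvalues i / z * xp) * (t + hX.eigenvalues i / z * xm) /
        (t + hX.eigenvalues i / z * p2) := by
    exact key_real hz.ne' hw2 hsum hprod
  have : ((t + hX.eigenvalues i * (p1 / z) : ℝ) : ℂ) +
      (t : ℂ) * ((hX.eigenvalues i : ℂ) * (((t + hX.eigenvalues i * (p2 / z) : ℝ) : ℂ))⁻¹) =
      (((t + hX.eigenvalues i * (p1 / z) +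
      t * (hX.eigenvalues i * (t + hX.eigenvalues i * (p2 / z))⁻¹)) : ℝ) : ℂ) := by
    push_cast
    ring
  rw [this, key]


lemma log_one_add_div {a t : ℝ} (ht : 0 < t) (ha : 0 < t + a) :
    Real.log (1 + a / t) = Real.log (t + a) - Real.log t := by
  have : 1 + a / t = (t + a) / t := by field_simp
  rw [this, Real.log_div ha.ne' ht.ne']

/-- One side of the base point: the determinant and the trace term. -/
lemma base_side (A : Matrix n m ℂ) {X : Matrix n n ℂ} (hX : X.IsHermitian) (hXA : X = A * Aᴴ)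
    {t p1 p2 z xp xm : ℝ} (ht : 0 < t) (hz : 0 < z) (hp1 : 0 ≤ p1) (hp2 : 0 ≤ p2)
    (hxp : 0 ≤ xp) (hxm : 0 ≤ xm)
    (hsum : xp + xm = p1 + p2 + z) (hprod : xp * xm = p1 * p2) (E : Matrix n n ℂ) :
    ((((((p1 / z : ℝ) : ℂ) • X + (t : ℂ) • (1 : Matrix n n ℂ)) +
        (t : ℂ) • (A * (((p2 / z : ℝ) : ℂ) • (Aᴴ * A) + (t : ℂ) • (1 : Matrix m m ℂ))⁻¹ * Aᴴ))⁻¹ * E).trace
      - ((((p1 / z : ℝ) : ℂ) • X + (t : ℂ) • (1 : Matrix n n ℂ))⁻¹ * E).trace).re =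
      ∑ i, (((hX.eigenvectorUnitary : Matrix n n ℂ)ᴴ * E * (hX.eigenvectorUnitary : Matrix n n ℂ)) i i).re *
        gam p1 p2 xp xm (hX.eigenvalues i / z) t ∧
    Real.log (((((p1 / z : ℝ) : ℂ) • X + (t : ℂ) • (1 : Matrix n n ℂ)) +
        (t : ℂ) • (A * (((p2 / z : ℝ) : ℂ) • (Aᴴ * A) + (t : ℂ) • (1 : Matrix m m ℂ))⁻¹ * Aᴴ)).det).re
      - Real.log ((((p1 / z : ℝ) : ℂ) • X + (t : ℂ) • (1 : Matrix n n ℂ)).det).re =
      ∑ i, (Real.log (1 + hX.eigenvalues i / z * xp / t) + Real.log (1 + hX.eigenvalues i / z * xm / t)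
        - Real.log (1 + hX.eigenvalues i / z * p1 / t) - Real.log (1 + hX.eigenvalues i / z * p2 / t)) := by
  have hw : ∀ i, 0 ≤ hX.eigenvalues i := by
    have hp : X.PosSemidef := by rw [hXA]; exact Matrix.posSemidef_self_mul_conjTranspose A
    exact hp.eigenvalues_nonneg
  have hk : ∀ i, 0 ≤ hX.eigenvalues i / z := fun i => div_nonneg (hw i) hz.le
  have hS := schur_base A hX hXA ht hz hp2 hsum hprod
  have hP := cj_shift hX (p1 / z) t
  set U := (hX.eigenvectorUnitary : Matrix n n ℂ) with hU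
  have hUU := ev_mul hX
  have hUU' := mul_ev hX
  rw [← hU] at hUU hUU'
  have pp : ∀ (c : ℝ), 0 ≤ c → ∀ i, 0 < t + hX.eigenvalues i / z * c := fun c hc i => by
    have := mul_nonneg (hk i) hc
    linarith
  have e1 : ∀ i, hX.eigenvalues i * (p1 / z) = hX.eigenvalues i / z * p1 := fun i => by ring
  have hP' : ((p1 / z : ℝ) : ℂ) • X + (t : ℂ) • (1 : Matrix n n ℂ) =
      cj U (fun i => ((t + hX.eigenvalues i / z * p1 : ℝ) : ℂ)) := by
    rw [hP]
    congr 1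
    funext i
    rw [e1]
  rw [hS, hP']
  have hne1 : ∀ i, (((t + hX.eigenvalues i / z * p1 : ℝ) : ℂ)) ≠ 0 := fun i => by
    exact_mod_cast (pp p1 hp1 i).ne'
  have hval : ∀ i, 0 < (t + hX.eigenvalues i / z * xp) * (t + hX.eigenvalues i / z * xm) /
      (t + hX.eigenvalues i / z * p2) := fun i =>
    div_pos (mul_pos (pp xp hxp i) (pp xm hxm i)) (pp p2 hp2 i)
  have hne2 : ∀ i, (((t + hX.eigenvalues i / z * xp) * (t + hX.eigenvalues i / z * xm) /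
      (t + hX.eigenvalues i / z * p2) : ℝ) : ℂ) ≠ 0 := fun i => by
    exact_mod_cast (hval i).ne'
  constructor
  · rw [cj_inv hUU hUU' _ hne1, cj_inv hUU hUU' _ hne2, cj_trace, cj_trace, ← Finset.sum_sub_distrib,
      Complex.re_sum]
    refine Finset.sum_congr rfl fun i _ => ?_
    have hg : (((t + hX.eigenvalues i / z * xp) * (t + hX.eigenvalues i / z * xm) /
        (t + hX.eigenvalues i / z * p2) : ℝ) : ℂ)⁻¹ * (Uᴴ * E * U) i i -
        (((t + hX.eigenvalues i / z * p1 : ℝ) : ℂ))⁻¹ * (Uᴴ * E * U) i i =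
        ((gam p1 p2 xp xm (hX.eigenvalues i / z) t : ℝ) : ℂ) * (Uᴴ * E * U) i i := by
      rw [← sub_mul]
      congr 1
      simp only [gam]
      push_cast
      rw [inv_div, one_div]
    rw [hg, Complex.re_ofReal_mul, mul_comm]
  · rw [cj_det hUU', cj_det hUU', ← Complex.ofReal_prod, ← Complex.ofReal_prod, Complex.ofReal_re,
      Complex.ofReal_re, Real.log_prod (fun i _ => (hval i).ne'),
      Real.log_prod (fun i _ => (pp p1 hp1 i).ne'), ← Finset.sum_sub_distrib]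
    refine Finset.sum_congr rfl fun i _ => ?_
    rw [Real.log_div (mul_pos (pp xp hxp i) (pp xm hxm i)).ne' (pp p2 hp2 i).ne',
      Real.log_mul (pp xp hxp i).ne' (pp xm hxm i).ne',
      log_one_add_div ht (pp xp hxp i), log_one_add_div ht (pp xm hxm i),
      log_one_add_div ht (pp p1 hp1 i), log_one_add_div ht (pp p2 hp2 i)]
    ring


/-! ### The main pointwise inequality -/

/-- Eigenvalues of `A Aᴴ`. -/
def eigL (A : Matrix n m ℂ) : n → ℝ := (isHermitian_mul_conjTranspose_self A).eigenvalues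

/-- Eigenvalues of `Aᴴ A`. -/
def eigR (A : Matrix n m ℂ) : m → ℝ := (isHermitian_conjTranspose_mul_self A).eigenvalues

/-- Eigenvectors of `A Aᴴ`. -/
def vecL (A : Matrix n m ℂ) : Matrix n n ℂ :=
  ((isHermitian_mul_conjTranspose_self A).eigenvectorUnitary : Matrix n n ℂ)

/-- Eigenvectors of `Aᴴ A`. -/
def vecR (A : Matrix n m ℂ) : Matrix m m ℂ :=
  ((isHermitian_conjTranspose_mul_self A).eigenvectorUnitary : Matrix m m ℂ)

lemma det_re_pos {X : Matrix n n ℂ} (hX : X.PosDef) : X.det = ((X.det.re : ℝ) : ℂ) ∧ 0 < X.det.re := by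
  have h := Complex.pos_iff.mp hX.det_pos
  refine ⟨?_, h.1⟩
  apply Complex.ext
  · simp
  · simp [h.2.symm]

lemma entry_sub_smul {X Y : Matrix n n ℂ} (hX : X.IsHermitian) (c : ℝ) (i : n) :
    (((hX.eigenvectorUnitary : Matrix n n ℂ)ᴴ * (Y - (c : ℂ) • X) * (hX.eigenvectorUnitary : Matrix n n ℂ)) i i).re =
      (((hX.eigenvectorUnitary : Matrix n n ℂ)ᴴ * Y * (hX.eigenvectorUnitary : Matrix n n ℂ)) i i).re
        - hX.eigenvalues i * c := by
  set U := (hX.eigenvectorUnitary : Matrix n n ℂ) with hU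
  have hUU := ev_mul hX
  rw [← hU] at hUU
  have h1 : (Uᴴ * X * U) i i = ((hX.eigenvalues i : ℝ) : ℂ) := by
    have hX' := spec_cj hX
    rw [← hU] at hX'
    have h2 : Uᴴ * X * U = Uᴴ * cj U (fun i => ((hX.eigenvalues i : ℝ) : ℂ)) * U :=
      congrArg (fun Z => Uᴴ * Z * U) hX'
    rw [h2, cj_conj_diag hUU]
  have h3 : Uᴴ * (Y - (c : ℂ) • X) * U = Uᴴ * Y * U - (c : ℂ) • (Uᴴ * X * U) := by
    rw [Matrix.mul_sub, Matrix.sub_mul, Matrix.mul_smul, Matrix.smul_mul]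
  rw [h3, Matrix.sub_apply, Matrix.smul_apply, h1, Complex.sub_re, smul_eq_mul, ← Complex.ofReal_mul,
    Complex.ofReal_re]
  ring

lemma posDef_blockDiag {P : Matrix n n ℂ} {Q : Matrix m m ℂ} (hP : P.PosDef) (hQ : Q.PosDef) :
    (fromBlocks P 0 0 Q).PosDef := by
  refine Matrix.PosDef.of_dotProduct_mulVec_pos ?_ ?_
  · have h1 := hP.isHermitian
    have h2 := hQ.isHermitian
    exact Matrix.IsHermitian.fromBlocks h1 (by simp) h2
  · intro x hx
    have e : star x ⬝ᵥ (fromBlocks P 0 0 Q *ᵥ x) =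
        star (x ∘ Sum.inl) ⬝ᵥ (P *ᵥ (x ∘ Sum.inl)) + star (x ∘ Sum.inr) ⬝ᵥ (Q *ᵥ (x ∘ Sum.inr)) := by
      conv_lhs => rw [← Sum.elim_comp_inl_inr x]
      have hst : star (Sum.elim (x ∘ Sum.inl) (x ∘ Sum.inr)) =
          Sum.elim (star (x ∘ Sum.inl)) (star (x ∘ Sum.inr)) := by
        ext i
        cases i <;> rfl
      rw [fromBlocks_mulVec, hst, sumElim_dotProduct_sumElim]
      simp
    rw [e]
    by_cases hl : x ∘ Sum.inl = 0
    · have hr : x ∘ Sum.inr ≠ 0 := by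
        intro hr
        apply hx
        rw [← Sum.elim_comp_inl_inr x, hl, hr]
        ext i
        cases i <;> simp
      have h1 := hQ.dotProduct_mulVec_pos hr
      rw [hl]
      simpa using h1
    · have h1 := hP.dotProduct_mulVec_pos hl
      have h2 := hQ.posSemidef.dotProduct_mulVec_nonneg (x ∘ Sum.inr)
      exact add_pos_of_pos_of_nonneg h1 h2

/-- The pointwise inequality at fixed `t > 0` consumed by `entropy_of_pointwise`. -/
theorem bridge_pointwise (C1 C2 A : Matrix n m ℂ) {t p1 p2 z xp xm : ℝ} (ht : 0 < t) (hz : 0 < z)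
    (hp1 : 0 ≤ p1) (hp2 : 0 ≤ p2) (hxp : 0 ≤ xp) (hxm : 0 ≤ xm)
    (hsum : xp + xm = p1 + p2 + z) (hprod : xp * xm = p1 * p2) :
    ∑ i, (Real.log (1 + eigL A i / z * xp / t) + Real.log (1 + eigL A i / z * xm / t)
          - Real.log (1 + eigL A i / z * p1 / t) - Real.log (1 + eigL A i / z * p2 / t))
        + ∑ i, ((((vecL A)ᴴ * (C1 * C1ᴴ) * vecL A) i i).re - eigL A i / z * p1) *
            gam p1 p2 xp xm (eigL A i / z) t
        + ∑ j, ((((vecR A)ᴴ * (C2ᴴ * C2) * vecR A) j j).re - eigR A j / z * p2) *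
            gam p2 p1 xp xm (eigR A j / z) t
      ≤ ∑ i, Real.log (1 + eigL (fromBlocks C1 A 0 C2) i / t)
        - ∑ i, Real.log (1 + eigL C1 i / t) - ∑ j, Real.log (1 + eigR C2 j / t) := by
  -- the blocks
  obtain ⟨s, hs⟩ : ∃ s : ℂ, s = ((Real.sqrt t : ℝ) : ℂ) := ⟨_, rfl⟩
  have hss : s * s = (t : ℂ) := by rw [hs]; exact sqrt_mul_sqrt_complex ht
  have hsstar : star s = s := by rw [hs]; simp
  set c1 : ℝ := p1 / z with hc1
  set c2 : ℝ := p2 / z with hc2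
  have hc1n : 0 ≤ c1 := div_nonneg hp1 hz.le
  have hc2n : 0 ≤ c2 := div_nonneg hp2 hz.le
  set P0 : Matrix n n ℂ := (c1 : ℂ) • (A * Aᴴ) + (t : ℂ) • 1 with hP0
  set Q0 : Matrix m m ℂ := (c2 : ℂ) • (Aᴴ * A) + (t : ℂ) • 1 with hQ0
  set P1 : Matrix n n ℂ := C1 * C1ᴴ + (t : ℂ) • 1 with hP1
  set Q1 : Matrix m m ℂ := C2ᴴ * C2 + (t : ℂ) • 1 with hQ1
  set E1 : Matrix n n ℂ := P1 - P0 with hE1
  set E2 : Matrix m m ℂ := Q1 - Q0 with hE2
  have pA : (A * Aᴴ).PosSemidef := Matrix.posSemidef_self_mul_conjTranspose A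
  have pA' : (Aᴴ * A).PosSemidef := Matrix.posSemidef_conjTranspose_mul_self A
  have pC1 : (C1 * C1ᴴ).PosSemidef := Matrix.posSemidef_self_mul_conjTranspose C1
  have pC2 : (C2ᴴ * C2).PosSemidef := Matrix.posSemidef_conjTranspose_mul_self C2
  have cplx : ∀ {a : ℝ}, 0 ≤ a → (0 : ℂ) ≤ (a : ℂ) := fun h => by exact_mod_cast h
  -- positive definiteness along the segment
  have hPu : ∀ u : ℝ, 0 ≤ u → u ≤ 1 → (P0 + (u : ℂ) • E1).PosDef := by
    intro u hu0 hu1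
    have e : P0 + (u : ℂ) • E1 =
        (((1 - u : ℝ) : ℂ) • ((c1 : ℂ) • (A * Aᴴ)) + (u : ℂ) • (C1 * C1ᴴ)) + (t : ℂ) • 1 := by
      rw [hE1, hP1, hP0]
      push_cast
      module
    rw [e]
    refine posDef_add_smul (Matrix.PosSemidef.add ?_ ?_) ht
    · exact (pA.smul (cplx hc1n)).smul (cplx (by linarith))
    · exact pC1.smul (cplx hu0)
  have hQu : ∀ u : ℝ, 0 ≤ u → u ≤ 1 → (Q0 + (u : ℂ) • E2).PosDef := by
    intro u hu0 hu1
    have e : Q0 + (u : ℂ) • E2 =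
        (((1 - u : ℝ) : ℂ) • ((c2 : ℂ) • (Aᴴ * A)) + (u : ℂ) • (C2ᴴ * C2)) + (t : ℂ) • 1 := by
      rw [hE2, hQ1, hQ0]
      push_cast
      module
    rw [e]
    refine posDef_add_smul (Matrix.PosSemidef.add ?_ ?_) ht
    · exact (pA'.smul (cplx hc2n)).smul (cplx (by linarith))
    · exact pC2.smul (cplx hu0)
  have hP0pd : P0.PosDef := posDef_add_smul (pA.smul (cplx hc1n)) ht
  have hQ0pd : Q0.PosDef := posDef_add_smul (pA'.smul (cplx hc2n)) ht
  have hP1pd : P1.PosDef := posDef_add_smul pC1 ht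
  have hQ1pd : Q1.PosDef := posDef_add_smul pC2 ht
  -- the block matrices
  set D0 : Matrix (n ⊕ m) (n ⊕ m) ℂ := fromBlocks P0 0 0 Q0 with hD0
  set E : Matrix (n ⊕ m) (n ⊕ m) ℂ := fromBlocks E1 0 0 E2 with hE
  set K : Matrix (n ⊕ m) (n ⊕ m) ℂ := fromBlocks 0 (s • A) (-(s • Aᴴ)) 0 with hK
  have eDu : ∀ u : ℂ, D0 + u • E = fromBlocks (P0 + u • E1) 0 0 (Q0 + u • E2) := by
    intro u
    rw [hD0, hE, fromBlocks_smul, fromBlocks_add]
    simp
  have eWu : ∀ u : ℂ, (D0 + K) + u • E = fromBlocks (P0 + u • E1) (s • A) (-(s • Aᴴ)) (Q0 + u • E2) := by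
    intro u
    rw [hD0, hE, hK, fromBlocks_smul, fromBlocks_add, fromBlocks_add]
    simp
  have eW0 : D0 + K = fromBlocks P0 (s • A) (-(s • Aᴴ)) Q0 := by
    have := eWu 0
    simpa using this
  have eW1 : (D0 + K) + E = fromBlocks P1 (s • A) (-(s • Aᴴ)) Q1 := by
    have := eWu 1
    simpa [hE1, hE2] using this
  have eD1 : D0 + E = fromBlocks P1 0 0 Q1 := by
    have := eDu 1
    simpa [hE1, hE2] using this
  have hEh : Eᴴ = E := by
    have h1 : E1ᴴ = E1 := by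
      have : E1.IsHermitian := by
        rw [hE1]
        exact hP1pd.isHermitian.sub hP0pd.isHermitian
      exact this
    have h2 : E2ᴴ = E2 := by
      have : E2.IsHermitian := by
        rw [hE2]
        exact hQ1pd.isHermitian.sub hQ0pd.isHermitian
      exact this
    rw [hE, fromBlocks_conjTranspose, h1, h2]
    simp
  have hKs : Kᴴ = -K := by
    rw [hK, fromBlocks_conjTranspose, fromBlocks_neg]
    simp [conjTranspose_smul, hsstar]
  have hT := tangent_logdet D0 E K hEh hKs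
    (by
      intro u hu
      rw [eDu]
      exact posDef_blockDiag (hPu u hu.1 hu.2) (hQu u hu.1 hu.2))
    (by
      intro u hu
      rw [eWu, hs]
      exact blocks_det_pos (hPu u hu.1 hu.2) (hQu u hu.1 hu.2) A ht)
  rw [eW1] at hT
  -- evaluate the determinants
  have hW0 : (D0 + K).det = Q0.det * (P0 + (t : ℂ) • (A * Q0⁻¹ * Aᴴ)).det := by
    rw [eW0, det_blocks22' _ _ _ _ ((Matrix.isUnit_iff_isUnit_det _).mp hQ0pd.isUnit), schur_neg, hss]
  have hD0det : D0.det = P0.det * Q0.det := by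
    rw [hD0, det_fromBlocks_zero₂₁]
  have hD1det : (D0 + E).det = P1.det * Q1.det := by
    rw [eD1, det_fromBlocks_zero₂₁]
  have hS0pd : (P0 + (t : ℂ) • (A * Q0⁻¹ * Aᴴ)).PosDef := posDef_schur hP0pd hQ0pd A t ht.le
  obtain ⟨eQ0, pQ0⟩ := det_re_pos hQ0pd
  obtain ⟨eP0, pP0⟩ := det_re_pos hP0pd
  obtain ⟨eP1, pP1⟩ := det_re_pos hP1pd
  obtain ⟨eQ1, pQ1⟩ := det_re_pos hQ1pd
  obtain ⟨eS0, pS0⟩ := det_re_pos hS0pd
  have r1 : (D0 + K).det.re = Q0.det.re * (P0 + (t : ℂ) • (A * Q0⁻¹ * Aᴴ)).det.re := by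
    rw [hW0, eQ0, eS0, ← Complex.ofReal_mul, Complex.ofReal_re]
    simp
  have r2 : D0.det.re = P0.det.re * Q0.det.re := by
    rw [hD0det, eP0, eQ0, ← Complex.ofReal_mul, Complex.ofReal_re]
    simp
  have r3 : (D0 + E).det.re = P1.det.re * Q1.det.re := by
    rw [hD1det, eP1, eQ1, ← Complex.ofReal_mul, Complex.ofReal_re]
    simp
  rw [r1, r2, r3, Real.log_mul pQ0.ne' pS0.ne', Real.log_mul pP0.ne' pQ0.ne',
    Real.log_mul pP1.ne' pQ1.ne'] at hT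
  -- the trace terms
  have hS0u : IsUnit (P0 - (s • A) * Q0⁻¹ * (-(s • Aᴴ))).det := by
    rw [schur_neg, hss]
    exact (Matrix.isUnit_iff_isUnit_det _).mp hS0pd.isUnit
  have hS0' : (Q0 + (t : ℂ) • (Aᴴ * P0⁻¹ * A)).PosDef := by
    have := posDef_schur hQ0pd hP0pd Aᴴ t ht.le
    simpa using this
  have hS0u' : IsUnit (Q0 - (-(s • Aᴴ)) * P0⁻¹ * (s • A)).det := by
    rw [schur_neg', hss]
    exact (Matrix.isUnit_iff_isUnit_det _).mp hS0'.isUnit
  have hP0u : IsUnit P0.det := (Matrix.isUnit_iff_isUnit_det _).mp hP0pd.isUnit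
  have hQ0u : IsUnit Q0.det := (Matrix.isUnit_iff_isUnit_det _).mp hQ0pd.isUnit
  have tr1 : (((D0 + K)⁻¹ * E).trace).re =
      ((P0 + (t : ℂ) • (A * Q0⁻¹ * Aᴴ))⁻¹ * E1).trace.re +
        ((Q0 + (t : ℂ) • (Aᴴ * P0⁻¹ * A))⁻¹ * E2).trace.re := by
    rw [eW0, hE, trace_inv_blocks _ _ _ _ hP0u hQ0u hS0u hS0u', schur_neg, schur_neg', hss,
      Complex.add_re]
  have tr2 : ((D0⁻¹ * E).trace).re = (P0⁻¹ * E1).trace.re + (Q0⁻¹ * E2).trace.re := by
    have := trace_inv_blocks P0 (0 : Matrix n m ℂ) (0 : Matrix m n ℂ) Q0 hP0u hQ0u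
      (by simpa using hP0u) (by simpa using hQ0u) E1 E2
    simp only [Matrix.zero_mul, Matrix.mul_zero, sub_zero] at this
    rw [hD0, hE, this, Complex.add_re]
  -- the two base sides
  have bL : (((P0 + (t : ℂ) • (A * Q0⁻¹ * Aᴴ))⁻¹ * E1).trace - (P0⁻¹ * E1).trace).re =
      ∑ i, (((vecL A)ᴴ * E1 * vecL A) i i).re * gam p1 p2 xp xm (eigL A i / z) t ∧
    Real.log (P0 + (t : ℂ) • (A * Q0⁻¹ * Aᴴ)).det.re - Real.log P0.det.re =
      ∑ i, (Real.log (1 + eigL A i / z * xp / t) + Real.log (1 + eigL A i / z * xm / t)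
          - Real.log (1 + eigL A i / z * p1 / t) - Real.log (1 + eigL A i / z * p2 / t)) :=
    base_side A (isHermitian_mul_conjTranspose_self A) rfl ht hz hp1 hp2 hxp hxm hsum hprod E1
  have bR0 := base_side Aᴴ (X := Aᴴ * A) (isHermitian_conjTranspose_mul_self A) (by simp) ht hz hp2 hp1
    hxp hxm (by linarith) (by linarith) E2
  simp only [conjTranspose_conjTranspose] at bR0
  have bR : (((Q0 + (t : ℂ) • (Aᴴ * P0⁻¹ * A))⁻¹ * E2).trace - (Q0⁻¹ * E2).trace).re =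
      ∑ j, (((vecR A)ᴴ * E2 * vecR A) j j).re * gam p2 p1 xp xm (eigR A j / z) t := bR0.1
  have eL : ∀ i, (((vecL A)ᴴ * E1 * vecL A) i i).re =
      (((vecL A)ᴴ * (C1 * C1ᴴ) * vecL A) i i).re - eigL A i / z * p1 := by
    intro i
    have e1 : E1 = C1 * C1ᴴ - (c1 : ℂ) • (A * Aᴴ) := by
      rw [hE1, hP1, hP0]
      abel
    rw [e1]
    simp only [vecL, eigL]
    rw [entry_sub_smul]
    rw [hc1]
    ring
  have eR : ∀ j, (((vecR A)ᴴ * E2 * vecR A) j j).re =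
      (((vecR A)ᴴ * (C2ᴴ * C2) * vecR A) j j).re - eigR A j / z * p2 := by
    intro j
    have e1 : E2 = C2ᴴ * C2 - (c2 : ℂ) • (Aᴴ * A) := by
      rw [hE2, hQ1, hQ0]
      abel
    rw [e1]
    simp only [vecR, eigR]
    rw [entry_sub_smul]
    rw [hc2]
    ring
  -- the sums of logs on the right
  set M : Matrix (n ⊕ n) (m ⊕ m) ℂ := fromBlocks C1 A 0 C2 with hM
  have sT : ∑ i, Real.log (1 + eigL M i / t) =
      Real.log (M * Mᴴ + (t : ℂ) • (1 : Matrix (n ⊕ n) (n ⊕ n) ℂ)).det.re -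
        Fintype.card (n ⊕ n) * Real.log t :=
    sum_log_one_add (isHermitian_mul_conjTranspose_self M)
      (Matrix.posSemidef_self_mul_conjTranspose M) ht
  have sC1 : ∑ i, Real.log (1 + eigL C1 i / t) = Real.log P1.det.re - Fintype.card n * Real.log t :=
    sum_log_one_add (isHermitian_mul_conjTranspose_self C1) pC1 ht
  have sC2 : ∑ j, Real.log (1 + eigR C2 j / t) = Real.log Q1.det.re - Fintype.card m * Real.log t :=
    sum_log_one_add (isHermitian_conjTranspose_mul_self C2) pC2 ht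
  have hcard : ((Fintype.card (n ⊕ n) : ℕ) : ℝ) = Fintype.card n + Fintype.card n := by
    simp [Fintype.card_sum]
  -- the identity between `T + t` and the block matrix
  have hid := det_T_shift C1 C2 A ht
  rw [← hM, ← hs] at hid
  have hTpd : (M * Mᴴ + (t : ℂ) • (1 : Matrix (n ⊕ n) (n ⊕ n) ℂ)).PosDef :=
    posDef_add_smul (Matrix.posSemidef_self_mul_conjTranspose M) ht
  obtain ⟨eTd, pTd⟩ := det_re_pos hTpd
  have hWpos := blocks_det_pos hP1pd hQ1pd A ht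
  rw [← hs] at hWpos
  have eWd : (fromBlocks P1 (s • A) (-(s • Aᴴ)) Q1).det =
      (((fromBlocks P1 (s • A) (-(s • Aᴴ)) Q1).det.re : ℝ) : ℂ) := by
    apply Complex.ext
    · simp
    · simp [hWpos.1]
  have hid2 : (M * Mᴴ + (t : ℂ) • (1 : Matrix (n ⊕ n) (n ⊕ n) ℂ)).det.re * t ^ Fintype.card m =
      (fromBlocks P1 (s • A) (-(s • Aᴴ)) Q1).det.re * t ^ Fintype.card n := by
    have h1 := congrArg Complex.re hid
    rw [eTd, eWd, ← Complex.ofReal_pow, ← Complex.ofReal_pow, ← Complex.ofReal_mul,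
      ← Complex.ofReal_mul, Complex.ofReal_re, Complex.ofReal_re] at h1
    simpa using h1
  have hlog := congrArg Real.log hid2
  rw [Real.log_mul pTd.ne' (pow_pos ht _).ne', Real.log_mul hWpos.2.ne' (pow_pos ht _).ne',
    Real.log_pow, Real.log_pow] at hlog
  -- rewrite the goal
  have g1 : ∑ i, ((((vecL A)ᴴ * (C1 * C1ᴴ) * vecL A) i i).re - eigL A i / z * p1) *
      gam p1 p2 xp xm (eigL A i / z) t =
      ∑ i, (((vecL A)ᴴ * E1 * vecL A) i i).re * gam p1 p2 xp xm (eigL A i / z) t :=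
    Finset.sum_congr rfl fun i _ => by rw [eL i]
  have g2 : ∑ j, ((((vecR A)ᴴ * (C2ᴴ * C2) * vecR A) j j).re - eigR A j / z * p2) *
      gam p2 p1 xp xm (eigR A j / z) t =
      ∑ j, (((vecR A)ᴴ * E2 * vecR A) j j).re * gam p2 p1 xp xm (eigR A j / z) t :=
    Finset.sum_congr rfl fun j _ => by rw [eR j]
  rw [g1, g2, sT, sC1, sC2, ← bL.2, ← bR, ← bL.1, hcard]
  rw [Complex.sub_re, Complex.sub_re]
  rw [tr1, tr2] at hT
  push_cast at hlog
  linarith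

end
end Vale.Agent.P358A
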