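import Mathlib
import Vale.Agent.P358A.Anti
import Vale.Agent.P358A.Spectra
import Vale.Agent.P358A.EConvex

/-!
Assembly of the block entropy inequality `E*`: from the pointwise bridge inequality and the Anti file
to `Eent (2 √(p₁ p₂)) + Fe (C₁ C₁ᴴ) + Fe (C₂ᴴ C₂) + Fe (A Aᴴ) ≤ Su (M Mᴴ)`.
-/

namespace Vale.Agent.P358A
open Matrix Finset BigOperators
open scoped ComplexOrder

noncomputable section

lemma slope_sum {K : Type*} [Fintype K] (κ : K → ℝ) (D : K → ℝ) (p : ℝ) (hκ : ∀ i, 0 ≤ κ i)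
    (hD : ∀ i, 0 ≤ D i) (sκ : ∑ i, κ i = 1) (sD : ∑ i, D i = p) :
    ∑ i, (if 0 < κ i then D i - κ i * p else 0) ≤ 0 := by
  have h1 : ∀ i, (if 0 < κ i then D i - κ i * p else 0) ≤ D i - κ i * p
      + (if 0 < κ i then 0 else - D i) := by
    intro i
    split_ifs with h0
    · simp
    · have : κ i = 0 := le_antisymm (not_lt.mp h0) (hκ i)
      rw [this]; simp
  have h2 : ∀ i, (if 0 < κ i then (0:ℝ) else - D i) ≤ 0 := by
    intro i
    split_ifs
    · exact le_rfl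
    · linarith [hD i]
  calc ∑ i, (if 0 < κ i then D i - κ i * p else 0)
      ≤ ∑ i, (D i - κ i * p + (if 0 < κ i then 0 else - D i)) := Finset.sum_le_sum fun i _ => h1 i
    _ ≤ ∑ i, (D i - κ i * p) := by
        refine Finset.sum_le_sum fun i _ => ?_
        linarith [h2 i]
    _ = 0 := by
        rw [Finset.sum_sub_distrib, sD, ← Finset.sum_mul, sκ]
        ring

lemma slope_zero {K : Type*} [Fintype K] (κ : K → ℝ) (D : K → ℝ) (p : ℝ)
    (hD : ∀ i, 0 ≤ D i) (sD : ∑ i, D i = p) (hp : p = 0) (i : K) : D i - κ i * p = 0 := by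
  have : D i = 0 := by
    have h3 := (Finset.sum_eq_zero_iff_of_nonneg (fun i _ => hD i)).mp (sD.trans hp)
    exact h3 i (Finset.mem_univ i)
  rw [this, hp]
  ring

/-- Variant of `entropy_of_pointwise` in which the slopes come with diagonal entries of a
positive matrix of the given trace. -/
theorem entropy_of_pointwise'
    {I0 I1 I2 J J' : Type*} [Fintype I0] [Fintype I1] [Fintype I2] [Fintype J] [Fintype J']
    (μ : I0 → ℝ) (h : I1 → ℝ) (g : I2 → ℝ) (κ : J → ℝ) (κ' : J' → ℝ) (D : J → ℝ) (D' : J' → ℝ)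
    (p1 p2 z xp xm : ℝ)
    (hμ : ∀ i, 0 ≤ μ i) (hh : ∀ i, 0 ≤ h i) (hg : ∀ i, 0 ≤ g i) (hκ : ∀ i, 0 ≤ κ i)
    (hκ' : ∀ i, 0 ≤ κ' i)
    (hp1 : 0 ≤ p1) (hp2 : 0 ≤ p2) (hz : 0 < z) (hxm : 0 ≤ xm) (hxx : xm < xp)
    (hsum : xp + xm = p1 + p2 + z) (hprod : xp * xm = p1 * p2)
    (sμ : ∑ i, μ i = p1 + p2 + z) (sh : ∑ i, h i = p1) (sg : ∑ i, g i = p2)
    (sκ : ∑ i, κ i = 1) (sκ' : ∑ i, κ' i = 1)
    (hD : ∀ i, 0 ≤ D i) (sD : ∑ i, D i = p1) (hD' : ∀ i, 0 ≤ D' i) (sD' : ∑ i, D' i = p2)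
    (hpt : ∀ t, 0 < t →
      ∑ i, (Real.log (1 + κ i * xp / t) + Real.log (1 + κ i * xm / t)
          - Real.log (1 + κ i * p1 / t) - Real.log (1 + κ i * p2 / t))
        + ∑ i, (D i - κ i * p1) * gam p1 p2 xp xm (κ i) t
        + ∑ i, (D' i - κ' i * p2) * gam p2 p1 xp xm (κ' i) t
      ≤ ∑ i, Real.log (1 + μ i / t) - ∑ i, Real.log (1 + h i / t) - ∑ i, Real.log (1 + g i / t)) :
    ∑ i, Real.negMulLog (h i) + ∑ i, Real.negMulLog (g i)
        + (Real.negMulLog xp + Real.negMulLog xm - Real.negMulLog p1 - Real.negMulLog p2)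
        + z * ∑ i, Real.negMulLog (κ i)
      ≤ ∑ i, Real.negMulLog (μ i) := by
  classical
  exact entropy_of_pointwise μ h g κ κ' (fun i => D i - κ i * p1) (fun i => D' i - κ' i * p2)
    p1 p2 z xp xm hμ hh hg hκ hκ' hp1 hp2 hz hxm hxx hsum hprod sμ sh sg sκ sκ'
    (slope_zero κ D p1 hD sD) (slope_zero κ' D' p2 hD' sD')
    (slope_sum κ D p1 hκ hD sκ sD) (slope_sum κ' D' p2 hκ' hD' sκ' sD') hpt

/-- The two roots of the scalar problem. -/
def xpOf (p1 p2 : ℝ) : ℝ := (1 + Real.sqrt (1 - 4 * (p1 * p2))) / 2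
def xmOf (p1 p2 : ℝ) : ℝ := (1 - Real.sqrt (1 - 4 * (p1 * p2))) / 2

lemma xOf_facts {p1 p2 z : ℝ} (hp1 : 0 ≤ p1) (hp2 : 0 ≤ p2) (hz : 0 < z) (hs : p1 + p2 + z = 1) :
    0 ≤ xmOf p1 p2 ∧ xmOf p1 p2 < xpOf p1 p2 ∧ xpOf p1 p2 + xmOf p1 p2 = p1 + p2 + z ∧
      xpOf p1 p2 * xmOf p1 p2 = p1 * p2 := by
  have h4 : 4 * (p1 * p2) < 1 := by nlinarith [sq_nonneg (p1 - p2), mul_nonneg hp1 hp2]
  have hs0 : 0 < 1 - 4 * (p1 * p2) := by linarith
  have hr := Real.sqrt_pos.mpr hs0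
  have hr2 := Real.sq_sqrt hs0.le
  have hr1 : Real.sqrt (1 - 4 * (p1 * p2)) ≤ 1 := by
    exact Real.sqrt_le_iff.mpr ⟨by norm_num, by nlinarith [mul_nonneg hp1 hp2]⟩
  refine ⟨?_, ?_, ?_, ?_⟩
  · unfold xmOf; linarith
  · unfold xmOf xpOf; linarith
  · unfold xmOf xpOf; linarith
  · unfold xmOf xpOf; nlinarith

lemma Eent_eq {p1 p2 : ℝ} (hp : 0 ≤ p1 * p2) :
    Eent (2 * Real.sqrt (p1 * p2)) = Real.negMulLog (xpOf p1 p2) + Real.negMulLog (xmOf p1 p2) := by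
  unfold Eent xpOf xmOf
  have h : (2 * Real.sqrt (p1 * p2)) ^ 2 = 4 * (p1 * p2) := by
    rw [mul_pow, Real.sq_sqrt hp]; norm_num
  rw [h, Real.binEntropy_eq_negMulLog_add_negMulLog_one_sub]
  congr 2
  ring

variable {m1 n1 m2 n2 : Type*} [Fintype m1] [DecidableEq m1] [Fintype n1] [DecidableEq n1]
  [Fintype m2] [DecidableEq m2] [Fintype n2] [DecidableEq n2]

lemma mul_conjTranspose_fromBlocks (C1 : Matrix m1 n1 ℂ) (A : Matrix m1 n2 ℂ) (C2 : Matrix m2 n2 ℂ) :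
    fromBlocks C1 A 0 C2 * (fromBlocks C1 A 0 C2)ᴴ
      = fromBlocks (C1 * C1ᴴ + A * Aᴴ) (A * C2ᴴ) (C2 * Aᴴ) (C2 * C2ᴴ) := by
  rw [fromBlocks_conjTranspose, fromBlocks_multiply]
  simp

lemma trace_re_blocks (C1 : Matrix m1 n1 ℂ) (A : Matrix m1 n2 ℂ) (C2 : Matrix m2 n2 ℂ) :
    ((fromBlocks C1 A 0 C2 * (fromBlocks C1 A 0 C2)ᴴ).trace).re
      = (C1 * C1ᴴ).trace.re + (C2ᴴ * C2).trace.re + (A * Aᴴ).trace.re := by
  have htr : ∀ {a b c d}, (fromBlocks a b c d : Matrix (m1 ⊕ m2) (m1 ⊕ m2) ℂ).trace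
      = a.trace + d.trace := by
    intro a b c d
    simp [Matrix.trace, Fintype.sum_sum_type]
  rw [mul_conjTranspose_fromBlocks, htr, trace_add, Matrix.trace_mul_comm C2 C2ᴴ]
  simp only [Complex.add_re]
  ring

lemma trace_re_nonneg {p q : Type*} [Fintype p] [Fintype q] (B : Matrix p q ℂ) :
    0 ≤ (B * Bᴴ).trace.re := by
  have := (posSemidef_self_mul_conjTranspose B).trace_nonneg
  exact (Complex.nonneg_iff.mp this).1

lemma trace_re_nonneg' {p q : Type*} [Fintype p] [Fintype q] (B : Matrix p q ℂ) :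
    0 ≤ (Bᴴ * B).trace.re := by
  have := (posSemidef_conjTranspose_mul_self B).trace_nonneg
  exact (Complex.nonneg_iff.mp this).1

/-- `E*`, case `A ≠ 0`, from the pointwise bridge.  The bridge is stated for the eigenvalues of
the matrices in play; `D`, `D'` are the diagonal entries of `H`, `G` in the eigenbases of
`A Aᴴ` and `Aᴴ A`. -/
theorem eStar_pos (C1 : Matrix m1 n1 ℂ) (A : Matrix m1 n2 ℂ) (C2 : Matrix m2 n2 ℂ)
    (htr : ((fromBlocks C1 A 0 C2 * (fromBlocks C1 A 0 C2)ᴴ).trace).re = 1)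
    (hz : 0 < (A * Aᴴ).trace.re)
    (D : m1 → ℝ) (hD : ∀ i, 0 ≤ D i) (sD : ∑ i, D i = (C1 * C1ᴴ).trace.re)
    (D' : n2 → ℝ) (hD' : ∀ i, 0 ≤ D' i) (sD' : ∑ i, D' i = (C2ᴴ * C2).trace.re)
    (hbridge : ∀ t, 0 < t →
      let p1 := (C1 * C1ᴴ).trace.re
      let p2 := (C2ᴴ * C2).trace.re
      let z := (A * Aᴴ).trace.re
      let xp := xpOf p1 p2
      let xm := xmOf p1 p2
      let κ : m1 → ℝ := fun i => (isHermitian_mul_conjTranspose' A).eigenvalues i / z
      let κ' : n2 → ℝ := fun i => (isHermitian_conjTranspose_mul' A).eigenvalues i / z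
      ∑ i, (Real.log (1 + κ i * xp / t) + Real.log (1 + κ i * xm / t)
          - Real.log (1 + κ i * p1 / t) - Real.log (1 + κ i * p2 / t))
        + ∑ i, (D i - κ i * p1) * gam p1 p2 xp xm (κ i) t
        + ∑ i, (D' i - κ' i * p2) * gam p2 p1 xp xm (κ' i) t
      ≤ ∑ i, Real.log (1 + (isHermitian_mul_conjTranspose'
            (fromBlocks C1 A 0 C2)).eigenvalues i / t)
        - ∑ i, Real.log (1 + (isHermitian_mul_conjTranspose' C1).eigenvalues i / t)
        - ∑ i, Real.log (1 + (isHermitian_conjTranspose_mul' C2).eigenvalues i / t)) :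
    Eent (2 * Real.sqrt ((C1 * C1ᴴ).trace.re * (C2ᴴ * C2).trace.re))
        + Fe (C1 * C1ᴴ) + Fe (C2ᴴ * C2) + Fe (A * Aᴴ)
      ≤ Su (fromBlocks C1 A 0 C2 * (fromBlocks C1 A 0 C2)ᴴ) := by
  classical
  set M := fromBlocks C1 A 0 C2 with hMdef
  set p1 := (C1 * C1ᴴ).trace.re with hp1def
  set p2 := (C2ᴴ * C2).trace.re with hp2def
  set z := (A * Aᴴ).trace.re with hzdef
  have hp1 : 0 ≤ p1 := trace_re_nonneg C1
  have hp2 : 0 ≤ p2 := trace_re_nonneg' C2
  have hs : p1 + p2 + z = 1 := by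
    rw [← htr, hMdef, trace_re_blocks]
  obtain ⟨hxm, hxx, hsum, hprod⟩ := xOf_facts hp1 hp2 hz hs
  have hzne : z ≠ 0 := hz.ne'
  have hA := isHermitian_mul_conjTranspose' A
  have hA' := isHermitian_conjTranspose_mul' A
  have hκ : ∀ i, 0 ≤ hA.eigenvalues i / z := fun i =>
    div_nonneg (eigenvalues_self_mul_conjTranspose_nonneg A i) hz.le
  have hκ' : ∀ i, 0 ≤ hA'.eigenvalues i / z := fun i =>
    div_nonneg (eigenvalues_conjTranspose_mul_self_nonneg A i) hz.le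
  have sκ : ∑ i, hA.eigenvalues i / z = 1 := by
    rw [← Finset.sum_div, ← trace_eq_sum_eig hA]
    exact div_self hzne
  have sκ' : ∑ i, hA'.eigenvalues i / z = 1 := by
    rw [← Finset.sum_div, ← trace_eq_sum_eig hA', Matrix.trace_mul_comm]
    exact div_self hzne
  have hmain := entropy_of_pointwise'
    (isHermitian_mul_conjTranspose' M).eigenvalues
    (isHermitian_mul_conjTranspose' C1).eigenvalues
    (isHermitian_conjTranspose_mul' C2).eigenvalues
    (fun i => hA.eigenvalues i / z) (fun i => hA'.eigenvalues i / z) D D'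
    p1 p2 z (xpOf p1 p2) (xmOf p1 p2)
    (eigenvalues_self_mul_conjTranspose_nonneg M)
    (eigenvalues_self_mul_conjTranspose_nonneg C1)
    (eigenvalues_conjTranspose_mul_self_nonneg C2)
    hκ hκ' hp1 hp2 hz hxm hxx hsum hprod
    (by rw [← trace_eq_sum_eig, htr, hs])
    (by rw [← trace_eq_sum_eig])
    (by rw [← trace_eq_sum_eig])
    sκ sκ' hD sD hD' sD' hbridge
  rw [Su_of_herm (isHermitian_mul_conjTranspose' M)]
  have hF1 : Fe (C1 * C1ᴴ) = ∑ i, Real.negMulLog ((isHermitian_mul_conjTranspose' C1).eigenvalues i)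
      - Real.negMulLog p1 := by
    unfold Fe
    rw [Su_of_herm (isHermitian_mul_conjTranspose' C1)]
    simp [Real.negMulLog, hp1def]
  have hF2 : Fe (C2ᴴ * C2) = ∑ i, Real.negMulLog ((isHermitian_conjTranspose_mul' C2).eigenvalues i)
      - Real.negMulLog p2 := by
    unfold Fe
    rw [Su_of_herm (isHermitian_conjTranspose_mul' C2)]
    simp [Real.negMulLog, hp2def]
  have hF3 : Fe (A * Aᴴ) = z * ∑ i, Real.negMulLog (hA.eigenvalues i / z) := by
    unfold Fe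
    rw [Su_of_herm hA, ← hzdef]
    have h1 : ∀ i, Real.negMulLog (hA.eigenvalues i)
        = z * Real.negMulLog (hA.eigenvalues i / z) + (hA.eigenvalues i / z) * Real.negMulLog z := by
      intro i
      have : hA.eigenvalues i = (hA.eigenvalues i / z) * z := by field_simp
      conv_lhs => rw [this, Real.negMulLog_mul]
    simp_rw [h1]
    rw [Finset.sum_add_distrib, ← Finset.mul_sum, ← Finset.sum_mul, sκ]
    simp [Real.negMulLog]
  rw [Eent_eq (mul_nonneg hp1 hp2), hF1, hF2, hF3]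
  linarith

/-- Eigenvalue sums of a block diagonal Hermitian matrix. -/
lemma sum_eig_fromBlocks {m n : Type*} [Fintype m] [DecidableEq m] [Fintype n] [DecidableEq n]
    {X : Matrix m m ℂ} {Y : Matrix n n ℂ} (hX : X.IsHermitian) (hY : Y.IsHermitian)
    (hZ : (fromBlocks X 0 0 Y).IsHermitian) (f : ℝ → ℝ) :
    ∑ i, f (hZ.eigenvalues i) = ∑ i, f (hX.eigenvalues i) + ∑ j, f (hY.eigenvalues j) := by
  have hXne : X.charpoly ≠ 0 := (Matrix.charpoly_monic X).ne_zero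
  have hYne : Y.charpoly ≠ 0 := (Matrix.charpoly_monic Y).ne_zero
  have hc : (fromBlocks X 0 0 Y).charpoly = X.charpoly * Y.charpoly :=
    Matrix.charpoly_fromBlocks_zero₁₂ X 0 Y
  have hr := map_eig_eq_roots hZ
  rw [hc, Polynomial.roots_mul (mul_ne_zero hXne hYne), ← map_eig_eq_roots hX,
    ← map_eig_eq_roots hY] at hr
  have hs := congrArg (fun s : Multiset ℂ => (s.map (fun z => f z.re)).sum) hr
  simp only [Multiset.map_add, Multiset.sum_add, Multiset.map_map, Function.comp,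
    Complex.ofReal_re] at hs
  exact hs

lemma Su_fromBlocks {m n : Type*} [Fintype m] [DecidableEq m] [Fintype n] [DecidableEq n]
    {X : Matrix m m ℂ} {Y : Matrix n n ℂ} (hX : X.IsHermitian) (hY : Y.IsHermitian) :
    Su (fromBlocks X 0 0 Y) = Su X + Su Y := by
  have hZ : (fromBlocks X 0 0 Y).IsHermitian := by
    rw [Matrix.IsHermitian, fromBlocks_conjTranspose, hX.eq, hY.eq]
    simp
  rw [Su_of_herm hZ, Su_of_herm hX, Su_of_herm hY]
  exact sum_eig_fromBlocks hX hY hZ _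

lemma Su_zero' {m : Type*} [Fintype m] [DecidableEq m] : Su (0 : Matrix m m ℂ) = 0 := by
  have h0 : (0 : Matrix m m ℂ).IsHermitian := Matrix.isHermitian_zero
  rw [Su_of_herm h0, (Matrix.IsHermitian.eigenvalues_eq_zero_iff h0).2 rfl]
  simp

/-- `E*`, case `A = 0`: equality. -/
theorem eStar_zero (C1 : Matrix m1 n1 ℂ) (A : Matrix m1 n2 ℂ) (C2 : Matrix m2 n2 ℂ)
    (htr : ((fromBlocks C1 A 0 C2 * (fromBlocks C1 A 0 C2)ᴴ).trace).re = 1)
    (hz : (A * Aᴴ).trace.re = 0) :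
    Eent (2 * Real.sqrt ((C1 * C1ᴴ).trace.re * (C2ᴴ * C2).trace.re))
        + Fe (C1 * C1ᴴ) + Fe (C2ᴴ * C2) + Fe (A * Aᴴ)
      ≤ Su (fromBlocks C1 A 0 C2 * (fromBlocks C1 A 0 C2)ᴴ) := by
  classical
  have hs := trace_re_blocks C1 A C2
  rw [htr, hz, add_zero] at hs
  have hA0 : A = 0 := by
    have h1 : (A * Aᴴ).trace = 0 := by
      have h2 := (posSemidef_self_mul_conjTranspose A).trace_nonneg
      have h3 := Complex.nonneg_iff.mp h2
      apply Complex.ext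
      · simpa using hz
      · simpa using h3.2.symm
    exact Matrix.trace_mul_conjTranspose_self_eq_zero_iff.mp h1
  subst hA0
  have hM := mul_conjTranspose_fromBlocks C1 (0 : Matrix m1 n2 ℂ) C2
  simp only [conjTranspose_zero, Matrix.mul_zero, Matrix.zero_mul, add_zero] at hM
  rw [hM, Su_fromBlocks (isHermitian_mul_conjTranspose' C1) (isHermitian_mul_conjTranspose' C2),
    Su_mul_comm C2]
  set p1 := (C1 * C1ᴴ).trace.re with hp1def
  set p2 := (C2ᴴ * C2).trace.re with hp2def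
  have hp1 : 0 ≤ p1 := trace_re_nonneg C1
  have hp2 : 0 ≤ p2 := trace_re_nonneg' C2
  have hE : Eent (2 * Real.sqrt (p1 * p2)) = Real.negMulLog p1 + Real.negMulLog p2 := by
    rw [Eent_eq (mul_nonneg hp1 hp2)]
    have h1 : 1 - 4 * (p1 * p2) = (p1 - p2) ^ 2 := by
      have : p1 + p2 = 1 := hs.symm
      nlinarith
    unfold xpOf xmOf
    rw [h1, Real.sqrt_sq_eq_abs]
    rcases le_total p2 p1 with h | h
    · rw [abs_of_nonneg (by linarith)]
      have e1 : (1 + (p1 - p2)) / 2 = p1 := by linarith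
      have e2 : (1 - (p1 - p2)) / 2 = p2 := by linarith
      rw [e1, e2]
    · rw [abs_of_nonpos (by linarith)]
      have e1 : (1 + -(p1 - p2)) / 2 = p2 := by linarith
      have e2 : (1 - -(p1 - p2)) / 2 = p1 := by linarith
      rw [e1, e2]
      ring
  rw [hE]
  have hF1 : Fe (C1 * C1ᴴ) = Su (C1 * C1ᴴ) - Real.negMulLog p1 := by
    unfold Fe
    simp [Real.negMulLog, hp1def]
  have hF2 : Fe (C2ᴴ * C2) = Su (C2ᴴ * C2) - Real.negMulLog p2 := by
    unfold Fe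
    simp [Real.negMulLog, hp2def]
  have hF3 : Fe ((0 : Matrix m1 n2 ℂ) * (0 : Matrix m1 n2 ℂ)ᴴ) = 0 := by
    simp [Fe, Su_zero']
  rw [hF1, hF2, hF3]
  linarith

end

end Vale.Agent.P358A
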