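import Mathlib
import Vale.Agent.P358A.Bridge
import Vale.Agent.P358A.EStar
import Vale.Agent.P358A.TForm

namespace Vale.Agent.P358A
open Matrix
open scoped ComplexOrder

noncomputable section
variable {n m : Type*} [Fintype n] [Fintype m] [DecidableEq n] [DecidableEq m]

lemma diag_conj_nonneg {X : Matrix n n ℂ} (hX : X.PosSemidef) (U : Matrix n n ℂ) (i : n) :
    0 ≤ ((Uᴴ * X * U) i i).re := by
  have h := hX.conjTranspose_mul_mul_same U
  have h2 := h.diag_nonneg (i := i)
  exact (Complex.le_def.1 h2).1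

lemma sum_diag_conj {X : Matrix n n ℂ} {U : Matrix n n ℂ} (hU : U * Uᴴ = 1) :
    ∑ i, ((Uᴴ * X * U) i i).re = X.trace.re := by
  have h : (Uᴴ * X * U).trace = X.trace := by
    rw [Matrix.trace_mul_comm, ← Matrix.mul_assoc, hU, Matrix.one_mul]
  rw [← h, Matrix.trace, Complex.re_sum]
  rfl

/-- The block entropy inequality `E*`, for all blocks of equal shape. -/
theorem eStar_all (C1 A C2 : Matrix n m ℂ) : EStarAt C1 A C2 := by
  intro htr
  have hzn : 0 ≤ (A * Aᴴ).trace.re :=
    (Complex.le_def.1 (Matrix.posSemidef_self_mul_conjTranspose A).trace_nonneg).1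
  rcases hzn.eq_or_lt with hz0 | hz
  · exact eStar_zero C1 A C2 htr hz0.symm
  · have hp1 : 0 ≤ (C1 * C1ᴴ).trace.re :=
      (Complex.le_def.1 (Matrix.posSemidef_self_mul_conjTranspose C1).trace_nonneg).1
    have hp2 : 0 ≤ (C2ᴴ * C2).trace.re :=
      (Complex.le_def.1 (Matrix.posSemidef_conjTranspose_mul_self C2).trace_nonneg).1
    refine eStar_pos C1 A C2 htr hz
      (fun i => ((vecL A)ᴴ * (C1 * C1ᴴ) * vecL A) i i |>.re)
      (fun i => diag_conj_nonneg (Matrix.posSemidef_self_mul_conjTranspose C1) _ i)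
      (sum_diag_conj (mul_ev _))
      (fun j => ((vecR A)ᴴ * (C2ᴴ * C2) * vecR A) j j |>.re)
      (fun j => diag_conj_nonneg (Matrix.posSemidef_conjTranspose_mul_self C2) _ j)
      (sum_diag_conj (mul_ev _)) ?_
    intro t ht
    have hs := trace_re_blocks C1 A C2
    rw [htr] at hs
    obtain ⟨hxm, hxx, hsum, hprod⟩ := xOf_facts hp1 hp2 hz hs.symm
    exact bridge_pointwise C1 C2 A ht hz hp1 hp2 (hxm.trans hxx.le) hxm hsum hprod

end
end Vale.Agent.P358A
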