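import Mathlib
import Vale.Agent.P358h5.Bound
import Vale.Agent.P358A.EConvex

namespace Vale.Agent.P358A
open Vale.Agent.P358h5 Matrix Finset BigOperators
open scoped ComplexOrder

noncomputable section

variable {γ ν : ℝ}

/-- Excited population of qubit `i`. -/
def popn {n : ℕ} (X : Matrix (Qb n) (Qb n) ℂ) (i : Fin n) : ℝ :=
  ∑ x, (X x x).re * (if x i = 1 then 1 else 0)

lemma coef_one_one (a b : Fin 2) :
    coef γ ν 1 1 a b = if a = b then (if a = 1 then (((1 - γ) + γ * ν : ℝ) : ℂ) else ((γ * ν : ℝ) : ℂ)) else 0 := by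
  obtain ⟨h1, h2, h3, h4, h5, h6, h7, h8, h9, h10, h11, h12, h13, h14, h15, h16⟩ := coef_table γ ν
  fin_cases a <;> fin_cases b <;>
    simp only [Fin.zero_eta, Fin.mk_one, Fin.isValue, h3, h4, h9, h10] <;> simp

lemma sum_prod_coef_ind (n : ℕ) (i : Fin n) (a b : Qb n) :
    ∑ x : Qb n, (∏ j, coef γ ν (x j) (x j) (a j) (b j)) * (if x i = 1 then (1 : ℂ) else 0) =
      if a = b then (if a i = 1 then (((1 - γ) + γ * ν : ℝ) : ℂ) else ((γ * ν : ℝ) : ℂ)) else 0 := by
  set g : Fin n → Fin 2 → ℂ := fun j v =>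
    coef γ ν v v (a j) (b j) * (if j = i then (if v = 1 then (1 : ℂ) else 0) else 1) with hg
  have h1 : ∀ x : Qb n, (∏ j, coef γ ν (x j) (x j) (a j) (b j)) * (if x i = 1 then (1 : ℂ) else 0) =
      ∏ j, g j (x j) := by
    intro x
    simp only [hg]
    rw [Finset.prod_mul_distrib, Finset.prod_ite_eq']
    simp
  simp only [h1]
  have h2 := (Finset.prod_univ_sum (fun _ : Fin n => (Finset.univ : Finset (Fin 2))) g).symm
  rw [Fintype.piFinset_univ] at h2
  rw [h2]
  have hG : ∀ j, ∑ v, g j v =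
      if j = i then (if a i = b i then (if a i = 1 then (((1 - γ) + γ * ν : ℝ) : ℂ) else ((γ * ν : ℝ) : ℂ)) else 0)
      else (if a j = b j then 1 else 0) := by
    intro j
    by_cases hj : j = i
    · subst hj
      simp only [hg, if_true, Fin.sum_univ_two]
      simp [coef_one_one]
    · simp only [hg, if_neg hj, mul_one]
      exact coef_tr _ _
  simp only [hG]
  by_cases hab : a = b
  · subst hab
    simp only [if_true]
    rw [Finset.prod_ite_eq']
    simp
  · rw [if_neg hab]
    obtain ⟨j, hj⟩ := Function.ne_iff.mp hab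
    refine Finset.prod_eq_zero (Finset.mem_univ j) ?_
    by_cases hji : j = i
    · subst hji
      simp [hj]
    · simp [hji, hj]

lemma gadcN_popn (n : ℕ) (X : Matrix (Qb n) (Qb n) ℂ) (i : Fin n) :
    popn (gadcN γ ν n X) i = (1 - γ) * popn X i + γ * ν * (X.trace).re := by
  have hc : ∑ x, gadcN γ ν n X x x * (if x i = 1 then (1 : ℂ) else 0) =
      ((1 - γ : ℝ) : ℂ) * ∑ a, X a a * (if a i = 1 then (1 : ℂ) else 0) + ((γ * ν : ℝ) : ℂ) * X.trace := by
    simp only [gadcN, Matrix.of_apply, Finset.sum_mul]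
    calc _ = ∑ a : Qb n, ∑ b : Qb n, ∑ x : Qb n,
          (∏ j, coef γ ν (x j) (x j) (a j) (b j)) * X a b * (if x i = 1 then (1 : ℂ) else 0) := by
            rw [Finset.sum_comm]
            refine Finset.sum_congr rfl fun a _ => ?_
            rw [Finset.sum_comm]
      _ = ∑ a : Qb n, ∑ b : Qb n, (if a = b then (if a i = 1 then (((1 - γ) + γ * ν : ℝ) : ℂ) else ((γ * ν : ℝ) : ℂ)) else 0) * X a b := by
            refine Finset.sum_congr rfl fun a _ => Finset.sum_congr rfl fun b _ => ?_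
            rw [← sum_prod_coef_ind n i a b, Finset.sum_mul]
            refine Finset.sum_congr rfl fun x _ => ?_
            ring
      _ = _ := by
            rw [Matrix.trace, Finset.mul_sum, Finset.mul_sum, ← Finset.sum_add_distrib]
            refine Finset.sum_congr rfl fun a _ => ?_
            rw [Finset.sum_eq_single a]
            · by_cases h : a i = 1 <;> simp [h]
              ring
            · intro b _ hb
              rw [if_neg (Ne.symm hb), zero_mul]
            · simp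
  have hre : ∀ (Y : Matrix (Qb n) (Qb n) ℂ), popn Y i =
      (∑ x, Y x x * (if x i = 1 then (1 : ℂ) else 0)).re := by
    intro Y
    simp only [popn, Complex.re_sum]
    refine Finset.sum_congr rfl fun x _ => ?_
    by_cases h : x i = 1 <;> simp [h]
  rw [hre, hre, hc, Complex.add_re, Complex.re_ofReal_mul, Complex.re_ofReal_mul]

lemma popn_nonneg {n : ℕ} {X : Matrix (Qb n) (Qb n) ℂ} (hX : X.PosSemidef) (i : Fin n) :
    0 ≤ popn X i := by
  refine Finset.sum_nonneg fun x _ => mul_nonneg ?_ (by split_ifs <;> norm_num)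
  exact (Complex.le_def.mp (hX.diag_nonneg (i := x))).1

lemma sum_re_diag {n : ℕ} {X : Matrix (Qb n) (Qb n) ℂ} (htr : X.trace = 1) :
    ∑ x, (X x x).re = 1 := by
  have h : (X.trace).re = 1 := by rw [htr]; simp
  rw [Matrix.trace, Complex.re_sum] at h
  simpa using h

lemma popn_le_one {n : ℕ} {X : Matrix (Qb n) (Qb n) ℂ} (hX : X.PosSemidef) (htr : X.trace = 1)
    (i : Fin n) : popn X i ≤ 1 := by
  rw [← sum_re_diag htr]
  refine Finset.sum_le_sum fun x _ => ?_
  have hx : 0 ≤ (X x x).re := (Complex.le_def.mp (hX.diag_nonneg (i := x))).1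
  split_ifs <;> nlinarith

/-- Klein against a product reference state. -/
lemma su_le_eps {n : ℕ} (T : Matrix (Qb n) (Qb n) ℂ) (hT : T.PosSemidef) (htr : T.trace = 1)
    {ε : ℝ} (h0 : 0 < ε) (h1 : ε < 1) :
    ∑ i, Real.negMulLog (hT.isHermitian.eigenvalues i) ≤
      ∑ i : Fin n, (Real.binEntropy (popn T i) + (- Real.log (1 - ε))) := by
  classical
  set o : Fin n → ℝ := fun i => popn T i with ho'
  have ho0 : ∀ i, 0 ≤ o i := fun i => popn_nonneg hT i
  have ho1 : ∀ i, o i ≤ 1 := fun i => popn_le_one hT htr i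
  set s : Fin n → ℝ := fun i => if o i = 0 then ε else if o i = 1 then 1 - ε else o i with hs
  have hs0 : ∀ i, 0 < s i := by
    intro i
    simp only [hs]
    split_ifs with h h'
    · exact h0
    · linarith
    · exact lt_of_le_of_ne (ho0 i) (Ne.symm h)
  have hs1 : ∀ i, s i < 1 := by
    intro i
    simp only [hs]
    split_ifs with h h'
    · exact h1
    · linarith
    · exact lt_of_le_of_ne (ho1 i) h'
  set σ : Qb n → ℝ := fun x => ∏ i, om (s i) (x i) with hσdef
  have hom : ∀ i v, 0 < om (s i) v := fun i v => om_pos (hs0 i) (hs1 i) v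
  have hσ : ∀ x, 0 < σ x := fun x => Finset.prod_pos fun i _ => hom i _
  have hσ1 : ∑ x, σ x = 1 := by
    have h2 := (Finset.prod_univ_sum (fun _ : Fin n => (Finset.univ : Finset (Fin 2)))
      (fun i v => om (s i) v)).symm
    rw [Fintype.piFinset_univ] at h2
    simp only [hσdef]
    rw [h2]
    refine Finset.prod_eq_one fun i _ => ?_
    simp [Fin.sum_univ_two, om]
  set w : Qb n → ℝ := fun x => (Real.sqrt (σ x))⁻¹ with hwdef
  have hw : ∀ x, 0 < w x := fun x => inv_pos.mpr (Real.sqrt_pos.mpr (hσ x))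
  have hwσ : ∀ x, 2 * Real.log (w x) = - Real.log (σ x) := by
    intro x
    simp only [hwdef]
    rw [Real.log_inv, Real.log_sqrt (hσ x).le]
    ring
  have hK := (dens_bounds T hT htr σ hσ hσ1 w hw hwσ).1
  refine hK.trans ?_
  have hlogσ : ∀ x, Real.log (σ x) = ∑ i, Real.log (om (s i) (x i)) := by
    intro x
    simp only [hσdef]
    rw [Real.log_prod]
    intro i _
    exact (hom i _).ne'
  have hdiag := sum_re_diag htr
  have hterm : ∀ i, - ∑ x, (T x x).re * Real.log (om (s i) (x i)) =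
      - (o i * Real.log (s i) + (1 - o i) * Real.log (1 - s i)) := by
    intro i
    have hv : ∀ x : Qb n, (T x x).re * Real.log (om (s i) (x i)) =
        Real.log (s i) * ((T x x).re * (if x i = 1 then 1 else 0)) +
          Real.log (1 - s i) * ((T x x).re - (T x x).re * (if x i = 1 then 1 else 0)) := by
      intro x
      have hcase : x i = 0 ∨ x i = 1 := by
        have := (x i).2
        omega
      rcases hcase with h | h
      · simp [h, om]
        ring
      · simp [h, om]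
        ring
    simp only [hv]
    rw [Finset.sum_add_distrib, ← Finset.mul_sum, ← Finset.mul_sum, Finset.sum_sub_distrib, hdiag]
    simp only [ho', popn]
    ring
  rw [show - ∑ x, (T x x).re * Real.log (σ x) =
      ∑ i, - ∑ x, (T x x).re * Real.log (om (s i) (x i)) from ?_]
  · refine Finset.sum_le_sum fun i _ => ?_
    rw [hterm]
    have hlogpos : 0 ≤ - Real.log (1 - ε) := by
      have : Real.log (1 - ε) ≤ 0 := Real.log_nonpos (by linarith) (by linarith)
      linarith
    by_cases hoi : o i = 0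
    · have : s i = ε := by simp only [hs, hoi, if_true]
      have hp0 : popn T i = 0 := hoi
      rw [this, hoi, hp0]
      simp
    · by_cases hoj : o i = 1
      · have : s i = 1 - ε := by simp only [hs, if_neg hoi, hoj, if_true]
        have hp1 : popn T i = 1 := hoj
        rw [this, hoj, hp1]
        simp
      · have : s i = o i := by simp only [hs, if_neg hoi, if_neg hoj]
        rw [this, Real.binEntropy_eq_negMulLog_add_negMulLog_one_sub]
        simp only [Real.negMulLog]
        nlinarith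
  · simp only [hlogσ, Finset.mul_sum]
    rw [Finset.sum_comm, ← Finset.sum_neg_distrib]

lemma su_le_entropy {n : ℕ} (T : Matrix (Qb n) (Qb n) ℂ) (hT : T.PosSemidef) (htr : T.trace = 1) :
    ∑ i, Real.negMulLog (hT.isHermitian.eigenvalues i) ≤ ∑ i : Fin n, Real.binEntropy (popn T i) := by
  have hcont : Filter.Tendsto (fun ε : ℝ => ∑ i : Fin n, (Real.binEntropy (popn T i) + (- Real.log (1 - ε))))
      (nhdsWithin 0 (Set.Ioi 0)) (nhds (∑ i : Fin n, (Real.binEntropy (popn T i) + (- Real.log (1 - 0))))) := by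
    refine Filter.Tendsto.mono_left ?_ nhdsWithin_le_nhds
    refine tendsto_finsetSum _ fun i _ => ?_
    refine Filter.Tendsto.add tendsto_const_nhds (Filter.Tendsto.neg ?_)
    have : ContinuousAt (fun ε : ℝ => Real.log (1 - ε)) 0 := by
      apply ContinuousAt.log (by fun_prop)
      norm_num
    exact this
  have hlim := ge_of_tendsto hcont (b := ∑ i, Real.negMulLog (hT.isHermitian.eigenvalues i)) (by
    have hmem : Set.Ioo (0 : ℝ) 1 ∈ nhdsWithin (0 : ℝ) (Set.Ioi 0) :=
      Ioo_mem_nhdsGT (by norm_num)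
    filter_upwards [hmem] with ε hε
    exact su_le_eps T hT htr hε.1 hε.2)
  simpa using hlim

/-- The concurrence factor. -/
def cc (γ : ℝ) : ℝ := 2 * Real.sqrt (γ * (1 - γ))

lemma cc_nonneg (γ : ℝ) : 0 ≤ cc γ := by
  unfold cc
  positivity

lemma cc_le_one (γ : ℝ) : cc γ ≤ 1 := by
  unfold cc
  have : Real.sqrt (γ * (1 - γ)) ≤ 1 / 2 :=
    Real.sqrt_le_iff.mpr ⟨by norm_num, by nlinarith [sq_nonneg (γ - 1 / 2)]⟩
  linarith

/-- Upper bound on the Holevo quantity from the pointwise output entropy bound,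
for any convex single letter lower bound `f`. -/
theorem holevo_upper_gen (h0 : 0 ≤ γ) (h1 : γ ≤ 1) (hν0 : 0 ≤ ν) (hν1 : ν ≤ 1) {f : ℝ → ℝ}
    (hf : ConvexOn ℝ (Set.Icc (0 : ℝ) 1) f)
    (hE : ∀ (n : ℕ) (X : Matrix (Qb n) (Qb n) ℂ), X.PosSemidef → X.trace = 1 →
      ∑ i, f (popn X i) ≤ vnEntropy (gadcN γ ν n X) * Real.log 2)
    {M : ℝ} (hM : ∀ q, 0 ≤ q → q ≤ 1 → Real.binEntropy ((1 - γ) * q + γ * ν) - f q ≤ M)
    (n : ℕ) {ι : Type*} [Fintype ι] (p : ι → ℝ) (hp0 : ∀ a, 0 ≤ p a) (hp1 : ∑ a, p a = 1)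
    (ρ : ι → Matrix (Qb n) (Qb n) ℂ) (hρ : ∀ a, (ρ a).PosSemidef) (htr : ∀ a, (ρ a).trace = 1) :
    holevoN γ ν n p ρ ≤ n * (M / Real.log 2) := by
  classical
  have hlog2 : 0 < Real.log 2 := Real.log_pos (by norm_num)
  set T : ι → Matrix (Qb n) (Qb n) ℂ := fun a => gadcN γ ν n (ρ a) with hTdef
  have hT : ∀ a, (T a).PosSemidef := fun a => gadcN_psd h0 h1 hν0 hν1 n (ρ a) (hρ a)
  have hTtr : ∀ a, (T a).trace = 1 := fun a => by rw [hTdef]; simp only; rw [gadcN_trace, htr a]
  set B : Matrix (Qb n) (Qb n) ℂ := ∑ a, ((p a : ℝ) : ℂ) • T a with hB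
  have hBpsd : B.PosSemidef :=
    Matrix.posSemidef_sum _ fun a _ => (hT a).smul (Complex.zero_le_real.mpr (hp0 a))
  have hBtr : B.trace = 1 := by
    rw [hB, Matrix.trace_sum]
    simp only [Matrix.trace_smul, hTtr, smul_eq_mul, mul_one]
    rw [← Complex.ofReal_sum, hp1, Complex.ofReal_one]
  set qb : Fin n → ℝ := fun i => ∑ a, p a * popn (ρ a) i with hqb
  have hpopB : ∀ i, popn B i = (1 - γ) * qb i + γ * ν := by
    intro i
    have : popn B i = ∑ a, p a * popn (T a) i := by
      simp only [popn, hB, Matrix.sum_apply, Complex.re_sum, Finset.sum_mul, Finset.mul_sum]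
      rw [Finset.sum_comm]
      refine Finset.sum_congr rfl fun a _ => Finset.sum_congr rfl fun x _ => ?_
      simp
    rw [this, hqb]
    simp only [hTdef, gadcN_popn, htr, Complex.one_re, mul_one]
    have e : ∀ a, p a * ((1 - γ) * popn (ρ a) i + γ * ν) =
        (1 - γ) * (p a * popn (ρ a) i) + p a * (γ * ν) := fun a => by ring
    simp only [e]
    rw [Finset.sum_add_distrib, ← Finset.mul_sum, ← Finset.sum_mul, hp1, one_mul]
  have hq0 : ∀ i, 0 ≤ qb i := fun i =>
    Finset.sum_nonneg fun a _ => mul_nonneg (hp0 a) (popn_nonneg (hρ a) i)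
  have hq1 : ∀ i, qb i ≤ 1 := by
    intro i
    calc qb i ≤ ∑ a, p a * 1 := Finset.sum_le_sum fun a _ =>
          mul_le_mul_of_nonneg_left (popn_le_one (hρ a) (htr a) i) (hp0 a)
      _ = 1 := by simp [hp1]
  have hBent := su_le_entropy B hBpsd hBtr
  have eB : vnEntropy B * Real.log 2 = ∑ i, Real.negMulLog (hBpsd.isHermitian.eigenvalues i) := by
    rw [vnEntropy, dif_pos hBpsd.isHermitian, Finset.sum_mul]
    refine Finset.sum_congr rfl fun i _ => ?_
    field_simp
  have hJ : ∀ i, f (qb i) ≤ ∑ a, p a * f (popn (ρ a) i) := by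
    intro i
    have hcv := hf.map_sum_le (t := Finset.univ) (w := p)
      (p := fun a => popn (ρ a) i) (fun a _ => hp0 a) hp1
      (fun a _ => ⟨popn_nonneg (hρ a) i, popn_le_one (hρ a) (htr a) i⟩)
    simpa only [smul_eq_mul] using hcv
  have hmain : vnEntropy B * Real.log 2 - ∑ a, p a * (vnEntropy (T a) * Real.log 2) ≤ n * M := by
    have hsum : ∑ a, p a * (∑ i, f (popn (ρ a) i)) ≤
        ∑ a, p a * (vnEntropy (T a) * Real.log 2) :=
      Finset.sum_le_sum fun a _ => mul_le_mul_of_nonneg_left (hE n (ρ a) (hρ a) (htr a)) (hp0 a)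
    have hswap : ∑ a, p a * (∑ i, f (popn (ρ a) i)) =
        ∑ i, ∑ a, p a * f (popn (ρ a) i) := by
      simp only [Finset.mul_sum]
      rw [Finset.sum_comm]
    have hJsum : ∑ i, f (qb i) ≤ ∑ i, ∑ a, p a * f (popn (ρ a) i) :=
      Finset.sum_le_sum fun i _ => hJ i
    have hMsum : ∑ i : Fin n, (Real.binEntropy ((1 - γ) * qb i + γ * ν) - f (qb i)) ≤
        ∑ _i : Fin n, M := Finset.sum_le_sum fun i _ => hM (qb i) (hq0 i) (hq1 i)
    rw [Finset.sum_sub_distrib] at hMsum
    simp only [Finset.sum_const, Finset.card_univ, Fintype.card_fin, nsmul_eq_mul] at hMsum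
    simp only [hpopB] at hBent
    rw [eB]
    linarith
  have hgoal : holevoN γ ν n p ρ =
      (vnEntropy B * Real.log 2 - ∑ a, p a * (vnEntropy (T a) * Real.log 2)) / Real.log 2 := by
    have : holevoN γ ν n p ρ = vnEntropy B - ∑ a, p a * vnEntropy (T a) := rfl
    rw [this, sub_div, Finset.sum_div]
    congr 1
    · field_simp
    · refine Finset.sum_congr rfl fun a _ => ?_
      field_simp
  rw [hgoal, ← mul_div_assoc]
  exact div_le_div_of_nonneg_right hmain hlog2.le

lemma convexOn_Eent_mul : ConvexOn ℝ (Set.Icc (0 : ℝ) 1) (fun q => Eent (cc γ * q)) := by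
  have hc0 := cc_nonneg γ
  have hc1 := cc_le_one γ
  refine ⟨convex_Icc 0 1, fun x hx y hy a b ha hb hab => ?_⟩
  have hmem : ∀ z ∈ Set.Icc (0 : ℝ) 1, cc γ * z ∈ Set.Icc (0 : ℝ) 1 := fun z hz =>
    ⟨mul_nonneg hc0 hz.1, by nlinarith [hz.1, hz.2]⟩
  have := convexOn_Eent.2 (hmem x hx) (hmem y hy) ha hb hab
  simp only [smul_eq_mul] at this ⊢
  have e : cc γ * (a * x + b * y) = a * (cc γ * x) + b * (cc γ * y) := by ring
  rw [e]
  exact this

/-- Amplitude damping (`ν = 0`). -/
theorem holevo_upper (h0 : 0 < γ) (h1 : γ < 1)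
    (hE : ∀ (n : ℕ) (X : Matrix (Qb n) (Qb n) ℂ), X.PosSemidef → X.trace = 1 →
      ∑ i, Eent (cc γ * popn X i) ≤ vnEntropy (gadcN γ 0 n X) * Real.log 2)
    {M : ℝ} (hM : ∀ q, 0 ≤ q → q ≤ 1 → Real.binEntropy ((1 - γ) * q) - Eent (cc γ * q) ≤ M)
    (n : ℕ) {ι : Type*} [Fintype ι] (p : ι → ℝ) (hp0 : ∀ a, 0 ≤ p a) (hp1 : ∑ a, p a = 1)
    (ρ : ι → Matrix (Qb n) (Qb n) ℂ) (hρ : ∀ a, (ρ a).PosSemidef) (htr : ∀ a, (ρ a).trace = 1) :
    holevoN γ 0 n p ρ ≤ n * (M / Real.log 2) :=
  holevo_upper_gen h0.le h1.le le_rfl zero_le_one convexOn_Eent_mul hE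
    (fun q h3 h4 => by simpa using hM q h3 h4) n p hp0 hp1 ρ hρ htr

end

end Vale.Agent.P358A
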