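import Mathlib
import Vale.Agent.P358A.Additive

namespace Vale.Agent.P358A

open Finset BigOperators Matrix Vale.Agent.P358h5
open scoped ComplexConjugate ComplexOrder

noncomputable section

variable {γ ν : ℝ}

lemma fin2_cases (a : Fin 2) : a = 0 ∨ a = 1 := by
  fin_cases a <;> simp

/-! ### The populations of the output -/

lemma coef_diag_off (γ ν : ℝ) (c a b : Fin 2) (h : a ≠ b) : coef γ ν c c a b = 0 := by
  obtain ⟨h1, h2, h3, h4, h5, h6, h7, h8, h9, h10, h11, h12, h13, h14, h15, h16⟩ := coef_table γ ν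
  rcases fin2_cases c with rfl | rfl <;> rcases fin2_cases a with rfl | rfl <;>
    rcases fin2_cases b with rfl | rfl <;> first | exact absurd rfl h | assumption

lemma sum_mark (n : ℕ) (i : Fin n) (a b : Qb n) :
    ∑ x : Qb n, (if x i = 1 then (1 : ℂ) else 0) * ∏ j, coef γ ν (x j) (x j) (a j) (b j) =
      if a = b then coef γ ν 1 1 (a i) (a i) else 0 := by
  have h := (Finset.prod_univ_sum (fun _ : Fin n => (Finset.univ : Finset (Fin 2)))
    (fun j c => (if j = i then (if c = 1 then (1 : ℂ) else 0) else 1) * coef γ ν c c (a j) (b j))).symm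
  rw [Fintype.piFinset_univ] at h
  have e1 : ∀ x : Qb n, (if x i = 1 then (1 : ℂ) else 0) * ∏ j, coef γ ν (x j) (x j) (a j) (b j) =
      ∏ j, (if j = i then (if x j = 1 then (1 : ℂ) else 0) else 1) *
        coef γ ν (x j) (x j) (a j) (b j) := by
    intro x
    rw [Finset.prod_mul_distrib]
    congr 1
    rw [Finset.prod_eq_single i]
    · simp
    · intro j _ hj
      simp [hj]
    · simp
  simp only [e1]
  rw [h]
  by_cases hab : a = b
  · subst hab
    rw [if_pos rfl, Finset.prod_eq_single i]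
    · simp
    · intro j _ hj
      have := coef_tr (γ := γ) (ν := ν) (a j) (a j)
      simpa [hj] using this
    · simp
  · rw [if_neg hab]
    obtain ⟨j, hj⟩ := Function.ne_iff.mp hab
    refine Finset.prod_eq_zero (Finset.mem_univ j) ?_
    refine Finset.sum_eq_zero fun c _ => ?_
    rw [coef_diag_off γ ν c _ _ hj, mul_zero]

lemma coef11 (γ ν : ℝ) (a : Fin 2) :
    coef γ ν 1 1 a a = ((γ * ν : ℝ) : ℂ) + (if a = 1 then ((1 - γ : ℝ) : ℂ) else 0) := by
  obtain ⟨h1, h2, h3, h4, h5, h6, h7, h8, h9, h10, h11, h12, h13, h14, h15, h16⟩ := coef_table γ ν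
  rcases fin2_cases a with rfl | rfl
  · rw [h3]; simp
  · rw [h4]; simp; ring

/-- The population of the output. -/
theorem pop_gadcN (n : ℕ) (Y : Matrix (Qb n) (Qb n) ℂ) (i : Fin n) :
    pop (gadcN γ ν n Y) i = (1 - γ) * pop Y i + γ * ν * Y.trace.re := by
  have key : ∑ x : Qb n, (if x i = 1 then gadcN γ ν n Y x x else 0) =
      ((1 - γ : ℝ) : ℂ) * ∑ a : Qb n, (if a i = 1 then Y a a else 0) + ((γ * ν : ℝ) : ℂ) * Y.trace := by
    have e1 : ∀ x : Qb n, (if x i = 1 then gadcN γ ν n Y x x else 0) =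
        ∑ a, ∑ b, ((if x i = 1 then (1 : ℂ) else 0) * ∏ j, coef γ ν (x j) (x j) (a j) (b j)) * Y a b := by
      intro x
      simp only [gadcN, Matrix.of_apply]
      split_ifs <;> simp
    simp only [e1]
    rw [Finset.sum_comm]
    have e2 : ∀ a : Qb n, ∑ x : Qb n, ∑ b, ((if x i = 1 then (1 : ℂ) else 0) *
          ∏ j, coef γ ν (x j) (x j) (a j) (b j)) * Y a b =
        coef γ ν 1 1 (a i) (a i) * Y a a := by
      intro a
      rw [Finset.sum_comm]
      simp only [← Finset.sum_mul, sum_mark]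
      simp
    rw [Finset.sum_congr rfl (fun a _ => e2 a)]
    simp only [coef11, add_mul, Finset.sum_add_distrib]
    rw [Matrix.trace]
    simp only [Matrix.diag_apply, Finset.mul_sum]
    rw [add_comm]
    congr 1
    refine Finset.sum_congr rfl fun a _ => ?_
    split_ifs <;> simp
  have e3 : ∀ Z : Matrix (Qb n) (Qb n) ℂ,
      pop Z i = (∑ x : Qb n, (if x i = 1 then Z x x else 0)).re := by
    intro Z
    simp only [pop, Complex.re_sum]
    refine Finset.sum_congr rfl fun x _ => ?_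
    split_ifs <;> simp
  rw [e3, e3, key, Complex.add_re, Complex.re_ofReal_mul, Complex.re_ofReal_mul]

/-! ### Klein's inequality with a product reference state -/

/-- The product reference state with site dependent populations. -/
def prodRef {n : ℕ} (s : Fin n → ℝ) (x : Qb n) : ℝ := ∏ i, om (s i) (x i)

lemma prodRef_pos {n : ℕ} {s : Fin n → ℝ} (h0 : ∀ i, 0 < s i) (h1 : ∀ i, s i < 1) (x : Qb n) :
    0 < prodRef s x :=
  Finset.prod_pos fun i _ => om_pos (h0 i) (h1 i) _

lemma prodRef_sum {n : ℕ} (s : Fin n → ℝ) : ∑ x, prodRef s x = 1 := by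
  have h := (Finset.prod_univ_sum (fun _ : Fin n => (Finset.univ : Finset (Fin 2)))
    (fun i c => om (s i) c)).symm
  rw [Fintype.piFinset_univ] at h
  simp only [prodRef]
  rw [h]
  simp [om, Fin.sum_univ_two]

lemma log_om (s : ℝ) (c : Fin 2) :
    Real.log (om s c) = (if c = 1 then Real.log s else Real.log (1 - s)) := by
  rcases fin2_cases c with rfl | rfl <;> simp [om]

theorem klein_prod {n : ℕ} {T : Matrix (Qb n) (Qb n) ℂ} (hT : T.PosSemidef) (htr : T.trace = 1)
    {s : Fin n → ℝ} (h0 : ∀ i, 0 < s i) (h1 : ∀ i, s i < 1) :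
    Su T ≤ ∑ i, (-(1 - pop T i) * Real.log (1 - s i) - pop T i * Real.log (s i)) := by
  have hσ := prodRef_pos h0 h1
  have hw : ∀ x : Qb n, 0 < (Real.sqrt (prodRef s x))⁻¹ :=
    fun x => inv_pos.mpr (Real.sqrt_pos.mpr (hσ x))
  have hwσ : ∀ x : Qb n, 2 * Real.log ((Real.sqrt (prodRef s x))⁻¹) = -Real.log (prodRef s x) := by
    intro x
    rw [Real.log_inv, Real.log_sqrt (hσ x).le]
    ring
  have hK := (dens_bounds T hT htr (prodRef s) hσ (prodRef_sum s) _ hw hwσ).1
  rw [Su_of_herm hT.isHermitian]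
  refine hK.trans (le_of_eq ?_)
  have hlog : ∀ x : Qb n, Real.log (prodRef s x) = ∑ i, Real.log (om (s i) (x i)) := by
    intro x
    exact Real.log_prod fun i _ => (om_pos (h0 i) (h1 i) _).ne'
  have htrr : ∑ x, (T x x).re = 1 := by
    have := congrArg Complex.re htr
    simpa [Matrix.trace, Complex.re_sum] using this
  simp only [hlog, Finset.mul_sum]
  rw [← Finset.sum_neg_distrib]
  have : ∀ x : Qb n, -∑ i, (T x x).re * Real.log (om (s i) (x i)) =
      ∑ i, -((T x x).re * Real.log (om (s i) (x i))) := fun x => by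
    rw [Finset.sum_neg_distrib]
  simp only [this]
  rw [Finset.sum_comm]
  refine Finset.sum_congr rfl fun i _ => ?_
  have e : ∀ x : Qb n, -((T x x).re * Real.log (om (s i) (x i))) =
      -((T x x).re - (if x i = 1 then (T x x).re else 0)) * Real.log (1 - s i) -
        (if x i = 1 then (T x x).re else 0) * Real.log (s i) := by
    intro x
    rw [log_om]
    split_ifs <;> ring
  simp only [e]
  rw [Finset.sum_sub_distrib, ← Finset.sum_mul, ← Finset.sum_mul, Finset.sum_neg_distrib,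
    Finset.sum_sub_distrib, htrr]
  simp only [pop]

/-! ### The limit -/

lemma aux_tendsto (a : ℝ) (g : ℝ → ℝ) (hg : ContinuousAt g 0) (h : a ≠ 0 → g 0 ≠ 0) :
    Filter.Tendsto (fun ε => a * Real.log (g ε)) (nhdsWithin 0 (Set.Ioi 0))
      (nhds (a * Real.log (g 0))) := by
  by_cases ha : a = 0
  · simp [ha]
  · have := (hg.log (h ha)).const_mul a
    exact this.tendsto.mono_left nhdsWithin_le_nhds

lemma tendsto_bound {t : ℝ} :
    Filter.Tendsto (fun ε : ℝ => -(1 - t) * Real.log (1 - ((1 - ε) * t + ε / 2)) -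
        t * Real.log ((1 - ε) * t + ε / 2)) (nhdsWithin 0 (Set.Ioi 0)) (nhds (Real.binEntropy t)) := by
  have h1 := aux_tendsto (1 - t) (fun ε => 1 - ((1 - ε) * t + ε / 2))
    (by fun_prop) (by
      intro h
      simpa using h)
  have h2 := aux_tendsto t (fun ε => (1 - ε) * t + ε / 2)
    (by fun_prop) (by
      intro h
      simpa using h)
  have h3 := h1.neg.sub h2
  have e : -((1 - t) * Real.log ((fun ε : ℝ => 1 - ((1 - ε) * t + ε / 2)) 0)) -
      t * Real.log ((fun ε : ℝ => (1 - ε) * t + ε / 2) 0) = Real.binEntropy t := by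
    simp only [Real.binEntropy_eq_negMulLog_add_negMulLog_one_sub, Real.negMulLog]
    norm_num
    ring
  rw [e] at h3
  refine h3.congr fun ε => ?_
  ring

/-- Subadditivity against the marginal populations. -/
theorem Su_le_sum_binEntropy {n : ℕ} {T : Matrix (Qb n) (Qb n) ℂ} (hT : T.PosSemidef)
    (htr : T.trace = 1) : Su T ≤ ∑ i, Real.binEntropy (pop T i) := by
  have htrre : T.trace.re = 1 := by rw [htr]; simp
  have hlim : Filter.Tendsto (fun ε : ℝ => ∑ i, (-(1 - pop T i) *
      Real.log (1 - ((1 - ε) * pop T i + ε / 2)) - pop T i * Real.log ((1 - ε) * pop T i + ε / 2)))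
      (nhdsWithin 0 (Set.Ioi 0)) (nhds (∑ i, Real.binEntropy (pop T i))) :=
    tendsto_finsetSum _ fun i _ => tendsto_bound
  refine ge_of_tendsto hlim ?_
  have hmem : Set.Ioo (0:ℝ) 1 ∈ nhdsWithin (0:ℝ) (Set.Ioi 0) := Ioo_mem_nhdsGT one_pos
  filter_upwards [hmem] with ε hε
  have hp0 := fun i => pop_nonneg hT i
  have hp1 : ∀ i, pop T i ≤ 1 := fun i => htrre ▸ pop_le_trace hT i
  refine klein_prod hT htr (s := fun i => (1 - ε) * pop T i + ε / 2) ?_ ?_
  · intro i
    have := mul_nonneg (sub_pos.mpr hε.2).le (hp0 i)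
    have := hε.1
    positivity
  · intro i
    have h5 := mul_le_mul_of_nonneg_left (hp1 i) (sub_pos.mpr hε.2).le
    have := hε.1
    linarith

/-! ### The Holevo bound -/

lemma vnEntropy_eq_Su {κ : Type*} [Fintype κ] [DecidableEq κ] {T : Matrix κ κ ℂ}
    (h : T.IsHermitian) : vnEntropy T = Su T / Real.log 2 := by
  rw [vnEntropy, dif_pos h, Su_of_herm h, Finset.sum_div]

lemma pop_comb {n : ℕ} {ι : Type*} [Fintype ι] (p : ι → ℝ) (T : ι → Matrix (Qb n) (Qb n) ℂ)
    (i : Fin n) : pop (∑ a, ((p a : ℝ) : ℂ) • T a) i = ∑ a, p a * pop (T a) i := by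
  simp only [pop, Finset.mul_sum]
  rw [Finset.sum_comm]
  refine Finset.sum_congr rfl fun x _ => ?_
  split_ifs
  · simp [Matrix.sum_apply, Complex.re_sum]
  · simp

/-- The Holevo quantity of the `n`-fold channel is bounded by a sum of single-letter terms. -/
theorem holevo_le_sum {f : ℝ → ℝ} (hE : EStarF γ ν f) (hf : ConvexOn ℝ (Set.Icc 0 1) f)
    (h0 : 0 ≤ γ) (h1 : γ ≤ 1) (hν0 : 0 ≤ ν) (hν1 : ν ≤ 1) (n : ℕ)
    {ι : Type*} [Fintype ι] (p : ι → ℝ) (hp0 : ∀ a, 0 ≤ p a) (hp1 : ∑ a, p a = 1)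
    (ρ : ι → Matrix (Qb n) (Qb n) ℂ) (hρ : ∀ a, (ρ a).PosSemidef) (htr : ∀ a, (ρ a).trace = 1) :
    holevoN γ ν n p ρ ≤ ∑ i, (Real.binEntropy ((1 - γ) * (∑ a, p a * pop (ρ a) i) + γ * ν) -
      f (∑ a, p a * pop (ρ a) i)) / Real.log 2 := by
  classical
  set T : ι → Matrix (Qb n) (Qb n) ℂ := fun a => gadcN γ ν n (ρ a) with hTdef
  have hT : ∀ a, (T a).PosSemidef := fun a => gadcN_psd h0 h1 hν0 hν1 n (ρ a) (hρ a)
  have hTtr : ∀ a, (T a).trace = 1 := fun a => by rw [hTdef]; simp only; rw [gadcN_trace, htr a]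
  set B : Matrix (Qb n) (Qb n) ℂ := ∑ a, ((p a : ℝ) : ℂ) • T a with hB
  have hBpsd : B.PosSemidef :=
    Matrix.posSemidef_sum _ fun a _ => (hT a).smul (Complex.zero_le_real.mpr (hp0 a))
  have hBtr : B.trace = 1 := by
    rw [hB, Matrix.trace_sum]
    simp only [Matrix.trace_smul, hTtr, smul_eq_mul, mul_one]
    rw [← Complex.ofReal_sum, hp1, Complex.ofReal_one]
  have hlog2 : 0 < Real.log 2 := Real.log_pos (by norm_num)
  have hρre : ∀ a, (ρ a).trace.re = 1 := fun a => by rw [htr a]; simp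
  -- the upper bound
  have hUp := Su_le_sum_binEntropy hBpsd hBtr
  have hBpop : ∀ i, pop B i = (1 - γ) * (∑ a, p a * pop (ρ a) i) + γ * ν := by
    intro i
    rw [hB, pop_comb, Finset.mul_sum]
    simp only [hTdef, pop_gadcN, hρre, mul_one]
    simp only [mul_add, Finset.sum_add_distrib]
    rw [← Finset.sum_mul, hp1, one_mul]
    congr 1
    exact Finset.sum_congr rfl fun a _ => by ring
  -- the lower bound
  have hq0 := fun a i => pop_nonneg (hρ a) i
  have hq1 : ∀ a i, pop (ρ a) i ≤ 1 := fun a i => hρre a ▸ pop_le_trace (hρ a) i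
  have hLow : ∀ a, ∑ i, f (pop (ρ a) i) ≤ Su (T a) := by
    intro a
    have h := Fe_gadcN_ge hE hf h0 h1 hν0 hν1 n (ρ a) (hρ a)
    simp only [persp, hρre, one_mul, div_one] at h
    have e : Fe (gadcN γ ν n (ρ a)) = Su (T a) := by
      unfold Fe
      rw [gadcN_trace, hρre]
      simp [hTdef]
    rwa [e] at h
  have hJ : ∀ i, f (∑ a, p a * pop (ρ a) i) ≤ ∑ a, p a * f (pop (ρ a) i) := by
    intro i
    have := hf.map_sum_le (t := Finset.univ) (w := p) (p := fun a => pop (ρ a) i)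
      (fun a _ => hp0 a) hp1 (fun a _ => ⟨hq0 a i, hq1 a i⟩)
    simpa [smul_eq_mul] using this
  have hS : ∑ a, p a * Su (T a) ≥ ∑ i, f (∑ a, p a * pop (ρ a) i) := by
    calc ∑ i, f (∑ a, p a * pop (ρ a) i) ≤ ∑ i, ∑ a, p a * f (pop (ρ a) i) :=
          Finset.sum_le_sum fun i _ => hJ i
      _ = ∑ a, p a * ∑ i, f (pop (ρ a) i) := by
          rw [Finset.sum_comm]
          exact Finset.sum_congr rfl fun a _ => by rw [Finset.mul_sum]
      _ ≤ ∑ a, p a * Su (T a) :=
          Finset.sum_le_sum fun a _ => mul_le_mul_of_nonneg_left (hLow a) (hp0 a)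
  have hgoal : holevoN γ ν n p ρ = (Su B - ∑ a, p a * Su (T a)) / Real.log 2 := by
    have : holevoN γ ν n p ρ = vnEntropy B - ∑ a, p a * vnEntropy (T a) := rfl
    rw [this, vnEntropy_eq_Su hBpsd.isHermitian]
    simp only [vnEntropy_eq_Su (hT _).isHermitian]
    rw [sub_div, Finset.sum_div]
    congr 1
    exact Finset.sum_congr rfl fun a _ => by ring
  rw [hgoal, ← Finset.sum_div]
  refine div_le_div_of_nonneg_right ?_ hlog2.le
  rw [Finset.sum_sub_distrib]
  simp only [← hBpop]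
  linarith

end

end Vale.Agent.P358A
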