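import Mathlib
import Vale.Agent.P358A.Upper
import Vale.Agent.P358A.EStarAll
import Vale.Agent.P358A.Holevo

namespace Vale.Agent.P358A

open Finset BigOperators Matrix Vale.Agent.P358h5
open scoped ComplexConjugate ComplexOrder

noncomputable section

variable {γ : ℝ}

/-- At `ν = 0` the block action is the explicit amplitude damping formula. -/
lemma adT_zero_eq_chanT {R : Type*} (h1 : γ ≤ 1) (ρ : Matrix (Fin 2 × R) (Fin 2 × R) ℂ) :
    adT γ 0 ρ = chanT γ (1 - γ) ρ := by
  obtain ⟨c1, c2, c3, c4, c5, c6, c7, c8, c9, c10, c11, c12, c13, c14, c15, c16⟩ := coef_table γ 0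
  ext ⟨x₀, r⟩ ⟨y₀, s⟩
  simp only [adT, chanT, Matrix.of_apply, Fin.sum_univ_two]
  rcases fin2_cases x₀ with rfl | rfl <;> rcases fin2_cases y₀ with rfl | rfl
  · simp only [c1, c2, c7, c8]
    simp
  · simp only [c5, c11, c12, c13]
    simp
  · simp only [c6, c14, c15, c16]
    simp
  · simp only [c3, c4, c9, c10]
    simp

/-- The one-step inequality for amplitude damping, in the form used by the induction. -/
theorem estarF_AD (h0 : 0 ≤ γ) (h1 : γ ≤ 1) : EStarF γ 0 (fun q => Eent (cc γ * q)) := by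
  intro R _ _ ρ hρ
  have h := estarstar_homog h0 (sub_nonneg.2 h1) (by ring) hρ (fun A B => eStar_all _ _ _)
  rw [adT_zero_eq_chanT h1]
  exact h

lemma popn_eq_pop {n : ℕ} (X : Matrix (Qb n) (Qb n) ℂ) (i : Fin n) : popn X i = pop X i := by
  simp only [popn, pop]
  refine Finset.sum_congr rfl fun a _ => ?_
  split_ifs <;> simp

/-- The entropy lower bound for `n` uses of amplitude damping, for arbitrary input states. -/
theorem entropy_bound (h0 : 0 ≤ γ) (h1 : γ ≤ 1) (n : ℕ) (X : Matrix (Qb n) (Qb n) ℂ)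
    (hX : X.PosSemidef) (htr : X.trace = 1) :
    ∑ i, Eent (cc γ * popn X i) ≤ vnEntropy (gadcN γ 0 n X) * Real.log 2 := by
  have h := Fe_gadcN_ge (estarF_AD h0 h1) convexOn_Eent_mul h0 h1 le_rfl zero_le_one n X hX
  have hre : X.trace.re = 1 := by rw [htr]; simp
  have hT := gadcN_psd h0 h1 le_rfl zero_le_one n X hX
  have hlog2 : Real.log 2 ≠ 0 := (Real.log_pos (by norm_num)).ne'
  have e1 : Fe (gadcN γ 0 n X) = vnEntropy (gadcN γ 0 n X) * Real.log 2 := by
    unfold Fe
    rw [gadcN_trace, hre, vnEntropy_eq_Su hT.isHermitian]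
    field_simp
    simp
  rw [e1] at h
  simp only [persp, hre, one_mul, div_one] at h
  simpa only [popn_eq_pop] using h

end

end Vale.Agent.P358A
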