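import Mathlib

/-! Functional calculus on eigenvalues of `A Aᴴ`, `Aᴴ A`, intertwining without a singular value
decomposition, and the evaluation of `(D₀ + K)⁻¹` and `det (D₀ + K)` at the tangent point of the
matrix entropy inequality. -/

namespace Vale.Agent.P358A
open Matrix Finset BigOperators
open scoped ComplexOrder

noncomputable section

variable {m n : Type*} [Fintype m] [DecidableEq m] [Fintype n] [DecidableEq n]

/-- Functional calculus on the eigenvalues of a Hermitian matrix. -/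
def fnM {X : Matrix m m ℂ} (hX : X.IsHermitian) (f : ℝ → ℝ) : Matrix m m ℂ :=
  (hX.eigenvectorUnitary : Matrix m m ℂ) * diagonal (fun i => ((f (hX.eigenvalues i) : ℝ) : ℂ)) *
    star (hX.eigenvectorUnitary : Matrix m m ℂ)

lemma U_mul_star {X : Matrix m m ℂ} (hX : X.IsHermitian) :
    (hX.eigenvectorUnitary : Matrix m m ℂ) * star (hX.eigenvectorUnitary : Matrix m m ℂ) = 1 :=
  (Matrix.mem_unitaryGroup_iff).1 hX.eigenvectorUnitary.2

lemma star_mul_U {X : Matrix m m ℂ} (hX : X.IsHermitian) :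
    star (hX.eigenvectorUnitary : Matrix m m ℂ) * (hX.eigenvectorUnitary : Matrix m m ℂ) = 1 :=
  (Matrix.mem_unitaryGroup_iff').1 hX.eigenvectorUnitary.2

lemma fnM_mul {X : Matrix m m ℂ} (hX : X.IsHermitian) (f g : ℝ → ℝ) :
    fnM hX f * fnM hX g = fnM hX (fun x => f x * g x) := by
  unfold fnM
  set U := (hX.eigenvectorUnitary : Matrix m m ℂ) with hU
  have h : star U * U = 1 := star_mul_U hX
  calc U * diagonal (fun i => ((f (hX.eigenvalues i) : ℝ) : ℂ)) * star U *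
        (U * diagonal (fun i => ((g (hX.eigenvalues i) : ℝ) : ℂ)) * star U)
      = U * diagonal (fun i => ((f (hX.eigenvalues i) : ℝ) : ℂ)) * (star U * U) *
        diagonal (fun i => ((g (hX.eigenvalues i) : ℝ) : ℂ)) * star U := by
        simp only [Matrix.mul_assoc]
    _ = U * (diagonal (fun i => ((f (hX.eigenvalues i) : ℝ) : ℂ)) *
        diagonal (fun i => ((g (hX.eigenvalues i) : ℝ) : ℂ))) * star U := by
        rw [h, Matrix.mul_one]
        simp only [Matrix.mul_assoc]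
    _ = _ := by
        rw [Matrix.diagonal_mul_diagonal]
        congr 3
        ext i
        push_cast
        rfl

lemma fnM_congr {X : Matrix m m ℂ} (hX : X.IsHermitian) {f g : ℝ → ℝ}
    (h : ∀ i, f (hX.eigenvalues i) = g (hX.eigenvalues i)) : fnM hX f = fnM hX g := by
  unfold fnM
  congr 3
  ext i
  rw [h]

lemma fnM_id {X : Matrix m m ℂ} (hX : X.IsHermitian) : fnM hX (fun x => x) = X := by
  have h := hX.spectral_theorem
  conv_rhs => rw [h]
  rfl

lemma fnM_const {X : Matrix m m ℂ} (hX : X.IsHermitian) (c : ℝ) :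
    fnM hX (fun _ => c) = ((c : ℝ) : ℂ) • (1 : Matrix m m ℂ) := by
  unfold fnM
  have : diagonal (fun _ : m => ((c : ℝ) : ℂ)) = ((c : ℝ) : ℂ) • (1 : Matrix m m ℂ) := by
    ext i j
    by_cases hij : i = j
    · subst hij; simp
    · simp [diagonal_apply_ne _ hij, Matrix.one_apply_ne hij]
  rw [this, Matrix.mul_smul, Matrix.smul_mul, Matrix.mul_one, U_mul_star]

lemma fnM_add {X : Matrix m m ℂ} (hX : X.IsHermitian) (f g : ℝ → ℝ) :
    fnM hX (fun x => f x + g x) = fnM hX f + fnM hX g := by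
  unfold fnM
  rw [← Matrix.add_mul, ← Matrix.mul_add, Matrix.diagonal_add]
  congr 3
  ext i
  push_cast
  rfl

lemma fnM_smul {X : Matrix m m ℂ} (hX : X.IsHermitian) (c : ℝ) (f : ℝ → ℝ) :
    fnM hX (fun x => c * f x) = ((c : ℝ) : ℂ) • fnM hX f := by
  unfold fnM
  have : diagonal (fun i => (((c * f (hX.eigenvalues i) : ℝ)) : ℂ)) =
      ((c : ℝ) : ℂ) • diagonal (fun i => ((f (hX.eigenvalues i) : ℝ) : ℂ)) := by
    ext i j
    by_cases hij : i = j
    · subst hij; simp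
    · simp [diagonal_apply_ne _ hij]
  rw [this, Matrix.mul_smul, Matrix.smul_mul]

lemma fnM_conjTranspose {X : Matrix m m ℂ} (hX : X.IsHermitian) (f : ℝ → ℝ) :
    (fnM hX f)ᴴ = fnM hX f := by
  unfold fnM
  rw [Matrix.conjTranspose_mul, Matrix.conjTranspose_mul, Matrix.mul_assoc]
  simp only [← star_eq_conjTranspose, star_star]
  congr 2
  ext i j
  by_cases hij : i = j
  · subst hij
    simp [star_eq_conjTranspose, Matrix.conjTranspose_apply]
  · have hji : j ≠ i := fun h => hij h.symm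
    simp [star_eq_conjTranspose, Matrix.conjTranspose_apply, diagonal_apply_ne _ hij,
      diagonal_apply_ne _ hji]

lemma fnM_det {X : Matrix m m ℂ} (hX : X.IsHermitian) (f : ℝ → ℝ) :
    (fnM hX f).det = ((∏ i, f (hX.eigenvalues i) : ℝ) : ℂ) := by
  unfold fnM
  rw [Matrix.det_mul_comm, ← Matrix.mul_assoc, star_mul_U, Matrix.one_mul, Matrix.det_diagonal]
  push_cast
  rfl

lemma fnM_trace_mul {X : Matrix m m ℂ} (hX : X.IsHermitian) (f : ℝ → ℝ) (Y : Matrix m m ℂ) :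
    (fnM hX f * Y).trace = ∑ i, ((f (hX.eigenvalues i) : ℝ) : ℂ) *
      (star (hX.eigenvectorUnitary : Matrix m m ℂ) * Y *
        (hX.eigenvectorUnitary : Matrix m m ℂ)) i i := by
  unfold fnM
  set U := (hX.eigenvectorUnitary : Matrix m m ℂ) with hU
  have : U * diagonal (fun i => ((f (hX.eigenvalues i) : ℝ) : ℂ)) * star U * Y =
      U * (diagonal (fun i => ((f (hX.eigenvalues i) : ℝ) : ℂ)) * (star U * Y)) := by
    simp only [Matrix.mul_assoc]
  rw [this, Matrix.trace_mul_comm, Matrix.mul_assoc, Matrix.trace]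
  refine Finset.sum_congr rfl fun i _ => ?_
  rw [Matrix.diag_apply, Matrix.diagonal_mul]

/-- Intertwining of the functional calculi of `A Aᴴ` and `Aᴴ A`. -/
lemma fnM_inter (A : Matrix m n ℂ) (hP : (A * Aᴴ).IsHermitian) (hQ : (Aᴴ * A).IsHermitian)
    (f : ℝ → ℝ) : A * fnM hQ f = fnM hP f * A := by
  set U := (hP.eigenvectorUnitary : Matrix m m ℂ) with hU
  set V := (hQ.eigenvectorUnitary : Matrix n n ℂ) with hV
  have hU1 : U * star U = 1 := U_mul_star hP
  have hU2 : star U * U = 1 := star_mul_U hP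
  have hV1 : V * star V = 1 := U_mul_star hQ
  have hV2 : star V * V = 1 := star_mul_U hQ
  set w : Matrix m n ℂ := star U * A * V with hw
  have hPd : A * Aᴴ = U * diagonal (fun i => ((hP.eigenvalues i : ℝ) : ℂ)) * star U :=
    (fnM_id hP).symm
  have hQd : Aᴴ * A = V * diagonal (fun i => ((hQ.eigenvalues i : ℝ) : ℂ)) * star V :=
    (fnM_id hQ).symm
  have hkey : diagonal (fun i => ((hP.eigenvalues i : ℝ) : ℂ)) * w =
      w * diagonal (fun j => ((hQ.eigenvalues j : ℝ) : ℂ)) := by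
    have h1 : diagonal (fun i => ((hP.eigenvalues i : ℝ) : ℂ)) = star U * (A * Aᴴ) * U := by
      have e : star U * (A * Aᴴ) * U =
          star U * (U * diagonal (fun i => ((hP.eigenvalues i : ℝ) : ℂ)) * star U) * U := by
        rw [← hPd]
      rw [e]
      calc diagonal (fun i => ((hP.eigenvalues i : ℝ) : ℂ))
          = (star U * U) * diagonal (fun i => ((hP.eigenvalues i : ℝ) : ℂ)) * (star U * U) := by
            rw [hU2]; simp
        _ = _ := by simp only [Matrix.mul_assoc]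
    have h2 : diagonal (fun j => ((hQ.eigenvalues j : ℝ) : ℂ)) = star V * (Aᴴ * A) * V := by
      have e : star V * (Aᴴ * A) * V =
          star V * (V * diagonal (fun j => ((hQ.eigenvalues j : ℝ) : ℂ)) * star V) * V := by
        rw [← hQd]
      rw [e]
      calc diagonal (fun j => ((hQ.eigenvalues j : ℝ) : ℂ))
          = (star V * V) * diagonal (fun j => ((hQ.eigenvalues j : ℝ) : ℂ)) * (star V * V) := by
            rw [hV2]; simp
        _ = _ := by simp only [Matrix.mul_assoc]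
    rw [h1, h2, hw]
    calc star U * (A * Aᴴ) * U * (star U * A * V)
        = star U * (A * Aᴴ) * (U * star U) * A * V := by simp only [Matrix.mul_assoc]
      _ = star U * A * (Aᴴ * A) * V := by
          rw [hU1, Matrix.mul_one]
          simp only [Matrix.mul_assoc]
      _ = star U * A * (V * star V) * (Aᴴ * A) * V := by
          rw [hV1, Matrix.mul_one]
      _ = _ := by simp only [Matrix.mul_assoc]
  have hentry : ∀ i j, ((hP.eigenvalues i : ℝ) : ℂ) * w i j = w i j * ((hQ.eigenvalues j : ℝ) : ℂ) := by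
    intro i j
    have := congrFun (congrFun hkey i) j
    rwa [Matrix.diagonal_mul, Matrix.mul_diagonal] at this
  have hkey2 : diagonal (fun i => ((f (hP.eigenvalues i) : ℝ) : ℂ)) * w =
      w * diagonal (fun j => ((f (hQ.eigenvalues j) : ℝ) : ℂ)) := by
    ext i j
    rw [Matrix.diagonal_mul, Matrix.mul_diagonal]
    by_cases h0 : w i j = 0
    · simp [h0]
    · have h3 : ((hP.eigenvalues i : ℝ) : ℂ) = ((hQ.eigenvalues j : ℝ) : ℂ) := by
        have := hentry i j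
        rw [mul_comm] at this
        exact mul_left_cancel₀ h0 this
      have h4 : hP.eigenvalues i = hQ.eigenvalues j := by exact_mod_cast h3
      rw [h4, mul_comm]
  unfold fnM
  rw [← hU, ← hV]
  calc A * (V * diagonal (fun j => ((f (hQ.eigenvalues j) : ℝ) : ℂ)) * star V)
      = (U * star U) * A * V * diagonal (fun j => ((f (hQ.eigenvalues j) : ℝ) : ℂ)) * star V := by
        rw [hU1, Matrix.one_mul]
        simp only [Matrix.mul_assoc]
    _ = U * (w * diagonal (fun j => ((f (hQ.eigenvalues j) : ℝ) : ℂ))) * star V := by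
        rw [hw]
        simp only [Matrix.mul_assoc]
    _ = U * (diagonal (fun i => ((f (hP.eigenvalues i) : ℝ) : ℂ)) * w) * star V := by rw [hkey2]
    _ = U * diagonal (fun i => ((f (hP.eigenvalues i) : ℝ) : ℂ)) * star U * A * (V * star V) := by
        rw [hw]
        simp only [Matrix.mul_assoc]
    _ = _ := by rw [hV1, Matrix.mul_one]

lemma fnM_inter' (A : Matrix m n ℂ) (hP : (A * Aᴴ).IsHermitian) (hQ : (Aᴴ * A).IsHermitian)
    (f : ℝ → ℝ) : Aᴴ * fnM hP f = fnM hQ f * Aᴴ := by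
  have h := congrArg Matrix.conjTranspose (fnM_inter A hP hQ f)
  rw [Matrix.conjTranspose_mul, Matrix.conjTranspose_mul, fnM_conjTranspose, fnM_conjTranspose] at h
  exact h.symm

/-- The scalar denominator. -/
def Dl (c1 c2 t x : ℝ) : ℝ := (c1 * x + t) * (c2 * x + t) + t * x

lemma Dl_pos {c1 c2 t x : ℝ} (h1 : 0 ≤ c1) (h2 : 0 ≤ c2) (ht : 0 < t) (hx : 0 ≤ x) :
    0 < Dl c1 c2 t x := by
  unfold Dl
  positivity

/-- The diagonal part at the tangent point. -/
def D0m (A : Matrix m n ℂ) (c1 c2 t : ℝ) : Matrix (m ⊕ n) (m ⊕ n) ℂ :=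
  fromBlocks (((c1 : ℝ) : ℂ) • (A * Aᴴ) + ((t : ℝ) : ℂ) • 1) 0 0
    (((c2 : ℝ) : ℂ) • (Aᴴ * A) + ((t : ℝ) : ℂ) • 1)

/-- The skew part. -/
def Ktm (A : Matrix m n ℂ) (t : ℝ) : Matrix (m ⊕ n) (m ⊕ n) ℂ :=
  ((Real.sqrt t : ℝ) : ℂ) • fromBlocks 0 A (-Aᴴ) 0

lemma eig_P_nonneg (A : Matrix m n ℂ) (hP : (A * Aᴴ).IsHermitian) (i : m) :
    0 ≤ hP.eigenvalues i :=
  (Matrix.posSemidef_self_mul_conjTranspose A).eigenvalues_nonneg i

lemma eig_Q_nonneg (A : Matrix m n ℂ) (hQ : (Aᴴ * A).IsHermitian) (i : n) :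
    0 ≤ hQ.eigenvalues i :=
  (Matrix.posSemidef_conjTranspose_mul_self A).eigenvalues_nonneg i

lemma fnM_lin {X : Matrix m m ℂ} (hX : X.IsHermitian) (c t : ℝ) :
    fnM hX (fun x => c * x + t) = ((c : ℝ) : ℂ) • X + ((t : ℝ) : ℂ) • 1 := by
  rw [fnM_add hX (fun x => c * x) (fun _ => t), fnM_smul hX c (fun x => x), fnM_id, fnM_const]

lemma mul_fnM_self {X : Matrix m m ℂ} (hX : X.IsHermitian) (f : ℝ → ℝ) :
    X * fnM hX f = fnM hX (fun x => x * f x) := by
  have h := fnM_mul hX (fun x => x) f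
  rwa [fnM_id] at h

lemma fnM_mul_self {X : Matrix m m ℂ} (hX : X.IsHermitian) (f : ℝ → ℝ) :
    fnM hX f * X = fnM hX (fun x => x * f x) := by
  have h := fnM_mul hX f (fun x => x)
  rw [fnM_id] at h
  rw [h]
  refine fnM_congr hX fun i => ?_
  ring

lemma fnM_one {X : Matrix m m ℂ} (hX : X.IsHermitian) : fnM hX (fun _ => 1) = 1 := by
  rw [fnM_const]
  simp

lemma csqrt_mul {t : ℝ} (ht : 0 ≤ t) :
    ((Real.sqrt t : ℝ) : ℂ) * ((Real.sqrt t : ℝ) : ℂ) = (t : ℂ) := by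
  rw [← Complex.ofReal_mul, Real.mul_self_sqrt ht]

/-- The explicit inverse at the tangent point. -/
def Rinv (A : Matrix m n ℂ) (hP : (A * Aᴴ).IsHermitian) (hQ : (Aᴴ * A).IsHermitian)
    (c1 c2 t : ℝ) : Matrix (m ⊕ n) (m ⊕ n) ℂ :=
  fromBlocks (fnM hP fun x => (c2 * x + t) / Dl c1 c2 t x)
    (-(((Real.sqrt t : ℝ) : ℂ) • (fnM hP (fun x => 1 / Dl c1 c2 t x) * A)))
    (((Real.sqrt t : ℝ) : ℂ) • (Aᴴ * fnM hP (fun x => 1 / Dl c1 c2 t x)))
    (fnM hQ fun x => (c1 * x + t) / Dl c1 c2 t x)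

lemma D0K_eq (A : Matrix m n ℂ) (hP : (A * Aᴴ).IsHermitian) (hQ : (Aᴴ * A).IsHermitian)
    (c1 c2 t : ℝ) :
    D0m A c1 c2 t + Ktm A t =
      fromBlocks (fnM hP fun x => c1 * x + t) (((Real.sqrt t : ℝ) : ℂ) • A)
        (-(((Real.sqrt t : ℝ) : ℂ) • Aᴴ)) (fnM hQ fun x => c2 * x + t) := by
  unfold D0m Ktm
  rw [fnM_lin, fnM_lin, fromBlocks_smul, fromBlocks_add]
  simp

/-- `(D₀ + K) R = 1`. -/
lemma D0K_mul_Rinv (A : Matrix m n ℂ) (hP : (A * Aᴴ).IsHermitian) (hQ : (Aᴴ * A).IsHermitian)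
    {c1 c2 t : ℝ} (h1 : 0 ≤ c1) (h2 : 0 ≤ c2) (ht : 0 < t) :
    (D0m A c1 c2 t + Ktm A t) * Rinv A hP hQ c1 c2 t = 1 := by
  rw [D0K_eq A hP hQ, Rinv, fromBlocks_multiply, ← fromBlocks_one]
  set s : ℂ := ((Real.sqrt t : ℝ) : ℂ) with hs
  have hss : s * s = (t : ℂ) := csqrt_mul ht.le
  have hP0 := eig_P_nonneg A hP
  have hQ0 := eig_Q_nonneg A hQ
  congr 1
  · -- (1,1)
    have e : (s • A) * (s • (Aᴴ * fnM hP fun x => 1 / Dl c1 c2 t x)) =
        ((t : ℝ) : ℂ) • fnM hP (fun x => x * (1 / Dl c1 c2 t x)) := by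
      rw [Matrix.smul_mul, Matrix.mul_smul, smul_smul, hss, ← Matrix.mul_assoc, mul_fnM_self]
    rw [e, fnM_mul, ← fnM_smul, ← fnM_add, ← fnM_one hP]
    refine fnM_congr hP fun i => ?_
    have hD := Dl_pos h1 h2 ht (hP0 i)
    have hD' := hD.ne'
    field_simp
    unfold Dl
    ring
  · -- (1,2)
    have e1 : fnM hP (fun x => c1 * x + t) *
        -(s • (fnM hP (fun x => 1 / Dl c1 c2 t x) * A)) =
        -(s • (fnM hP (fun x => (c1 * x + t) * (1 / Dl c1 c2 t x)) * A)) := by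
      rw [Matrix.mul_neg, Matrix.mul_smul, ← Matrix.mul_assoc, fnM_mul]
    have e2 : (s • A) * fnM hQ (fun x => (c1 * x + t) / Dl c1 c2 t x) =
        s • (fnM hP (fun x => (c1 * x + t) * (1 / Dl c1 c2 t x)) * A) := by
      rw [Matrix.smul_mul, fnM_inter A hP hQ]
      congr 2
      refine fnM_congr hP fun i => ?_
      ring
    rw [e1, e2]
    simp
  · -- (2,1)
    have e1 : (-(s • Aᴴ)) * fnM hP (fun x => (c2 * x + t) / Dl c1 c2 t x) =
        -(s • (Aᴴ * fnM hP (fun x => (c2 * x + t) * (1 / Dl c1 c2 t x)))) := by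
      rw [Matrix.neg_mul, Matrix.smul_mul]
      congr 3
      refine fnM_congr hP fun i => ?_
      ring
    have e2 : fnM hQ (fun x => c2 * x + t) * (s • (Aᴴ * fnM hP fun x => 1 / Dl c1 c2 t x)) =
        s • (Aᴴ * fnM hP (fun x => (c2 * x + t) * (1 / Dl c1 c2 t x))) := by
      rw [Matrix.mul_smul, ← Matrix.mul_assoc, ← fnM_inter' A hP hQ, Matrix.mul_assoc, fnM_mul]
    rw [e1, e2]
    simp
  · -- (2,2)
    have e1 : (-(s • Aᴴ)) * -(s • (fnM hP (fun x => 1 / Dl c1 c2 t x) * A)) =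
        ((t : ℝ) : ℂ) • fnM hQ (fun x => x * (1 / Dl c1 c2 t x)) := by
      rw [Matrix.neg_mul, Matrix.mul_neg, neg_neg, Matrix.smul_mul, Matrix.mul_smul, smul_smul, hss,
        ← Matrix.mul_assoc, fnM_inter' A hP hQ, Matrix.mul_assoc, fnM_mul_self]
    rw [e1, fnM_mul, ← fnM_smul, ← fnM_add, ← fnM_one hQ]
    refine fnM_congr hQ fun i => ?_
    have hD := Dl_pos h1 h2 ht (hQ0 i)
    have hD' := hD.ne'
    field_simp
    unfold Dl
    ring

/-- The inverse at the tangent point. -/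
lemma D0K_inv (A : Matrix m n ℂ) (hP : (A * Aᴴ).IsHermitian) (hQ : (Aᴴ * A).IsHermitian)
    {c1 c2 t : ℝ} (h1 : 0 ≤ c1) (h2 : 0 ≤ c2) (ht : 0 < t) :
    (D0m A c1 c2 t + Ktm A t)⁻¹ = Rinv A hP hQ c1 c2 t :=
  Matrix.inv_eq_right_inv (D0K_mul_Rinv A hP hQ h1 h2 ht)

lemma fnM_lin_mul_inv {X : Matrix m m ℂ} (hX : X.IsHermitian) (c t : ℝ)
    (h : ∀ i, c * hX.eigenvalues i + t ≠ 0) :
    fnM hX (fun x => c * x + t) * fnM hX (fun x => 1 / (c * x + t)) = 1 := by
  rw [fnM_mul, ← fnM_one hX]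
  refine fnM_congr hX fun i => ?_
  have := h i
  field_simp

lemma fnM_inv_mul_lin {X : Matrix m m ℂ} (hX : X.IsHermitian) (c t : ℝ)
    (h : ∀ i, c * hX.eigenvalues i + t ≠ 0) :
    fnM hX (fun x => 1 / (c * x + t)) * fnM hX (fun x => c * x + t) = 1 := by
  rw [fnM_mul, ← fnM_one hX]
  refine fnM_congr hX fun i => ?_
  have := h i
  field_simp

lemma D0_inv (A : Matrix m n ℂ) (hP : (A * Aᴴ).IsHermitian) (hQ : (Aᴴ * A).IsHermitian)
    {c1 c2 t : ℝ} (h1 : 0 ≤ c1) (h2 : 0 ≤ c2) (ht : 0 < t) :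
    (D0m A c1 c2 t)⁻¹ = fromBlocks (fnM hP fun x => 1 / (c1 * x + t)) 0 0
      (fnM hQ fun x => 1 / (c2 * x + t)) := by
  refine Matrix.inv_eq_right_inv ?_
  unfold D0m
  rw [← fnM_lin hP, ← fnM_lin hQ, fromBlocks_multiply, ← fromBlocks_one]
  have hp : ∀ i, c1 * hP.eigenvalues i + t ≠ 0 := fun i => by
    have := eig_P_nonneg A hP i
    positivity
  have hq : ∀ i, c2 * hQ.eigenvalues i + t ≠ 0 := fun i => by
    have := eig_Q_nonneg A hQ i
    positivity
  rw [fnM_lin_mul_inv hP c1 t hp, fnM_lin_mul_inv hQ c2 t hq]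
  simp

lemma trace_fromBlocks' (a : Matrix m m ℂ) (b : Matrix m n ℂ) (c : Matrix n m ℂ)
    (d : Matrix n n ℂ) : (fromBlocks a b c d).trace = a.trace + d.trace := by
  simp [Matrix.trace, Fintype.sum_sum_type]

lemma re_fnM_trace {X : Matrix m m ℂ} (hX : X.IsHermitian) (f : ℝ → ℝ) (Y : Matrix m m ℂ) :
    (fnM hX f * Y).trace.re = ∑ i, f (hX.eigenvalues i) *
      ((star (hX.eigenvectorUnitary : Matrix m m ℂ) * Y *
        (hX.eigenvectorUnitary : Matrix m m ℂ)) i i).re := by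
  rw [fnM_trace_mul, Complex.re_sum]
  refine Finset.sum_congr rfl fun i _ => ?_
  rw [Complex.re_ofReal_mul]

/-- **(E2)**: the trace terms at the tangent point. -/
theorem eval_trace (A : Matrix m n ℂ) (hP : (A * Aᴴ).IsHermitian) (hQ : (Aᴴ * A).IsHermitian)
    {c1 c2 t : ℝ} (h1 : 0 ≤ c1) (h2 : 0 ≤ c2) (ht : 0 < t) (X : Matrix m m ℂ) (Y : Matrix n n ℂ) :
    (trace ((D0m A c1 c2 t + Ktm A t)⁻¹ * fromBlocks X 0 0 Y)).re -
        (trace ((D0m A c1 c2 t)⁻¹ * fromBlocks X 0 0 Y)).re =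
      ∑ i, ((c2 * hP.eigenvalues i + t) / Dl c1 c2 t (hP.eigenvalues i) -
          1 / (c1 * hP.eigenvalues i + t)) *
        ((star (hP.eigenvectorUnitary : Matrix m m ℂ) * X *
          (hP.eigenvectorUnitary : Matrix m m ℂ)) i i).re +
      ∑ j, ((c1 * hQ.eigenvalues j + t) / Dl c1 c2 t (hQ.eigenvalues j) -
          1 / (c2 * hQ.eigenvalues j + t)) *
        ((star (hQ.eigenvectorUnitary : Matrix n n ℂ) * Y *
          (hQ.eigenvectorUnitary : Matrix n n ℂ)) j j).re := by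
  rw [D0K_inv A hP hQ h1 h2 ht, D0_inv A hP hQ h1 h2 ht, Rinv, fromBlocks_multiply,
    fromBlocks_multiply, trace_fromBlocks', trace_fromBlocks']
  simp only [Matrix.mul_zero, add_zero, Matrix.zero_mul, zero_add, Complex.add_re, re_fnM_trace]
  simp only [sub_mul, Finset.sum_sub_distrib]
  ring

/-- **(E1)**: the determinant term at the tangent point. -/
theorem eval_det (A : Matrix m n ℂ) (hP : (A * Aᴴ).IsHermitian) (hQ : (Aᴴ * A).IsHermitian)
    {c1 c2 t : ℝ} (h1 : 0 ≤ c1) (h2 : 0 ≤ c2) (ht : 0 < t) :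
    Real.log (D0m A c1 c2 t + Ktm A t).det.re - Real.log (D0m A c1 c2 t).det.re =
      ∑ i, Real.log (Dl c1 c2 t (hP.eigenvalues i) /
        ((c1 * hP.eigenvalues i + t) * (c2 * hP.eigenvalues i + t))) := by
  have hp : ∀ i, 0 < c1 * hP.eigenvalues i + t := fun i => by
    have := eig_P_nonneg A hP i
    positivity
  have hp2 : ∀ i, 0 < c2 * hP.eigenvalues i + t := fun i => by
    have := eig_P_nonneg A hP i
    positivity
  have hq : ∀ i, 0 < c2 * hQ.eigenvalues i + t := fun i => by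
    have := eig_Q_nonneg A hQ i
    positivity
  have hDl : ∀ i, 0 < Dl c1 c2 t (hP.eigenvalues i) := fun i =>
    Dl_pos h1 h2 ht (eig_P_nonneg A hP i)
  -- determinant of `D₀`
  have hd0 : (D0m A c1 c2 t).det = (((∏ i, (c1 * hP.eigenvalues i + t)) *
      (∏ j, (c2 * hQ.eigenvalues j + t)) : ℝ) : ℂ) := by
    unfold D0m
    rw [← fnM_lin hP, ← fnM_lin hQ, Matrix.det_fromBlocks_zero₂₁, fnM_det, fnM_det]
    push_cast
    rfl
  -- determinant of `D₀ + K`
  letI inv : Invertible (fnM hQ fun x => c2 * x + t) :=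
    ⟨fnM hQ fun x => 1 / (c2 * x + t), fnM_inv_mul_lin hQ c2 t fun i => (hq i).ne',
      fnM_lin_mul_inv hQ c2 t fun i => (hq i).ne'⟩
  have hd1 : (D0m A c1 c2 t + Ktm A t).det = (((∏ j, (c2 * hQ.eigenvalues j + t)) *
      (∏ i, (Dl c1 c2 t (hP.eigenvalues i) / (c2 * hP.eigenvalues i + t))) : ℝ) : ℂ) := by
    rw [D0K_eq A hP hQ, Matrix.det_fromBlocks₂₂, fnM_det]
    have hS : fnM hP (fun x => c1 * x + t) -
        (((Real.sqrt t : ℝ) : ℂ) • A) * ⅟(fnM hQ fun x => c2 * x + t) *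
          (-(((Real.sqrt t : ℝ) : ℂ) • Aᴴ)) =
        fnM hP (fun x => Dl c1 c2 t x / (c2 * x + t)) := by
      have hinv : ⅟(fnM hQ fun x => c2 * x + t) = fnM hQ fun x => 1 / (c2 * x + t) := rfl
      rw [hinv, Matrix.smul_mul, Matrix.mul_neg, Matrix.smul_mul, Matrix.mul_smul, smul_smul,
        csqrt_mul ht.le, fnM_inter A hP hQ, Matrix.mul_assoc, fnM_mul_self, sub_neg_eq_add,
        ← fnM_smul, ← fnM_add]
      refine fnM_congr hP fun i => ?_
      have h3 := (hp2 i).ne'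
      unfold Dl
      generalize hP.eigenvalues i = x at h3 ⊢
      have h3' : x * c2 + t ≠ 0 := by rwa [mul_comm] at h3
      rw [eq_div_iff h3]
      field_simp
      try ring
    rw [hS, fnM_det]
    push_cast
    rfl
  rw [hd0, hd1, Complex.ofReal_re, Complex.ofReal_re]
  have hne1 : (∏ j, (c2 * hQ.eigenvalues j + t)) ≠ 0 :=
    Finset.prod_ne_zero_iff.mpr fun j _ => (hq j).ne'
  have hne2 : (∏ i, (Dl c1 c2 t (hP.eigenvalues i) / (c2 * hP.eigenvalues i + t))) ≠ 0 :=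
    Finset.prod_ne_zero_iff.mpr fun i _ => (div_pos (hDl i) (hp2 i)).ne'
  have hne3 : (∏ i, (c1 * hP.eigenvalues i + t)) ≠ 0 :=
    Finset.prod_ne_zero_iff.mpr fun i _ => (hp i).ne'
  rw [Real.log_mul hne1 hne2, Real.log_mul hne3 hne1,
    Real.log_prod (fun i _ => (div_pos (hDl i) (hp2 i)).ne'),
    Real.log_prod (fun i _ => (hp i).ne')]
  have : ∀ i, Real.log (Dl c1 c2 t (hP.eigenvalues i) /
        ((c1 * hP.eigenvalues i + t) * (c2 * hP.eigenvalues i + t))) =
      Real.log (Dl c1 c2 t (hP.eigenvalues i) / (c2 * hP.eigenvalues i + t)) -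
        Real.log (c1 * hP.eigenvalues i + t) := by
    intro i
    rw [← Real.log_div (div_pos (hDl i) (hp2 i)).ne' (hp i).ne']
    congr 1
    have h3 := (hp i).ne'
    have h4 := (hp2 i).ne'
    field_simp
  simp only [this, Finset.sum_sub_distrib]
  ring

end

end Vale.Agent.P358A
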