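import Mathlib
import Vale.Agent.P358A.Holevo

namespace Vale.Agent.P358A
open Vale.Agent.P358h5 Matrix Finset BigOperators
open scoped ComplexOrder ComplexConjugate

noncomputable section

variable {γ : ℝ}

/-- Basis state of one qubit. -/
def c1 (v : Fin 2) : Qb 1 := fun _ => v

def e1 : Qb 1 ≃ Fin 2 where
  toFun x := x 0
  invFun v := c1 v
  left_inv x := by
    ext i
    fin_cases i
    rfl
  right_inv _ := rfl

lemma su_two (T : Matrix (Qb 1) (Qb 1) ℂ) (hH : T.IsHermitian) (x : ℝ)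
    (htr : T (c1 0) (c1 0) + T (c1 1) (c1 1) = 1)
    (hdet : T (c1 0) (c1 0) * T (c1 1) (c1 1) - T (c1 0) (c1 1) * T (c1 1) (c1 0) =
      ((x * (1 - x) : ℝ) : ℂ)) :
    ∑ i, Real.negMulLog (hH.eigenvalues i) = Real.binEntropy x := by
  classical
  set T' : Matrix (Fin 2) (Fin 2) ℂ := Matrix.reindex e1 e1 T with hT'
  have hent : ∀ i j, T' i j = T (c1 i) (c1 j) := fun i j => rfl
  have hchar : T.charpoly = (Multiset.map (fun a => Polynomial.X - Polynomial.C a)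
      ({(x : ℂ), ((1 - x : ℝ) : ℂ)} : Multiset ℂ)).prod := by
    rw [← Matrix.charpoly_reindex e1 T, ← hT', Matrix.charpoly_fin_two, Matrix.trace_fin_two,
      Matrix.det_fin_two]
    simp only [hent, htr, hdet]
    simp only [Multiset.insert_eq_cons, Multiset.map_cons, Multiset.map_singleton,
      Multiset.prod_cons, Multiset.prod_singleton]
    push_cast
    simp only [map_one, map_sub, map_mul]
    ring
  have hroots := hH.roots_charpoly_eq_eigenvalues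
  rw [hchar, Polynomial.roots_multiset_prod_X_sub_C] at hroots
  have h2 := congrArg (fun m : Multiset ℂ => (Multiset.map (fun z : ℂ => Real.negMulLog z.re) m).sum) hroots
  simp only [Multiset.insert_eq_cons, Multiset.map_cons, Multiset.map_singleton, Multiset.sum_cons,
    Multiset.sum_singleton, Multiset.map_map, Complex.ofReal_re] at h2
  rw [Real.binEntropy_eq_negMulLog_add_negMulLog_one_sub, h2, Finset.sum_eq_multiset_sum]
  congr 1

lemma sum_qb1 {α : Type*} [AddCommMonoid α] (f : Qb 1 → α) : ∑ x, f x = f (c1 0) + f (c1 1) := by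
  rw [← e1.symm.sum_comp, Fin.sum_univ_two]
  rfl

lemma gadcN_c1 (X : Matrix (Qb 1) (Qb 1) ℂ) (i j : Fin 2) :
    gadcN γ 0 1 X (c1 i) (c1 j) =
      ∑ a : Fin 2, ∑ b : Fin 2, coef γ 0 i j a b * X (c1 a) (c1 b) := by
  simp only [gadcN, Matrix.of_apply, sum_qb1, Fin.sum_univ_two]
  simp only [c1, Fin.prod_univ_one]

lemma gadcN_entries (X : Matrix (Qb 1) (Qb 1) ℂ) :
    gadcN γ 0 1 X (c1 0) (c1 0) = X (c1 0) (c1 0) + (γ : ℂ) * X (c1 1) (c1 1) ∧
    gadcN γ 0 1 X (c1 0) (c1 1) = ((Real.sqrt (1 - γ) : ℝ) : ℂ) * X (c1 0) (c1 1) ∧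
    gadcN γ 0 1 X (c1 1) (c1 0) = ((Real.sqrt (1 - γ) : ℝ) : ℂ) * X (c1 1) (c1 0) ∧
    gadcN γ 0 1 X (c1 1) (c1 1) = ((1 - γ : ℝ) : ℂ) * X (c1 1) (c1 1) := by
  obtain ⟨h1, h2, h3, h4, h5, h6, h7, h8, h9, h10, h11, h12, h13, h14, h15, h16⟩ := coef_table γ 0
  refine ⟨?_, ?_, ?_, ?_⟩ <;> rw [gadcN_c1] <;> simp only [Fin.sum_univ_two] <;>
    simp only [h1, h2, h3, h4, h5, h6, h7, h8, h9, h10, h11, h12, h13, h14, h15, h16] <;>
    simp

/-- Amplitudes of the two input states. -/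
def psi (q s : ℝ) (x : Qb 1) : ℂ :=
  if x 0 = 0 then ((Real.sqrt (1 - q) : ℝ) : ℂ) else ((s * Real.sqrt q : ℝ) : ℂ)

def rhoS (q s : ℝ) : Matrix (Qb 1) (Qb 1) ℂ := vecMulVec (psi q s) (star (psi q s))

lemma rhoS_psd (q s : ℝ) : (rhoS q s).PosSemidef := posSemidef_vecMulVec_self_star _

lemma psi_c0 (q s : ℝ) : psi q s (c1 0) = ((Real.sqrt (1 - q) : ℝ) : ℂ) := by
  simp [psi, c1]

lemma psi_c1 (q s : ℝ) : psi q s (c1 1) = ((s * Real.sqrt q : ℝ) : ℂ) := by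
  simp [psi, c1]

lemma rhoS_apply (q s : ℝ) (x y : Qb 1) : rhoS q s x y = psi q s x * conj (psi q s y) := by
  simp [rhoS, vecMulVec_apply]

lemma rhoS_trace {q s : ℝ} (hq0 : 0 ≤ q) (hq1 : q ≤ 1) (hs : s ^ 2 = 1) : (rhoS q s).trace = 1 := by
  simp only [Matrix.trace, Matrix.diag_apply, sum_qb1, rhoS_apply, psi_c0, psi_c1, Complex.conj_ofReal]
  rw [← Complex.ofReal_mul, ← Complex.ofReal_mul, ← Complex.ofReal_add]
  have h1 := Real.mul_self_sqrt (show 0 ≤ 1 - q by linarith)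
  have h2 := Real.mul_self_sqrt hq0
  have : Real.sqrt (1 - q) * Real.sqrt (1 - q) + s * Real.sqrt q * (s * Real.sqrt q) = 1 := by
    rw [h1]
    have : s * Real.sqrt q * (s * Real.sqrt q) = s ^ 2 * (Real.sqrt q * Real.sqrt q) := by ring
    rw [this, hs, h2]
    ring
  rw [this]
  simp

/-- The single letter ensemble attains `h((1-γ) q) - E(c q)`. -/
theorem single_letter (h0 : 0 < γ) (h1 : γ < 1) {q : ℝ} (hq0 : 0 ≤ q) (hq1 : q ≤ 1) :
    ∃ (p : Fin 2 → ℝ) (ρ : Fin 2 → Matrix (Qb 1) (Qb 1) ℂ),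
      (∀ a, 0 ≤ p a) ∧ ∑ a, p a = 1 ∧ (∀ a, (ρ a).PosSemidef) ∧ (∀ a, (ρ a).trace = 1) ∧
      holevoN γ 0 1 p ρ =
        (Real.binEntropy ((1 - γ) * q) - Eent (cc γ * q)) / Real.log 2 := by
  classical
  set s : Fin 2 → ℝ := fun a => if a = 0 then 1 else -1 with hsdef
  have hs2 : ∀ a, s a ^ 2 = 1 := by
    intro a
    simp only [hsdef]
    split_ifs <;> norm_num
  set ρ : Fin 2 → Matrix (Qb 1) (Qb 1) ℂ := fun a => rhoS q (s a) with hρdef
  have hρ : ∀ a, (ρ a).PosSemidef := fun a => rhoS_psd _ _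
  have hρtr : ∀ a, (ρ a).trace = 1 := fun a => rhoS_trace hq0 hq1 (hs2 a)
  refine ⟨fun _ => 1 / 2, ρ, fun _ => by norm_num, by norm_num, hρ, hρtr, ?_⟩
  set a0 := Real.sqrt (1 - q) with ha0
  set b0 := Real.sqrt q with hb0
  have ha2 : a0 * a0 = 1 - q := Real.mul_self_sqrt (by linarith)
  have hb2 : b0 * b0 = q := Real.mul_self_sqrt hq0
  set r := Real.sqrt (1 - γ) with hr
  have hr2 : r * r = 1 - γ := Real.mul_self_sqrt (by linarith)
  have hT : ∀ a, (gadcN γ 0 1 (ρ a)).PosSemidef := fun a =>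
    gadcN_psd h0.le h1.le le_rfl zero_le_one 1 (ρ a) (hρ a)
  -- entries of the outputs
  have hX : ∀ a, ρ a (c1 0) (c1 0) = ((a0 * a0 : ℝ) : ℂ) ∧
      ρ a (c1 0) (c1 1) = ((a0 * (s a * b0) : ℝ) : ℂ) ∧
      ρ a (c1 1) (c1 0) = ((s a * b0 * a0 : ℝ) : ℂ) ∧
      ρ a (c1 1) (c1 1) = ((s a * b0 * (s a * b0) : ℝ) : ℂ) := by
    intro a
    simp only [hρdef, rhoS_apply, psi_c0, psi_c1, Complex.conj_ofReal]
    refine ⟨?_, ?_, ?_, ?_⟩ <;> push_cast <;> ring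
  have hsq : ∀ a, s a * b0 * (s a * b0) = q := by
    intro a
    have : s a * b0 * (s a * b0) = s a ^ 2 * (b0 * b0) := by ring
    rw [this, hs2, hb2, one_mul]
  have hTa : ∀ a,
      gadcN γ 0 1 (ρ a) (c1 0) (c1 0) = ((1 - q + γ * q : ℝ) : ℂ) ∧
      gadcN γ 0 1 (ρ a) (c1 0) (c1 1) = ((r * (a0 * (s a * b0)) : ℝ) : ℂ) ∧
      gadcN γ 0 1 (ρ a) (c1 1) (c1 0) = ((r * (s a * b0 * a0) : ℝ) : ℂ) ∧
      gadcN γ 0 1 (ρ a) (c1 1) (c1 1) = (((1 - γ) * q : ℝ) : ℂ) := by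
    intro a
    obtain ⟨e1', e2', e3', e4'⟩ := gadcN_entries (γ := γ) (ρ a)
    obtain ⟨x1, x2, x3, x4⟩ := hX a
    rw [e1', e2', e3', e4', x1, x2, x3, x4, hsq, ha2]
    refine ⟨?_, ?_, ?_, ?_⟩ <;> push_cast <;> ring
  -- entropy of each output
  have hEnt : ∀ a, ∑ i, Real.negMulLog ((hT a).isHermitian.eigenvalues i) = Eent (cc γ * q) := by
    intro a
    obtain ⟨t1, t2, t3, t4⟩ := hTa a
    have hcc : (cc γ) ^ 2 = 4 * (γ * (1 - γ)) := by
      unfold cc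
      rw [mul_pow, Real.sq_sqrt (by nlinarith)]
      norm_num
    have hle : (cc γ * q) ^ 2 ≤ 1 := by
      have h3 := cc_le_one γ
      have h4 := cc_nonneg γ
      have h5 : cc γ * q ≤ 1 := by nlinarith
      have h6 : 0 ≤ cc γ * q := mul_nonneg h4 hq0
      nlinarith
    have hsr := Real.mul_self_sqrt (show 0 ≤ 1 - (cc γ * q) ^ 2 by linarith)
    set u := Real.sqrt (1 - (cc γ * q) ^ 2) with hu
    have hdet : gadcN γ 0 1 (ρ a) (c1 0) (c1 0) * gadcN γ 0 1 (ρ a) (c1 1) (c1 1) -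
        gadcN γ 0 1 (ρ a) (c1 0) (c1 1) * gadcN γ 0 1 (ρ a) (c1 1) (c1 0) =
        ((((1 + u) / 2) * (1 - (1 + u) / 2) : ℝ) : ℂ) := by
      rw [t1, t2, t3, t4, ← Complex.ofReal_mul, ← Complex.ofReal_mul, ← Complex.ofReal_sub]
      congr 1
      have e : r * (a0 * (s a * b0)) * (r * (s a * b0 * a0)) =
          (r * r) * (a0 * a0) * (s a * b0 * (s a * b0)) := by ring
      rw [e, hr2, ha2, hsq]
      have e2 : (1 + u) / 2 * (1 - (1 + u) / 2) = (1 - u * u) / 4 := by ring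
      rw [e2, hsr, mul_pow, hcc]
      ring
    have htr : gadcN γ 0 1 (ρ a) (c1 0) (c1 0) + gadcN γ 0 1 (ρ a) (c1 1) (c1 1) = 1 := by
      rw [t1, t4, ← Complex.ofReal_add]
      have : 1 - q + γ * q + (1 - γ) * q = 1 := by ring
      rw [this]
      simp
    have := su_two _ (hT a).isHermitian ((1 + u) / 2) htr hdet
    rw [this]
    rfl
  -- the average
  set B : Matrix (Qb 1) (Qb 1) ℂ := ∑ a, (((1 / 2 : ℝ) : ℝ) : ℂ) • gadcN γ 0 1 (ρ a) with hB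
  have hBH : B.IsHermitian := by
    have : B.PosSemidef := Matrix.posSemidef_sum _ fun a _ =>
      (hT a).smul (Complex.zero_le_real.mpr (by norm_num))
    exact this.isHermitian
  have hBe : ∀ x y, B x y = ((1 / 2 : ℝ) : ℂ) * gadcN γ 0 1 (ρ 0) x y +
      ((1 / 2 : ℝ) : ℂ) * gadcN γ 0 1 (ρ 1) x y := by
    intro x y
    simp [hB, Fin.sum_univ_two]
  have hEntB : ∑ i, Real.negMulLog (hBH.eigenvalues i) = Real.binEntropy ((1 - γ) * q) := by
    obtain ⟨t1, t2, t3, t4⟩ := hTa 0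
    obtain ⟨u1, u2, u3, u4⟩ := hTa 1
    have hs0 : s 0 = 1 := by simp [hsdef]
    have hs1 : s 1 = -1 := by simp [hsdef]
    rw [hs0] at t2 t3
    rw [hs1] at u2 u3
    refine su_two B hBH _ ?_ ?_
    · rw [hBe, hBe, t1, t4, u1, u4]
      push_cast
      ring
    · rw [hBe, hBe, hBe, hBe, t1, t2, t3, t4, u1, u2, u3, u4]
      push_cast
      ring
  have hgoal : holevoN γ 0 1 (fun _ => 1 / 2) ρ =
      (∑ i, Real.negMulLog (hBH.eigenvalues i)) / Real.log 2 -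
        ∑ a, (1 / 2 : ℝ) * ((∑ i, Real.negMulLog ((hT a).isHermitian.eigenvalues i)) / Real.log 2) := by
    have : holevoN γ 0 1 (fun _ => 1 / 2) ρ = vnEntropy B - ∑ a, (1 / 2 : ℝ) * vnEntropy (gadcN γ 0 1 (ρ a)) := rfl
    rw [this, vnEntropy, dif_pos hBH, Finset.sum_div]
    congr 1
    refine Finset.sum_congr rfl fun a _ => ?_
    rw [vnEntropy, dif_pos (hT a).isHermitian, Finset.sum_div]
  rw [hgoal, hEntB]
  simp only [hEnt, Fin.sum_univ_two]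
  ring

end

end Vale.Agent.P358A
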