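import Mathlib
import Vale.Agent.P358A.SingleLetter

namespace Vale.Agent.P358A
open Vale.Agent.P358h5 Matrix Finset BigOperators
open scoped ComplexOrder

noncomputable section

variable {γ : ℝ}

/-- The single letter objective in bits. -/
def gainAD (γ q : ℝ) : ℝ := (Real.binEntropy ((1 - γ) * q) - Eent (cc γ * q)) / Real.log 2

lemma continuous_gainAD (γ : ℝ) : Continuous (gainAD γ) := by
  unfold gainAD
  refine Continuous.div_const (Continuous.sub ?_ ?_) _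
  · exact Real.binEntropy_continuous.comp (by fun_prop)
  · exact continuous_Eent.comp (by fun_prop)

/-- From the pointwise output entropy bound to the capacity formula. -/
theorem capacity_of_entropy_bound (h0 : 0 < γ) (h1 : γ < 1)
    (hE : ∀ (n : ℕ) (X : Matrix (Qb n) (Qb n) ℂ), X.PosSemidef → X.trace = 1 →
      ∑ i, Eent (cc γ * popn X i) ≤ vnEntropy (gadcN γ 0 n X) * Real.log 2) :
    ∃ χ : ℝ,
      (∃ q ∈ Set.Icc (0 : ℝ) 1, χ = gainAD γ q) ∧ (∀ q ∈ Set.Icc (0 : ℝ) 1, gainAD γ q ≤ χ) ∧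
      (∀ q ∈ Set.Icc (0 : ℝ) 1, ∃ (p : Fin 2 → ℝ) (ρ : Fin 2 → Matrix (Qb 1) (Qb 1) ℂ),
        (∀ a, 0 ≤ p a) ∧ ∑ a, p a = 1 ∧ (∀ a, (ρ a).PosSemidef) ∧ (∀ a, (ρ a).trace = 1) ∧
        holevoN γ 0 1 p ρ = gainAD γ q) ∧
      (∀ (n : ℕ) (ι : Type) [Fintype ι] (p : ι → ℝ) (ρ : ι → Matrix (Qb n) (Qb n) ℂ),
        (∀ a, 0 ≤ p a) → ∑ a, p a = 1 → (∀ a, (ρ a).PosSemidef) → (∀ a, (ρ a).trace = 1) →
        holevoN γ 0 n p ρ ≤ n * χ) := by
  have hlog2 : 0 < Real.log 2 := Real.log_pos (by norm_num)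
  obtain ⟨qs, hqs, hmax⟩ := isCompact_Icc.exists_isMaxOn (s := Set.Icc (0 : ℝ) 1)
    ⟨0, by simp⟩ (continuous_gainAD γ).continuousOn
  refine ⟨gainAD γ qs, ⟨qs, hqs, rfl⟩, fun q hq => hmax hq, ?_, ?_⟩
  · intro q hq
    exact single_letter h0 h1 hq.1 hq.2
  · intro n ι _ p ρ hp0 hp1 hρ htr
    have hM : ∀ q, 0 ≤ q → q ≤ 1 →
        Real.binEntropy ((1 - γ) * q) - Eent (cc γ * q) ≤ gainAD γ qs * Real.log 2 := by
      intro q h3 h4
      have := hmax (show q ∈ Set.Icc (0 : ℝ) 1 from ⟨h3, h4⟩)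
      have h5 : gainAD γ q ≤ gainAD γ qs := this
      have h6 : gainAD γ q * Real.log 2 = Real.binEntropy ((1 - γ) * q) - Eent (cc γ * q) := by
        unfold gainAD
        field_simp
      rw [← h6]
      exact mul_le_mul_of_nonneg_right h5 hlog2.le
    have := holevo_upper h0 h1 hE hM n p hp0 hp1 ρ hρ htr
    have e : gainAD γ qs * Real.log 2 / Real.log 2 = gainAD γ qs := by field_simp
    rwa [e] at this

end

end Vale.Agent.P358A
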