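import Mathlib
import Vale.Agent.P358A.EntropyBound

namespace Vale.Agent.P358A

open Finset BigOperators Matrix Vale.Agent.P358h5
open scoped ComplexConjugate ComplexOrder

noncomputable section

variable {γ ν : ℝ}

section concavity
variable {κ : Type*} [Fintype κ] [DecidableEq κ]

lemma conj_eig_diag {C : Matrix κ κ ℂ} (hC : C.IsHermitian) :
    star (hC.eigenvectorUnitary : Matrix κ κ ℂ) * C * (hC.eigenvectorUnitary : Matrix κ κ ℂ) =
      diagonal (RCLike.ofReal ∘ hC.eigenvalues) := by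
  have hVV : star (hC.eigenvectorUnitary : Matrix κ κ ℂ) * (hC.eigenvectorUnitary : Matrix κ κ ℂ) = 1 :=
    Unitary.coe_star_mul_self _
  have hs := hC.spectral_theorem
  rw [Unitary.conjStarAlgAut_apply] at hs
  have h2 := congrArg (fun Z => star (hC.eigenvectorUnitary : Matrix κ κ ℂ) * Z *
    (hC.eigenvectorUnitary : Matrix κ κ ℂ)) hs
  refine h2.trans ?_
  calc _ = (star (hC.eigenvectorUnitary : Matrix κ κ ℂ) * (hC.eigenvectorUnitary : Matrix κ κ ℂ)) *
        diagonal (RCLike.ofReal ∘ hC.eigenvalues) *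
        (star (hC.eigenvectorUnitary : Matrix κ κ ℂ) * (hC.eigenvectorUnitary : Matrix κ κ ℂ)) := by
        simp only [mul_assoc]
    _ = _ := by rw [hVV, one_mul, mul_one]

lemma Su_conj {Z : Matrix κ κ ℂ} (hZ : Z.PosSemidef) (V : Matrix.unitaryGroup κ ℂ) :
    Su (star (V : Matrix κ κ ℂ) * Z * (V : Matrix κ κ ℂ)) = Su Z := by
  obtain ⟨B, rfl⟩ : ∃ B : Matrix κ κ ℂ, Z = Bᴴ * B := by
    open scoped MatrixOrder Matrix.Norms.L2Operator in
    obtain ⟨B, hB⟩ := CStarAlgebra.nonneg_iff_eq_star_mul_self.mp hZ.nonneg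
    exact ⟨B, by simpa [star_eq_conjTranspose] using hB⟩
  have h1 : star (V : Matrix κ κ ℂ) * (Bᴴ * B) * (V : Matrix κ κ ℂ) =
      (B * (V : Matrix κ κ ℂ))ᴴ * (B * (V : Matrix κ κ ℂ)) := by
    rw [Matrix.conjTranspose_mul, Matrix.star_eq_conjTranspose]
    simp only [mul_assoc]
  rw [h1, ← Su_mul_comm]
  have h2 : (B * (V : Matrix κ κ ℂ)) * (B * (V : Matrix κ κ ℂ))ᴴ = B * Bᴴ := by
    rw [Matrix.conjTranspose_mul]
    have hv : (V : Matrix κ κ ℂ) * (V : Matrix κ κ ℂ)ᴴ = 1 := by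
      rw [← Matrix.star_eq_conjTranspose]
      exact Unitary.coe_mul_star_self V
    calc _ = B * ((V : Matrix κ κ ℂ) * (V : Matrix κ κ ℂ)ᴴ) * Bᴴ := by simp only [mul_assoc]
      _ = _ := by rw [hv, mul_one]
  rw [h2, Su_mul_comm]

/-- Concavity of the von Neumann entropy. -/
theorem Su_concave {A B : Matrix κ κ ℂ} (hA : A.PosSemidef) (hB : B.PosSemidef)
    (htA : A.trace = 1) (htB : B.trace = 1) {a b : ℝ} (ha : 0 ≤ a) (hb : 0 ≤ b) (hab : a + b = 1) :
    a * Su A + b * Su B ≤ Su (((a : ℝ) : ℂ) • A + ((b : ℝ) : ℂ) • B) := by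
  classical
  set C : Matrix κ κ ℂ := ((a : ℝ) : ℂ) • A + ((b : ℝ) : ℂ) • B with hCdef
  have hCp : C.PosSemidef :=
    (hA.smul (Complex.zero_le_real.mpr ha)).add (hB.smul (Complex.zero_le_real.mpr hb))
  have hC := hCp.isHermitian
  set V : Matrix κ κ ℂ := (hC.eigenvectorUnitary : Matrix κ κ ℂ) with hV
  set l := hC.eigenvalues with hl
  have hl0 : ∀ x, 0 ≤ l x := hCp.eigenvalues_nonneg
  have htC : C.trace = 1 := by
    rw [hCdef, Matrix.trace_add, Matrix.trace_smul, Matrix.trace_smul, htA, htB]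
    simp only [smul_eq_mul, mul_one]
    rw [← Complex.ofReal_add, hab, Complex.ofReal_one]
  have hlsum : ∑ x, l x = 1 := by
    have := hC.trace_eq_sum_eigenvalues
    rw [htC] at this
    have h2 : ((∑ x, l x : ℝ) : ℂ) = 1 := by
      push_cast
      exact this.symm
    exact_mod_cast h2
  have hne : Nonempty κ := by
    by_contra hcon
    rw [not_nonempty_iff] at hcon
    simp at hlsum
  have hcard : (0 : ℝ) < Fintype.card κ := by exact_mod_cast Fintype.card_pos
  have hVV : V * star V = 1 := Unitary.coe_mul_star_self _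
  have hTdata : ∀ {Z : Matrix κ κ ℂ}, Z.PosSemidef → Z.trace = 1 →
      (star V * Z * V).PosSemidef ∧ (star V * Z * V).trace = 1 := by
    intro Z hZ htZ
    constructor
    · have := hZ.conjTranspose_mul_mul_same V
      rwa [Matrix.star_eq_conjTranspose]
    · rw [Matrix.trace_mul_comm, ← mul_assoc, hVV, one_mul, htZ]
  have hsum : ∀ x, a * ((star V * A * V) x x).re + b * ((star V * B * V) x x).re = l x := by
    intro x
    have h := conj_eig_diag hC
    have e : star V * C * V = ((a : ℝ) : ℂ) • (star V * A * V) + ((b : ℝ) : ℂ) • (star V * B * V) := by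
      rw [hCdef, Matrix.mul_add, Matrix.add_mul, Matrix.mul_smul, Matrix.mul_smul, Matrix.smul_mul,
        Matrix.smul_mul]
    have h3 := congrFun (congrFun h x) x
    rw [← hV, e] at h3
    simp only [Matrix.add_apply, Matrix.smul_apply, smul_eq_mul, Matrix.diagonal_apply_eq,
      Function.comp] at h3
    have h4 := congrArg Complex.re h3
    simpa [Complex.add_re, Complex.re_ofReal_mul] using h4
  -- the bound for each positive reference
  have key : ∀ σ : κ → ℝ, (∀ x, 0 < σ x) → ∑ x, σ x = 1 →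
      a * Su A + b * Su B ≤ - ∑ x, l x * Real.log (σ x) := by
    intro σ hσ hσ1
    have hw : ∀ x : κ, 0 < (Real.sqrt (σ x))⁻¹ := fun x => inv_pos.mpr (Real.sqrt_pos.mpr (hσ x))
    have hwσ : ∀ x : κ, 2 * Real.log ((Real.sqrt (σ x))⁻¹) = -Real.log (σ x) := by
      intro x
      rw [Real.log_inv, Real.log_sqrt (hσ x).le]
      ring
    have bound : ∀ {Z : Matrix κ κ ℂ}, Z.PosSemidef → Z.trace = 1 →
        Su Z ≤ - ∑ x, ((star V * Z * V) x x).re * Real.log (σ x) := by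
      intro Z hZ htZ
      obtain ⟨h1, h2⟩ := hTdata hZ htZ
      have h3 := (dens_bounds (star V * Z * V) h1 h2 σ hσ hσ1 _ hw hwσ).1
      rw [← Su_of_herm h1.isHermitian] at h3
      have h4 : Su (star V * Z * V) = Su Z := Su_conj hZ hC.eigenvectorUnitary
      rwa [h4] at h3
    have hA' := mul_le_mul_of_nonneg_left (bound hA htA) ha
    have hB' := mul_le_mul_of_nonneg_left (bound hB htB) hb
    have e : - ∑ x, l x * Real.log (σ x) =
        a * (- ∑ x, ((star V * A * V) x x).re * Real.log (σ x)) +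
          b * (- ∑ x, ((star V * B * V) x x).re * Real.log (σ x)) := by
      simp only [← hsum, add_mul, Finset.sum_add_distrib, mul_neg, Finset.mul_sum, mul_assoc, neg_add]
    rw [e]
    linarith
  -- the limit
  have hlim : Filter.Tendsto (fun ε : ℝ => - ∑ x, l x * Real.log ((1 - ε) * l x + ε / Fintype.card κ))
      (nhdsWithin 0 (Set.Ioi 0)) (nhds (Su C)) := by
    rw [Su_of_herm hC]
    have h1 : Filter.Tendsto (fun ε : ℝ => ∑ x, l x * Real.log ((1 - ε) * l x + ε / Fintype.card κ))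
        (nhdsWithin 0 (Set.Ioi 0)) (nhds (∑ x, l x * Real.log (l x))) := by
      refine tendsto_finsetSum _ fun x _ => ?_
      have := aux_tendsto (l x) (fun ε : ℝ => (1 - ε) * l x + ε / Fintype.card κ) (by fun_prop)
        (by
          intro h
          simpa using h)
      simpa using this
    have h2 := h1.neg
    have e : - ∑ x, l x * Real.log (l x) = ∑ i, Real.negMulLog (hC.eigenvalues i) := by
      rw [← Finset.sum_neg_distrib]
      refine Finset.sum_congr rfl fun x _ => ?_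
      simp [Real.negMulLog, hl]
    rwa [e] at h2
  refine ge_of_tendsto hlim ?_
  have hmem : Set.Ioo (0:ℝ) 1 ∈ nhdsWithin (0:ℝ) (Set.Ioi 0) := Ioo_mem_nhdsGT one_pos
  filter_upwards [hmem] with ε hε
  refine key _ (fun x => ?_) ?_
  · have h1 := mul_nonneg (sub_pos.mpr hε.2).le (hl0 x)
    have h2 : 0 < ε / (Fintype.card κ : ℝ) := div_pos hε.1 hcard
    linarith
  · rw [Finset.sum_add_distrib, ← Finset.mul_sum, hlsum, Finset.sum_const, Finset.card_univ,
      nsmul_eq_mul]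
    field_simp
    ring

lemma Fe_zero' : Fe (0 : Matrix κ κ ℂ) = 0 := by
  have := Fe_smul (X := (0 : Matrix κ κ ℂ)) Matrix.isHermitian_zero (c := 0) le_rfl
  simpa using this

/-- Concavity of `F` on states with the same trace. -/
theorem Fe_concave {A B : Matrix κ κ ℂ} (hA : A.PosSemidef) (hB : B.PosSemidef)
    (ht : A.trace = B.trace) {a b : ℝ} (ha : 0 ≤ a) (hb : 0 ≤ b) (hab : a + b = 1) :
    a * Fe A + b * Fe B ≤ Fe (((a : ℝ) : ℂ) • A + ((b : ℝ) : ℂ) • B) := by
  set w : ℝ := A.trace.re with hw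
  have hw0 : 0 ≤ w := (Complex.le_def.1 hA.trace_nonneg).1
  have htA : A.trace = ((w : ℝ) : ℂ) := by
    apply Complex.ext
    · simp [hw]
    · have := (Complex.le_def.1 hA.trace_nonneg).2
      simpa using this.symm
  rcases hw0.eq_or_lt with hw1 | hw1
  · have hA0 : A = 0 := by
      apply (hA.trace_eq_zero_iff).1
      rw [htA, ← hw1]
      simp
    have hB0 : B = 0 := by
      apply (hB.trace_eq_zero_iff).1
      rw [← ht, htA, ← hw1]
      simp
    subst hA0
    subst hB0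
    simp [Fe_zero']
  · have hw' : w ≠ 0 := hw1.ne'
    obtain ⟨A', hA'⟩ : ∃ A' : Matrix κ κ ℂ, A' = ((w⁻¹ : ℝ) : ℂ) • A := ⟨_, rfl⟩
    obtain ⟨B', hB'⟩ : ∃ B' : Matrix κ κ ℂ, B' = ((w⁻¹ : ℝ) : ℂ) • B := ⟨_, rfl⟩
    have hA'p : A'.PosSemidef := by
      rw [hA']
      exact hA.smul (Complex.zero_le_real.mpr (inv_pos.mpr hw1).le)
    have hB'p : B'.PosSemidef := by
      rw [hB']
      exact hB.smul (Complex.zero_le_real.mpr (inv_pos.mpr hw1).le)
    have tA' : A'.trace = 1 := by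
      rw [hA', Matrix.trace_smul, htA, smul_eq_mul, ← Complex.ofReal_mul, inv_mul_cancel₀ hw',
        Complex.ofReal_one]
    have tB' : B'.trace = 1 := by
      rw [hB', Matrix.trace_smul, ← ht, htA, smul_eq_mul, ← Complex.ofReal_mul, inv_mul_cancel₀ hw',
        Complex.ofReal_one]
    have eA : A = ((w : ℝ) : ℂ) • A' := by
      rw [hA', smul_smul, ← Complex.ofReal_mul, mul_inv_cancel₀ hw', Complex.ofReal_one, one_smul]
    have eB : B = ((w : ℝ) : ℂ) • B' := by
      rw [hB', smul_smul, ← Complex.ofReal_mul, mul_inv_cancel₀ hw', Complex.ofReal_one, one_smul]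
    have eC : ((a : ℝ) : ℂ) • A + ((b : ℝ) : ℂ) • B =
        ((w : ℝ) : ℂ) • (((a : ℝ) : ℂ) • A' + ((b : ℝ) : ℂ) • B') := by
      conv_lhs => rw [eA, eB]
      rw [smul_add, smul_smul, smul_smul, smul_smul, smul_smul, mul_comm ((a : ℝ) : ℂ),
        mul_comm ((b : ℝ) : ℂ)]
    have hC'p : (((a : ℝ) : ℂ) • A' + ((b : ℝ) : ℂ) • B').PosSemidef :=
      (hA'p.smul (Complex.zero_le_real.mpr ha)).add (hB'p.smul (Complex.zero_le_real.mpr hb))
    have tC' : (((a : ℝ) : ℂ) • A' + ((b : ℝ) : ℂ) • B').trace = 1 := by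
      rw [Matrix.trace_add, Matrix.trace_smul, Matrix.trace_smul, tA', tB']
      simp only [smul_eq_mul, mul_one]
      rw [← Complex.ofReal_add, hab, Complex.ofReal_one]
    have hFe1 : ∀ {Z : Matrix κ κ ℂ}, Z.trace = 1 → Fe Z = Su Z := by
      intro Z hZ
      unfold Fe
      rw [hZ]
      simp
    have hfA : Fe A = w * Su A' := by
      conv_lhs => rw [eA]
      rw [Fe_smul hA'p.isHermitian hw1.le, hFe1 tA']
    have hfB : Fe B = w * Su B' := by
      conv_lhs => rw [eB]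
      rw [Fe_smul hB'p.isHermitian hw1.le, hFe1 tB']
    rw [eC, Fe_smul hC'p.isHermitian hw1.le, hfA, hfB, hFe1 tC']
    have := Su_concave hA'p hB'p tA' tB' ha hb hab
    have h2 := mul_le_mul_of_nonneg_left this hw0
    linarith

end concavity

/-! ### The flip -/

section flip
variable {R : Type*} [Fintype R] [DecidableEq R]

/-- `X ⊗ 1` as a relabelling. -/
def flipE (R : Type*) : Fin 2 × R ≃ Fin 2 × R := Equiv.prodCongr (Equiv.swap 0 1) (Equiv.refl R)

lemma flipE_zero (r : R) : flipE R (0, r) = (1, r) := by simp [flipE]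

lemma flipE_one (r : R) : flipE R (1, r) = (0, r) := by simp [flipE]

/-- Conjugation by `X ⊗ 1`. -/
def flipM (ρ : Matrix (Fin 2 × R) (Fin 2 × R) ℂ) : Matrix (Fin 2 × R) (Fin 2 × R) ℂ :=
  ρ.submatrix (flipE R) (flipE R)

lemma flipM_psd {ρ : Matrix (Fin 2 × R) (Fin 2 × R) ℂ} (hρ : ρ.PosSemidef) : (flipM ρ).PosSemidef :=
  hρ.submatrix _

lemma flipM_trace (ρ : Matrix (Fin 2 × R) (Fin 2 × R) ℂ) : (flipM ρ).trace = ρ.trace := by
  simp only [flipM, Matrix.trace, Matrix.diag_apply, Matrix.submatrix_apply]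
  exact (flipE R).sum_comp fun x => ρ x x

lemma Fe_flipM {ρ : Matrix (Fin 2 × R) (Fin 2 × R) ℂ} (hρ : ρ.IsHermitian) : Fe (flipM ρ) = Fe ρ := by
  have h : flipM ρ = reindex (flipE R).symm (flipE R).symm ρ := by
    simp [flipM, Matrix.reindex_apply]
  unfold Fe
  rw [flipM_trace, h, Su_reindex _ _ hρ]

lemma blk_flip (ρ : Matrix (Fin 2 × R) (Fin 2 × R) ℂ) :
    blk (flipM ρ) 0 0 = blk ρ 1 1 ∧ blk (flipM ρ) 1 1 = blk ρ 0 0 := by
  constructor <;> · ext r s; simp [blk, flipM, flipE]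

/-- The decomposition `𝒜_{γ,ν} = (1-ν) 𝒜_{γ,0} + ν X 𝒜_{γ,0} X`. -/
lemma adT_decomp (ρ : Matrix (Fin 2 × R) (Fin 2 × R) ℂ) :
    adT γ ν ρ = ((1 - ν : ℝ) : ℂ) • adT γ 0 ρ + ((ν : ℝ) : ℂ) • flipM (adT γ 0 (flipM ρ)) := by
  obtain ⟨c1, c2, c3, c4, c5, c6, c7, c8, c9, c10, c11, c12, c13, c14, c15, c16⟩ := coef_table γ ν
  obtain ⟨d1, d2, d3, d4, d5, d6, d7, d8, d9, d10, d11, d12, d13, d14, d15, d16⟩ := coef_table γ 0
  ext ⟨x₀, r⟩ ⟨y₀, s⟩
  rcases fin2_cases x₀ with rfl | rfl <;> rcases fin2_cases y₀ with rfl | rfl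
  · simp only [Matrix.add_apply, Matrix.smul_apply, smul_eq_mul, flipM, Matrix.submatrix_apply,
      flipE_zero, flipE_one, adT, Matrix.of_apply, Fin.sum_univ_two, c1, c2, c7, c8, d1, d2, d3, d4,
      d7, d8, d9, d10]
    push_cast
    ring
  · simp only [Matrix.add_apply, Matrix.smul_apply, smul_eq_mul, flipM, Matrix.submatrix_apply,
      flipE_zero, flipE_one, adT, Matrix.of_apply, Fin.sum_univ_two, c5, c11, c12, c13, d5, d6, d11,
      d12, d13, d14, d15, d16]
    push_cast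
    ring
  · simp only [Matrix.add_apply, Matrix.smul_apply, smul_eq_mul, flipM, Matrix.submatrix_apply,
      flipE_zero, flipE_one, adT, Matrix.of_apply, Fin.sum_univ_two, c6, c14, c15, c16, d5, d6, d11,
      d12, d13, d14, d15, d16]
    push_cast
    ring
  · simp only [Matrix.add_apply, Matrix.smul_apply, smul_eq_mul, flipM, Matrix.submatrix_apply,
      flipE_zero, flipE_one, adT, Matrix.of_apply, Fin.sum_univ_two, c3, c4, c9, c10, d1, d2, d3, d4,
      d7, d8, d9, d10]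
    push_cast
    ring

end flip

/-- The lower bound function for general `ν`. -/
def fhat (γ ν q : ℝ) : ℝ := (1 - ν) * Eent (cc γ * q) + ν * Eent (cc γ * (1 - q))

lemma fhat_convex (hν0 : 0 ≤ ν) (hν1 : ν ≤ 1) : ConvexOn ℝ (Set.Icc 0 1) (fhat γ ν) := by
  have h1 : ConvexOn ℝ (Set.Icc (0:ℝ) 1) (fun q => Eent (cc γ * q)) := convexOn_Eent_mul
  have h2 : ConvexOn ℝ (Set.Icc (0:ℝ) 1) (fun q => Eent (cc γ * (1 - q))) := by
    refine ⟨convex_Icc 0 1, ?_⟩
    intro x hx y hy a b ha hb hab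
    have hx' : 1 - x ∈ Set.Icc (0:ℝ) 1 := ⟨by linarith [hx.2], by linarith [hx.1]⟩
    have hy' : 1 - y ∈ Set.Icc (0:ℝ) 1 := ⟨by linarith [hy.2], by linarith [hy.1]⟩
    have := h1.2 hx' hy' ha hb hab
    simp only [smul_eq_mul] at this ⊢
    have e : a * (1 - x) + b * (1 - y) = 1 - (a * x + b * y) := by
      have : a = 1 - b := by linarith
      subst this
      ring
    rw [e] at this
    exact this
  have hc : ConvexOn ℝ (Set.Icc (0:ℝ) 1) (fun q => (1 - ν) • Eent (cc γ * q) + ν • Eent (cc γ * (1 - q))) :=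
    (h1.smul (by linarith)).add (h2.smul hν0)
  exact hc

lemma adT_zero_psd {R : Type*} [Fintype R] [DecidableEq R] (h0 : 0 ≤ γ) (h1 : γ ≤ 1)
    {ρ : Matrix (Fin 2 × R) (Fin 2 × R) ℂ} (hρ : ρ.PosSemidef) : (adT γ 0 ρ).PosSemidef := by
  obtain ⟨A, B, h00, h11, h01, h10⟩ := exists_rows hρ
  rw [adT_zero_eq_chanT h1, chanT_eq h0 (sub_nonneg.2 h1) h00 h11 h01 h10, Matrix.reindex_apply]
  exact (Matrix.posSemidef_self_mul_conjTranspose _).submatrix _

theorem estarF_general (h0 : 0 ≤ γ) (h1 : γ ≤ 1) (hν0 : 0 ≤ ν) (hν1 : ν ≤ 1) :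
    EStarF γ ν (fhat γ ν) := by
  intro R _ _ ρ hρ
  have hE := estarF_AD h0 h1
  have hE1 := hE R ρ hρ
  have hE2 := hE R (flipM ρ) (flipM_psd hρ)
  obtain ⟨hb0, hb1⟩ := blk_flip ρ
  rw [hb0, hb1, flipM_trace] at hE2
  have hη : 0 ≤ 1 - γ := sub_nonneg.2 h1
  have hs : γ + (1 - γ) = 1 := by ring
  have hT1 := adT_zero_psd h0 h1 hρ
  have hT2 := adT_zero_psd h0 h1 (flipM_psd hρ)
  have tr1 : (adT γ 0 ρ).trace = ρ.trace := by
    rw [adT_zero_eq_chanT h1, trace_chanT hs]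
  have tr2 : (adT γ 0 (flipM ρ)).trace = ρ.trace := by
    rw [adT_zero_eq_chanT h1, trace_chanT hs, flipM_trace]
  have hconc := Fe_concave hT1 (flipM_psd hT2) (by rw [flipM_trace, tr1, tr2])
    (a := 1 - ν) (b := ν) (by linarith) hν0 (by ring)
  rw [Fe_flipM hT2.isHermitian, ← adT_decomp] at hconc
  have hsplit := trace_split ρ
  set w := ρ.trace.re with hw
  set q := (blk ρ 1 1).trace.re with hq
  set q0 := (blk ρ 0 0).trace.re with hq0
  have hwq : w = q0 + q := by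
    rw [hw, hsplit, Complex.add_re]
  have hpersp : persp (fhat γ ν) w q = (1 - ν) * persp (fun q => Eent (cc γ * q)) w q +
      ν * persp (fun q => Eent (cc γ * q)) w q0 := by
    simp only [persp, fhat]
    rcases eq_or_ne w 0 with h | h
    · simp [h]
    · have e : q0 / w = 1 - q / w := by
        field_simp
        linarith
      rw [e]
      ring
  have a1 := mul_le_mul_of_nonneg_left hE1 (by linarith : 0 ≤ 1 - ν)
  have a2 := mul_le_mul_of_nonneg_left hE2 hν0
  rw [hpersp]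
  nlinarith [hconc, a1, a2]

/-- For all parameters the Holevo quantity of `𝒜_{γ,ν}^{⊗n}` is bounded by a sum of single-letter
terms. -/
theorem holevo_general (h0 : 0 ≤ γ) (h1 : γ ≤ 1) (hν0 : 0 ≤ ν) (hν1 : ν ≤ 1) {M : ℝ}
    (hM : ∀ q ∈ Set.Icc (0:ℝ) 1,
      (Real.binEntropy ((1 - γ) * q + γ * ν) - fhat γ ν q) / Real.log 2 ≤ M) (n : ℕ)
    {ι : Type*} [Fintype ι] (p : ι → ℝ) (hp0 : ∀ a, 0 ≤ p a) (hp1 : ∑ a, p a = 1)
    (ρ : ι → Matrix (Qb n) (Qb n) ℂ) (hρ : ∀ a, (ρ a).PosSemidef) (htr : ∀ a, (ρ a).trace = 1) :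
    holevoN γ ν n p ρ ≤ n * M := by
  have h := holevo_le_sum (estarF_general h0 h1 hν0 hν1) (fhat_convex hν0 hν1) h0 h1 hν0 hν1 n p hp0
    hp1 ρ hρ htr
  refine h.trans ?_
  have hre : ∀ a, (ρ a).trace.re = 1 := fun a => by rw [htr a]; simp
  have hmem : ∀ i, (∑ a, p a * pop (ρ a) i) ∈ Set.Icc (0:ℝ) 1 := by
    intro i
    constructor
    · exact Finset.sum_nonneg fun a _ => mul_nonneg (hp0 a) (pop_nonneg (hρ a) i)
    · calc ∑ a, p a * pop (ρ a) i ≤ ∑ a, p a * 1 :=
            Finset.sum_le_sum fun a _ => mul_le_mul_of_nonneg_left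
              (by simpa [hre a] using pop_le_trace (hρ a) i) (hp0 a)
        _ = 1 := by simpa using hp1
  calc _ ≤ ∑ _i : Fin n, M := Finset.sum_le_sum fun i _ => hM _ (hmem i)
    _ = n * M := by simp

end

end Vale.Agent.P358A
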