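import Mathlib
import Vale.Agent.P358A.Spectra

/-!
Schur complement factorisation: for `M = [[C1, A], [0, C2]]` and `t > 0`,
`log det (1 + M Mᴴ / t) - log det (1 + C1 C1ᴴ / t) - log det (1 + C2ᴴ C2 / t)`
equals `log det (D + K) - log det D`, with `D = diag (C1 C1ᴴ + t, C2ᴴ C2 + t)` and
`K = √t [[0, A], [-Aᴴ, 0]]`.
-/

namespace Vale.Agent.P358A
open Matrix Finset BigOperators
open scoped ComplexOrder

noncomputable section

lemma posDef_add_smul_one {k : Type*} [Fintype k] [DecidableEq k] {X : Matrix k k ℂ}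
    (hX : X.PosSemidef) {t : ℝ} (ht : 0 < t) : (X + ((t : ℝ) : ℂ) • (1 : Matrix k k ℂ)).PosDef := by
  have htc : (0 : ℂ) < ((t : ℝ) : ℂ) := by exact_mod_cast ht
  exact Matrix.PosDef.posSemidef_add hX (Matrix.PosDef.one.smul htc)

/-- The sum of logarithms is the logarithm of a determinant. -/
lemma sum_log_eq {m : Type*} [Fintype m] [DecidableEq m] {X : Matrix m m ℂ} (hX : X.IsHermitian)
    (hpos : ∀ i, 0 ≤ hX.eigenvalues i) {t : ℝ} (ht : 0 < t) :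
    ∑ i, Real.log (1 + hX.eigenvalues i / t) = Real.log ((1 + ((1 / t : ℝ) : ℂ) • X).det.re) := by
  rw [det_one_add_smul hX (1 / t), Complex.ofReal_re, Real.log_prod]
  · refine Finset.sum_congr rfl fun i _ => ?_
    congr 1
    field_simp
  · intro i _
    have := hpos i
    positivity

/-- The determinant in the previous lemma, as a positive real number. -/
lemma det_one_add_pos {m : Type*} [Fintype m] [DecidableEq m] {X : Matrix m m ℂ}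
    (hX : X.IsHermitian) (hpos : ∀ i, 0 ≤ hX.eigenvalues i) {t : ℝ} (ht : 0 < t) :
    (1 + ((1 / t : ℝ) : ℂ) • X).det = (((1 + ((1 / t : ℝ) : ℂ) • X).det.re : ℝ) : ℂ) ∧
      0 < (1 + ((1 / t : ℝ) : ℂ) • X).det.re := by
  rw [det_one_add_smul hX (1 / t), Complex.ofReal_re]
  refine ⟨rfl, Finset.prod_pos fun i _ => ?_⟩
  have := hpos i
  positivity

lemma det_add_smul_one {m : Type*} [Fintype m] [DecidableEq m] (X : Matrix m m ℂ) {t : ℝ}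
    (ht : 0 < t) :
    (X + ((t : ℝ) : ℂ) • (1 : Matrix m m ℂ)).det
      = ((t : ℝ) : ℂ) ^ Fintype.card m * (1 + ((1 / t : ℝ) : ℂ) • X).det := by
  have hne : ((t : ℝ) : ℂ) ≠ 0 := by exact_mod_cast ht.ne'
  have h : X + ((t : ℝ) : ℂ) • (1 : Matrix m m ℂ)
      = ((t : ℝ) : ℂ) • (1 + ((1 / t : ℝ) : ℂ) • X) := by
    rw [smul_add, smul_smul]
    have : ((t : ℝ) : ℂ) * ((1 / t : ℝ) : ℂ) = 1 := by
      push_cast
      field_simp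
    rw [this, one_smul, add_comm]
  rw [h, Matrix.det_smul]

variable {m1 n1 m2 n2 : Type*} [Fintype m1] [DecidableEq m1] [Fintype n1] [DecidableEq n1]
  [Fintype m2] [DecidableEq m2] [Fintype n2] [DecidableEq n2]

/-- The Schur form of the determinant of the block matrix `[[P, c A], [-c Aᴴ, Q]]`. -/
lemma det_block_schur (P : Matrix m1 m1 ℂ) (Q : Matrix n2 n2 ℂ) (A : Matrix m1 n2 ℂ) (c : ℝ)
    (hQ : IsUnit Q.det) :
    (fromBlocks P (((c : ℝ) : ℂ) • A) (-(((c : ℝ) : ℂ) • Aᴴ)) Q).det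
      = Q.det * (P + ((c * c : ℝ) : ℂ) • (A * Q⁻¹ * Aᴴ)).det := by
  haveI : Invertible Q := Matrix.invertibleOfIsUnitDet Q hQ
  rw [Matrix.det_fromBlocks₂₂, Matrix.invOf_eq_nonsing_inv]
  congr 2
  simp only [Matrix.smul_mul, Matrix.mul_smul, Matrix.mul_neg, smul_smul, sub_neg_eq_add]
  push_cast
  rw [Matrix.mul_assoc]

/-- Positivity of the determinant of the block matrix. -/
lemma det_block_pos {P : Matrix m1 m1 ℂ} {Q : Matrix n2 n2 ℂ} (hP : P.PosDef) (hQ : Q.PosDef)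
    (A : Matrix m1 n2 ℂ) (c : ℝ) :
    (fromBlocks P (((c : ℝ) : ℂ) • A) (-(((c : ℝ) : ℂ) • Aᴴ)) Q).det.im = 0 ∧
      0 < (fromBlocks P (((c : ℝ) : ℂ) • A) (-(((c : ℝ) : ℂ) • Aᴴ)) Q).det.re := by
  have hQu : IsUnit Q.det := hQ.isUnit.map (Matrix.detMonoidHom) |> fun h => by simpa using h
  rw [det_block_schur P Q A c hQu]
  have h1 : (A * Q⁻¹ * Aᴴ).PosSemidef := by
    have := (hQ.inv.posSemidef).mul_mul_conjTranspose_same A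
    simpa using this
  have h2 : (P + ((c * c : ℝ) : ℂ) • (A * Q⁻¹ * Aᴴ)).PosDef := by
    refine hP.add_posSemidef ?_
    have hcc : (0 : ℂ) ≤ ((c * c : ℝ) : ℂ) := by
      exact_mod_cast mul_self_nonneg c
    exact h1.smul hcc
  have h3 := mul_pos hQ.det_pos h2.det_pos
  have h4 := Complex.pos_iff.mp h3
  exact ⟨h4.2.symm, h4.1⟩

/-- Push-through identity. -/
lemma pushThrough (C2 : Matrix m2 n2 ℂ) {t : ℝ} (ht : 0 < t) :
    C2ᴴ * (C2 * C2ᴴ + ((t : ℝ) : ℂ) • (1 : Matrix m2 m2 ℂ))⁻¹ * C2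
      = 1 - ((t : ℝ) : ℂ) • (C2ᴴ * C2 + ((t : ℝ) : ℂ) • (1 : Matrix n2 n2 ℂ))⁻¹ := by
  have htc : (0 : ℂ) < ((t : ℝ) : ℂ) := by exact_mod_cast ht
  have hP1 : (C2 * C2ᴴ + ((t : ℝ) : ℂ) • (1 : Matrix m2 m2 ℂ)).PosDef :=
    posDef_add_smul_one (posSemidef_self_mul_conjTranspose C2) ht
  have hP2 : (C2ᴴ * C2 + ((t : ℝ) : ℂ) • (1 : Matrix n2 n2 ℂ)).PosDef :=
    posDef_add_smul_one (posSemidef_conjTranspose_mul_self C2) ht
  set R := C2 * C2ᴴ + ((t : ℝ) : ℂ) • (1 : Matrix m2 m2 ℂ) with hR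
  set Q := C2ᴴ * C2 + ((t : ℝ) : ℂ) • (1 : Matrix n2 n2 ℂ) with hQ
  have hRu : IsUnit R.det := (Matrix.isUnit_iff_isUnit_det R).mp hP1.isUnit
  have hQu : IsUnit Q.det := (Matrix.isUnit_iff_isUnit_det Q).mp hP2.isUnit
  have hint : Q * C2ᴴ = C2ᴴ * R := by
    simp only [hQ, hR, Matrix.add_mul, Matrix.mul_add, Matrix.smul_mul, Matrix.mul_smul,
      Matrix.one_mul, Matrix.mul_one, Matrix.mul_assoc]
  have h1 : C2ᴴ * R⁻¹ = Q⁻¹ * C2ᴴ := by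
    calc C2ᴴ * R⁻¹ = Q⁻¹ * (Q * C2ᴴ) * R⁻¹ := by
          rw [← Matrix.mul_assoc, Matrix.nonsing_inv_mul _ hQu, Matrix.one_mul]
      _ = Q⁻¹ * C2ᴴ * (R * R⁻¹) := by rw [hint]; simp only [Matrix.mul_assoc]
      _ = Q⁻¹ * C2ᴴ := by rw [Matrix.mul_nonsing_inv _ hRu, Matrix.mul_one]
  rw [h1, Matrix.mul_assoc]
  have h2 : C2ᴴ * C2 = Q - ((t : ℝ) : ℂ) • (1 : Matrix n2 n2 ℂ) := by
    simp [hQ]
  rw [h2, Matrix.mul_sub, Matrix.nonsing_inv_mul _ hQu, Matrix.mul_smul, Matrix.mul_one]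

/-- The determinant of `M Mᴴ + t` in Schur form. -/
lemma det_T_schur (C1 : Matrix m1 n1 ℂ) (A : Matrix m1 n2 ℂ) (C2 : Matrix m2 n2 ℂ) {t : ℝ}
    (ht : 0 < t) :
    (fromBlocks C1 A 0 C2 * (fromBlocks C1 A 0 C2)ᴴ
        + ((t : ℝ) : ℂ) • (1 : Matrix (m1 ⊕ m2) (m1 ⊕ m2) ℂ)).det
      = (C2 * C2ᴴ + ((t : ℝ) : ℂ) • (1 : Matrix m2 m2 ℂ)).det *
        (C1 * C1ᴴ + ((t : ℝ) : ℂ) • (1 : Matrix m1 m1 ℂ)
          + ((t : ℝ) : ℂ) • (A * (C2ᴴ * C2 + ((t : ℝ) : ℂ) • (1 : Matrix n2 n2 ℂ))⁻¹ * Aᴴ)).det := by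
  have htc : (0 : ℂ) < ((t : ℝ) : ℂ) := by exact_mod_cast ht
  have hP1 : (C2 * C2ᴴ + ((t : ℝ) : ℂ) • (1 : Matrix m2 m2 ℂ)).PosDef :=
    posDef_add_smul_one (posSemidef_self_mul_conjTranspose C2) ht
  have hRu : IsUnit (C2 * C2ᴴ + ((t : ℝ) : ℂ) • (1 : Matrix m2 m2 ℂ)).det :=
    (Matrix.isUnit_iff_isUnit_det _).mp hP1.isUnit
  haveI : Invertible (C2 * C2ᴴ + ((t : ℝ) : ℂ) • (1 : Matrix m2 m2 ℂ)) :=
    Matrix.invertibleOfIsUnitDet _ hRu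
  have hM : fromBlocks C1 A 0 C2 * (fromBlocks C1 A 0 C2)ᴴ
        + ((t : ℝ) : ℂ) • (1 : Matrix (m1 ⊕ m2) (m1 ⊕ m2) ℂ)
      = fromBlocks (C1 * C1ᴴ + A * Aᴴ + ((t : ℝ) : ℂ) • 1) (A * C2ᴴ) (C2 * Aᴴ)
          (C2 * C2ᴴ + ((t : ℝ) : ℂ) • 1) := by
    rw [fromBlocks_conjTranspose, fromBlocks_multiply, ← Matrix.fromBlocks_one, fromBlocks_smul,
      fromBlocks_add]
    simp
  rw [hM, Matrix.det_fromBlocks₂₂, Matrix.invOf_eq_nonsing_inv]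
  congr 2
  have hpt := pushThrough C2 ht
  have : A * C2ᴴ * (C2 * C2ᴴ + ((t : ℝ) : ℂ) • (1 : Matrix m2 m2 ℂ))⁻¹ * (C2 * Aᴴ)
      = A * (C2ᴴ * (C2 * C2ᴴ + ((t : ℝ) : ℂ) • (1 : Matrix m2 m2 ℂ))⁻¹ * C2) * Aᴴ := by
    simp only [Matrix.mul_assoc]
  rw [this, hpt, Matrix.mul_sub, Matrix.sub_mul, Matrix.mul_one, Matrix.mul_smul, Matrix.smul_mul]
  abel

/-- The block matrices `D`, `K`. -/
def Dt (C1 : Matrix m1 n1 ℂ) (C2 : Matrix m2 n2 ℂ) (t : ℝ) : Matrix (m1 ⊕ n2) (m1 ⊕ n2) ℂ :=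
  fromBlocks (C1 * C1ᴴ + ((t : ℝ) : ℂ) • 1) 0 0 (C2ᴴ * C2 + ((t : ℝ) : ℂ) • 1)

def Kt (A : Matrix m1 n2 ℂ) (t : ℝ) : Matrix (m1 ⊕ n2) (m1 ⊕ n2) ℂ :=
  fromBlocks 0 (((Real.sqrt t : ℝ) : ℂ) • A) (-(((Real.sqrt t : ℝ) : ℂ) • Aᴴ)) 0

lemma Dt_add_Kt (C1 : Matrix m1 n1 ℂ) (A : Matrix m1 n2 ℂ) (C2 : Matrix m2 n2 ℂ) (t : ℝ) :
    Dt C1 C2 t + Kt A t = fromBlocks (C1 * C1ᴴ + ((t : ℝ) : ℂ) • 1) (((Real.sqrt t : ℝ) : ℂ) • A)
      (-(((Real.sqrt t : ℝ) : ℂ) • Aᴴ)) (C2ᴴ * C2 + ((t : ℝ) : ℂ) • 1) := by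
  simp [Dt, Kt, fromBlocks_add]

/-- The Schur factorisation in the form used by the bridge. -/
theorem schur_factor (C1 : Matrix m1 n1 ℂ) (A : Matrix m1 n2 ℂ) (C2 : Matrix m2 n2 ℂ) {t : ℝ}
    (ht : 0 < t) :
    ∑ i, Real.log (1 + (isHermitian_mul_conjTranspose' (fromBlocks C1 A 0 C2)).eigenvalues i / t)
        - ∑ i, Real.log (1 + (isHermitian_mul_conjTranspose' C1).eigenvalues i / t)
        - ∑ i, Real.log (1 + (isHermitian_conjTranspose_mul' C2).eigenvalues i / t)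
      = Real.log (Dt C1 C2 t + Kt A t).det.re - Real.log (Dt C1 C2 t).det.re := by
  classical
  have htc : (0 : ℂ) < ((t : ℝ) : ℂ) := by exact_mod_cast ht
  set M := fromBlocks C1 A 0 C2 with hMdef
  have hM := isHermitian_mul_conjTranspose' M
  have hH := isHermitian_mul_conjTranspose' C1
  have hG := isHermitian_conjTranspose_mul' C2
  have nM : ∀ i, 0 ≤ hM.eigenvalues i := eigenvalues_self_mul_conjTranspose_nonneg M
  have nH : ∀ i, 0 ≤ hH.eigenvalues i := eigenvalues_self_mul_conjTranspose_nonneg C1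
  have nG : ∀ i, 0 ≤ hG.eigenvalues i := eigenvalues_conjTranspose_mul_self_nonneg C2
  rw [sum_log_eq hM nM ht, sum_log_eq hH nH ht, sum_log_eq hG nG ht]
  obtain ⟨eM, pM⟩ := det_one_add_pos hM nM ht
  obtain ⟨eH, pH⟩ := det_one_add_pos hH nH ht
  obtain ⟨eG, pG⟩ := det_one_add_pos hG nG ht
  set dM := (1 + ((1 / t : ℝ) : ℂ) • (M * Mᴴ)).det.re with hdM
  set dH := (1 + ((1 / t : ℝ) : ℂ) • (C1 * C1ᴴ)).det.re with hdH
  set dG := (1 + ((1 / t : ℝ) : ℂ) • (C2ᴴ * C2)).det.re with hdG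
  -- the matrices
  set P := C1 * C1ᴴ + ((t : ℝ) : ℂ) • (1 : Matrix m1 m1 ℂ) with hP
  set Q := C2ᴴ * C2 + ((t : ℝ) : ℂ) • (1 : Matrix n2 n2 ℂ) with hQ
  have hQpd : Q.PosDef := posDef_add_smul_one (posSemidef_conjTranspose_mul_self C2) ht
  have hQu : IsUnit Q.det := (Matrix.isUnit_iff_isUnit_det Q).mp hQpd.isUnit
  set S := (P + ((t : ℝ) : ℂ) • (A * Q⁻¹ * Aᴴ)).det with hS
  -- the three determinants
  have hc : ((Real.sqrt t * Real.sqrt t : ℝ)) = t := Real.mul_self_sqrt ht.le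
  have h1 : (Dt C1 C2 t + Kt A t).det = Q.det * S := by
    rw [Dt_add_Kt, det_block_schur _ _ _ _ hQu, hc]
  have h2 : (Dt C1 C2 t).det = P.det * Q.det := by
    simp [Dt, Matrix.det_fromBlocks_zero₁₂, hP, hQ]
  have h3 : (M * Mᴴ + ((t : ℝ) : ℂ) • (1 : Matrix (m1 ⊕ m2) (m1 ⊕ m2) ℂ)).det
      = (C2 * C2ᴴ + ((t : ℝ) : ℂ) • (1 : Matrix m2 m2 ℂ)).det * S := det_T_schur C1 A C2 ht
  have h4 : (1 + ((1 / t : ℝ) : ℂ) • (C2 * C2ᴴ)).det = (dG : ℂ) := by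
    rw [← eG]
    have := Matrix.det_one_add_mul_comm (((1 / t : ℝ) : ℂ) • C2) C2ᴴ
    simpa [Matrix.smul_mul, Matrix.mul_smul] using this
  rw [det_add_smul_one _ ht, eM] at h3
  rw [det_add_smul_one _ ht, h4] at h3
  have hP' : P.det = ((t : ℝ) : ℂ) ^ Fintype.card m1 * (dH : ℂ) := by
    rw [hP, det_add_smul_one _ ht, eH]
  have hQ' : Q.det = ((t : ℝ) : ℂ) ^ Fintype.card n2 * (dG : ℂ) := by
    rw [hQ, det_add_smul_one _ ht, eG]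
  have htne : ((t : ℝ) : ℂ) ≠ 0 := htc.ne'
  have hdGne : (dG : ℂ) ≠ 0 := by exact_mod_cast pG.ne'
  have hS' : (dG : ℂ) * S = ((t : ℝ) : ℂ) ^ Fintype.card m1 * (dM : ℂ) := by
    have h5 : ((t : ℝ) : ℂ) ^ Fintype.card m2 ≠ 0 := pow_ne_zero _ htne
    apply mul_left_cancel₀ h5
    rw [Fintype.card_sum, pow_add] at h3
    linear_combination -h3
  have hK : (Dt C1 C2 t + Kt A t).det = ((t ^ Fintype.card n2 * (t ^ Fintype.card m1 * dM) : ℝ) : ℂ) := by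
    rw [h1, hQ']
    push_cast
    linear_combination ((t : ℂ) ^ Fintype.card n2) * hS'
  have hD : (Dt C1 C2 t).det = (((t ^ Fintype.card m1 * dH) * (t ^ Fintype.card n2 * dG) : ℝ) : ℂ) := by
    rw [h2, hP', hQ']
    push_cast
    ring
  rw [hK, hD, Complex.ofReal_re, Complex.ofReal_re]
  have e1 : t ^ Fintype.card n2 ≠ 0 := pow_ne_zero _ ht.ne'
  have e2 : t ^ Fintype.card m1 ≠ 0 := pow_ne_zero _ ht.ne'
  rw [Real.log_mul e1 (mul_ne_zero e2 pM.ne'),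
    Real.log_mul (mul_ne_zero e2 pH.ne') (mul_ne_zero e1 pG.ne'),
    Real.log_mul e1 pG.ne', Real.log_mul e2 pM.ne', Real.log_mul e2 pH.ne']
  ring

end

end Vale.Agent.P358A
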